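import Vale.Agent.P356.Defs

namespace Vale.Agent.P356

open Matrix

/-- squared norm -/
noncomputable def nsq {n : Type} [Fintype n] (v : n → ℂ) : ℝ := ∑ s, ‖v s‖ ^ 2

/-- matrix element -/
def ip {n : Type} [Fintype n] (u : n → ℂ) (M : Matrix n n ℂ) (v : n → ℂ) : ℂ :=
  star u ⬝ᵥ (M *ᵥ v)

/-- function of a matrix in the basis `V` -/
def fn {n : Type} [Fintype n] [DecidableEq n] (V : Matrix n n ℂ) (f : n → ℂ) : Matrix n n ℂ :=
  V * diagonal f * Vᴴ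

/-- real version of `fn` -/
def fr {n : Type} [Fintype n] [DecidableEq n] (V : Matrix n n ℂ) (f : n → ℝ) : Matrix n n ℂ :=
  fn V fun i => (f i : ℂ)

/-- the power `d ^ a` in the basis `V` -/
noncomputable def pw {n : Type} [Fintype n] [DecidableEq n] (V : Matrix n n ℂ) (d : n → ℝ)
    (a : ℝ) : Matrix n n ℂ :=
  fr V fun i => d i ^ a

/-- contraction -/
def Ctr {m n : Type} [Fintype m] [Fintype n] (M : Matrix m n ℂ) : Prop :=
  ∀ v : n → ℂ, nsq (M *ᵥ v) ≤ nsq v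

/-- ordered product `P (j+n-1) * ... * P j` -/
def seg {n : Type} [Fintype n] [DecidableEq n] (P : ℕ → Matrix n n ℂ) (j : ℕ) :
    ℕ → Matrix n n ℂ
  | 0 => 1
  | m + 1 => P (j + m) * seg P j m

variable {Λ Q : Type} [Fintype Λ] [DecidableEq Λ] [Fintype Q] [DecidableEq Q]

/-- restriction to `A` -/
def res (A : Finset Λ) (s : Λ → Q) : {x // x ∈ A} → Q := fun x => s x

/-- restriction to the complement of `A` -/
def cores (A : Finset Λ) (s : Λ → Q) : {x // x ∉ A} → Q := fun x => s x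

/-- amplitude matrix -/
def amp (A : Finset Λ) (v : (Λ → Q) → ℂ) :
    Matrix ({x // x ∈ A} → Q) ({x // x ∉ A} → Q) ℂ :=
  fun a c => v (glue A a c)

/-- `m` tensor identity -/
def lift (A : Finset Λ) (m : Matrix ({x // x ∈ A} → Q) ({x // x ∈ A} → Q) ℂ) :
    Matrix (Λ → Q) (Λ → Q) ℂ :=
  fun s t => if cores A s = cores A t then m (res A s) (res A t) else 0

/-- identity tensor `m` -/
def colift (A : Finset Λ) (m : Matrix ({x // x ∉ A} → Q) ({x // x ∉ A} → Q) ℂ) :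
    Matrix (Λ → Q) (Λ → Q) ℂ :=
  fun s t => if res A s = res A t then m (cores A s) (cores A t) else 0

/-- `M` acts only on the sites satisfying `p` -/
def Loc (p : Λ → Prop) (M : Matrix (Λ → Q) (Λ → Q) ℂ) : Prop :=
  (∀ s t x, ¬ p x → s x ≠ t x → M s t = 0) ∧
  ∀ s t s' t' : Λ → Q, (∀ x, p x → s x = s' x) → (∀ x, p x → t x = t' x) →
    (∀ x, ¬ p x → s x = t x) → (∀ x, ¬ p x → s' x = t' x) → M s t = M s' t'

/-- `d` depends only on the sites satisfying `p` -/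
def Dep {β : Type} (p : Λ → Prop) (d : (Λ → Q) → β) : Prop :=
  ∀ s t : Λ → Q, (∀ x, p x → s x = t x) → d s = d t

/-- a density matrix on `A`, given by a basis and eigenvalues, on the full space -/
structure Spec (A : Finset Λ) (V : Matrix (Λ → Q) (Λ → Q) ℂ) (d : (Λ → Q) → ℝ) : Prop where
  uni : V * Vᴴ = 1
  loc : Loc (fun x => x ∈ A) V
  dep : Dep (fun x => x ∈ A) d
  nonneg : ∀ s, 0 ≤ d s
  le_one : ∀ s, d s ≤ 1
  sum : (∑ s, d s) * (Fintype.card Q : ℝ) ^ A.card = (Fintype.card Q : ℝ) ^ Fintype.card Λ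

/-- `(V, d)` is the regularised marginal of `u` on `A` -/
def Own (A : Finset Λ) (u : (Λ → Q) → ℂ) (V : Matrix (Λ → Q) (Λ → Q) ℂ)
    (d : (Λ → Q) → ℝ) : Prop :=
  ∃ (V0 : Matrix ({x // x ∈ A} → Q) ({x // x ∈ A} → Q) ℂ) (l : ({x // x ∈ A} → Q) → ℝ)
    (e Z : ℝ), 0 < e ∧ 0 < Z ∧ V0 * V0ᴴ = 1 ∧ V = lift A V0 ∧ rho A u = fr V0 l ∧
    ∀ s, d s = (l (res A s) + e) / Z

/-- the number of supports cut by `A` -/
def ncross (T : Finset (Finset Λ)) (A : Finset Λ) : ℕ :=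
  (T.filter fun X => ¬ X ⊆ A ∧ ¬ Disjoint X A).card

/-- gapped local Hamiltonian -/
structure Gapped (T : Finset (Finset Λ)) (h : Finset Λ → Matrix (Λ → Q) (Λ → Q) ℂ)
    (Ω : (Λ → Q) → ℂ) (E0 Δ J : ℝ) (m : ℕ) : Prop where
  norm1 : nsq Ω = 1
  eig : (∑ X ∈ T, h X) *ᵥ Ω = (E0 : ℂ) • Ω
  gap : ∀ u, nsq u = 1 → Δ * (1 - ‖star Ω ⬝ᵥ u‖ ^ 2) ≤ (ip u (∑ X ∈ T, h X) u).re - E0
  herm : ∀ X ∈ T, (h X).IsHermitian
  loc : ∀ X ∈ T, Loc (fun x => x ∈ X) (h X)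
  ent : ∀ X ∈ T, ∀ s t, ‖h X s t‖ ≤ J
  card : ∀ X ∈ T, X.card ≤ m

/-- the defect constant -/
noncomputable def KK (Q : Type) [Fintype Q] (J : ℝ) (m : ℕ) : ℝ :=
  32 * J * (Fintype.card Q : ℝ) ^ (2 * m)

/-- the operators of a family -/
noncomputable def PP (a : ℕ → ℝ) (x : ℕ → Matrix (Λ → Q) (Λ → Q) ℂ × ((Λ → Q) → ℝ)) :
    ℕ → Matrix (Λ → Q) (Λ → Q) ℂ :=
  fun r => pw (x r).1 (x r).2 (a r)

/-- admissible families -/
def Dom (A : ℕ → Finset Λ) (x : ℕ → Matrix (Λ → Q) (Λ → Q) ℂ × ((Λ → Q) → ℝ)) : Prop :=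
  ∀ r, Spec (A r) (x r).1 (x r).2

/-- the regulariser -/
noncomputable def reg (k : ℕ) (ε : ℝ)
    (x : ℕ → Matrix (Λ → Q) (Λ → Q) ℂ × ((Λ → Q) → ℝ)) : ℝ :=
  ∏ r ∈ Finset.range k, ∏ s, (x r).2 s ^ ε

/-- the box `[x1, x2) x [y1, y2)` -/
def box (L x1 x2 y1 y2 : ℕ) : Finset (Fin L × Fin L) :=
  Finset.univ.filter fun z => x1 ≤ z.1.val ∧ z.1.val < x2 ∧ y1 ≤ z.2.val ∧ z.2.val < y2

end Vale.Agent.P356
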