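import Vale.Agent.P356.Lin

namespace Vale.Agent.P356

open Matrix

variable {n : Type} [Fintype n] [DecidableEq n]

theorem bip_trace (V R : Matrix n n ℂ) (w : n → ℝ) :
    trace (fr V w * R) = ∑ i, (w i : ℂ) * (Vᴴ * R * V) i i := by
  have h : trace (fr V w * R) = trace (diagonal (fun i => (w i : ℂ)) * (Vᴴ * R * V)) := by
    unfold fr fn
    rw [Matrix.mul_assoc, Matrix.mul_assoc, trace_mul_comm, Matrix.mul_assoc, Matrix.mul_assoc]
  rw [h]
  simp [trace, diagonal_mul]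

theorem bip_conj {V : Matrix n n ℂ} (hV : V * Vᴴ = 1) (l : n → ℝ) :
    Vᴴ * fr V l * V = diagonal fun i => (l i : ℂ) := by
  unfold fr fn
  rw [← Matrix.mul_assoc, ← Matrix.mul_assoc, uni_symm hV, Matrix.one_mul, Matrix.mul_assoc,
    uni_symm hV, Matrix.mul_one]

omit [DecidableEq n] in
theorem bip_ct (V R : Matrix n n ℂ) (i j : n) : (Vᴴ * Rᴴ * V) i j = star ((Vᴴ * R * V) j i) := by
  rw [← conjTranspose_apply, conjTranspose_mul, conjTranspose_mul, conjTranspose_conjTranspose,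
    Matrix.mul_assoc]

theorem bip_half (V R : Matrix n n ℂ) (w : n → ℝ) :
    (trace (fr V w * (R + Rᴴ))).re = 2 * (trace (fr V w * R)).re := by
  rw [bip_trace, bip_trace, Complex.re_sum, Complex.re_sum, Finset.mul_sum]
  refine Finset.sum_congr rfl fun i _ => ?_
  rw [Matrix.mul_add, Matrix.add_mul, Matrix.add_apply, bip_ct, Complex.re_ofReal_mul,
    Complex.re_ofReal_mul, Complex.add_re, Complex.star_def, Complex.conj_re]
  ring

theorem bip_row {Y : Matrix n n ℂ} (hY : Y * Yᴴ = 1) (i : n) : ∑ j, ‖Y i j‖ ^ 2 = 1 := by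
  have h := congrFun (congrFun hY i) i
  rw [Matrix.mul_apply, one_apply_eq] at h
  have h2 : ((∑ j, ‖Y i j‖ ^ 2 : ℝ) : ℂ) = 1 := by
    rw [← h]
    push_cast
    refine Finset.sum_congr rfl fun j _ => ?_
    rw [conjTranspose_apply, Complex.star_def, Complex.mul_conj']
  exact_mod_cast h2

theorem bip_uni {V W : Matrix n n ℂ} (hV : V * Vᴴ = 1) (hW : W * Wᴴ = 1) :
    (Vᴴ * W) * (Vᴴ * W)ᴴ = 1 := by
  rw [conjTranspose_mul, conjTranspose_conjTranspose, Matrix.mul_assoc, ← Matrix.mul_assoc W,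
    hW, Matrix.one_mul, uni_symm hV]

theorem bip_col {Y : Matrix n n ℂ} (hY : Y * Yᴴ = 1) (j : n) : ∑ i, ‖Y i j‖ ^ 2 = 1 := by
  have h : Yᴴ * Yᴴᴴ = 1 := by rw [conjTranspose_conjTranspose, uni_symm hY]
  rw [← bip_row h j]
  refine Finset.sum_congr rfl fun i _ => ?_
  rw [conjTranspose_apply, norm_star]

/-- trace of a product of two functions in two bases -/
theorem trace_fr_fr {V W : Matrix n n ℂ} (f g : n → ℝ) :
    (trace (fr W f * fr V g)).re = ∑ i, ∑ j, g i * ‖(Vᴴ * W) i j‖ ^ 2 * f j := by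
  rw [bip_trace, Complex.re_sum, Finset.sum_comm]
  refine Finset.sum_congr rfl fun j _ => ?_
  have h : Wᴴ * fr V g * W = (Vᴴ * W)ᴴ * (diagonal (fun i => (g i : ℂ)) * (Vᴴ * W)) := by
    unfold fr fn
    rw [conjTranspose_mul, conjTranspose_conjTranspose]
    simp only [Matrix.mul_assoc]
  rw [h, Matrix.mul_apply, Finset.mul_sum, Complex.re_sum]
  refine Finset.sum_congr rfl fun i _ => ?_
  rw [diagonal_mul, conjTranspose_apply, Complex.star_def]
  have h2 : (f j : ℂ) * ((starRingEnd ℂ) ((Vᴴ * W) i j) * ((g i : ℂ) * (Vᴴ * W) i j)) =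
      ((g i * ‖(Vᴴ * W) i j‖ ^ 2 * f j : ℝ) : ℂ) := by
    push_cast
    rw [← Complex.mul_conj']
    ring
  rw [h2, Complex.ofReal_re]

/-- `V'` = eigenbasis of `R + Rᴴ`; `‖(Vᴴ * V') i j‖ ^ 2` is doubly stochastic; Birkhoff -/
theorem birk (R : Matrix n n ℂ) {V : Matrix n n ℂ} (hV : V * Vᴴ = 1) (w : n → ℝ) :
    ∃ (V' : Matrix n n ℂ) (π : Equiv.Perm n), V' * V'ᴴ = 1 ∧
      (∀ i j, i ≠ j → (V'ᴴ * (R + Rᴴ) * V') i j = 0) ∧
      (trace (fr V w * R)).re ≤ (trace (fr V' (fun i => w (π i)) * R)).re := by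
  have hH : (R + Rᴴ).IsHermitian := isHermitian_add_transpose_self R
  obtain ⟨V', hV', hE⟩ := herm_spec hH
  obtain ⟨l, hl⟩ : ∃ l : n → ℝ, R + Rᴴ = fr V' l := ⟨_, hE⟩
  obtain ⟨π, -, hπ⟩ := Finset.exists_max_image (Finset.univ : Finset (Equiv.Perm n))
    (fun σ => ∑ i, l i * w (σ i)) Finset.univ_nonempty
  refine ⟨V', π, hV', fun i j hij => ?_, ?_⟩
  · rw [hl, bip_conj hV', diagonal_apply_ne _ hij]
  have hM : (Matrix.of fun i j => ‖(V'ᴴ * V) i j‖ ^ 2) ∈ doublyStochastic ℝ n :=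
    mem_doublyStochastic_iff_sum.2 ⟨fun i j => sq_nonneg _, bip_row (bip_uni hV' hV),
      bip_col (bip_uni hV' hV)⟩
  obtain ⟨c, hc0, hc1, hc⟩ := exists_eq_sum_perm_of_mem_doublyStochastic hM
  have h1 := bip_half V R w
  have h2 := bip_half V' R fun i => w (π i)
  rw [hl] at h1 h2
  rw [trace_fr_fr] at h1
  have h3 : (trace (fr V' (fun i => w (π i)) * fr V' l)).re = ∑ i, l i * w (π i) := by
    rw [fr_mul hV', fr, trace_fn hV', Complex.re_sum]
    exact Finset.sum_congr rfl fun i _ => by rw [Complex.ofReal_re, mul_comm]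
  have h4 : ∀ i j, ‖(V'ᴴ * V) i j‖ ^ 2 = ∑ σ : Equiv.Perm n, c σ * if σ i = j then 1 else 0 := by
    intro i j
    have h5 := congrFun (congrFun hc i) j
    rw [Matrix.sum_apply, Matrix.of_apply] at h5
    rw [← h5]
    refine Finset.sum_congr rfl fun σ _ => ?_
    simp [Equiv.Perm.permMatrix, PEquiv.toMatrix_apply, Equiv.toPEquiv_apply]
  have h5 : ∑ i, ∑ j, l i * ‖(V'ᴴ * V) i j‖ ^ 2 * w j =
      ∑ σ : Equiv.Perm n, c σ * ∑ i, l i * w (σ i) := by
    simp only [h4, Finset.mul_sum, Finset.sum_mul]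
    rw [Finset.sum_comm (s := (Finset.univ : Finset (Equiv.Perm n)))]
    refine Finset.sum_congr rfl fun i _ => ?_
    rw [Finset.sum_comm]
    refine Finset.sum_congr rfl fun σ _ => ?_
    rw [Finset.sum_eq_single (σ i) (fun j _ hj => by simp [hj.symm]) (by simp)]
    simp only [if_true]
    ring
  have h6 : ∑ σ : Equiv.Perm n, c σ * ∑ i, l i * w (σ i) ≤
      ∑ σ : Equiv.Perm n, c σ * ∑ i, l i * w (π i) :=
    Finset.sum_le_sum fun σ _ => mul_le_mul_of_nonneg_left (hπ σ (Finset.mem_univ σ)) (hc0 σ)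
  rw [← Finset.sum_mul, hc1, one_mul] at h6
  linarith

/-- in the basis `V`: `w i * R i j = c * ρ i j`, so `(1 / w i + 1 / w j) * ρ i j = 0` -/
theorem own_diag (R ρ : Matrix n n ℂ) {V : Matrix n n ℂ} (hV : V * Vᴴ = 1) (w : n → ℝ)
    (hw : ∀ i, 0 < w i) (c : ℝ) (hc : 0 < c) (hρ : ρ.IsHermitian)
    (h1 : fr V w * R = (c : ℂ) • ρ) (hd : ∀ i j, i ≠ j → (Vᴴ * (R + Rᴴ) * V) i j = 0) :
    ∃ l : n → ℝ, ρ = fr V l ∧
      ∀ w' : n → ℝ, (trace (fr V w' * R)).re = c * ∑ i, l i * (w' i / w i) := by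
  have h2 : ∀ i j, (w i : ℂ) * (Vᴴ * R * V) i j = c * (Vᴴ * ρ * V) i j := by
    intro i j
    have h3 : diagonal (fun i => (w i : ℂ)) * (Vᴴ * R * V) = (c : ℂ) • (Vᴴ * ρ * V) := by
      rw [← Matrix.smul_mul, ← Matrix.mul_smul, ← h1, ← bip_conj hV]
      simp only [Matrix.mul_assoc]
      rw [← Matrix.mul_assoc V Vᴴ, hV, Matrix.one_mul]
    have h4 := congrFun (congrFun h3 i) j
    rwa [diagonal_mul, Matrix.smul_apply, smul_eq_mul] at h4
  have h3 : ∀ i j, star ((Vᴴ * ρ * V) j i) = (Vᴴ * ρ * V) i j := by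
    intro i j
    rw [← bip_ct, hρ.eq]
  have hw' : ∀ i, (w i : ℂ) ≠ 0 := fun i => by exact_mod_cast (hw i).ne'
  have h4 : ∀ i j, i ≠ j → (Vᴴ * ρ * V) i j = 0 := by
    intro i j hij
    have h5 := hd i j hij
    rw [Matrix.mul_add, Matrix.add_mul, Matrix.add_apply, bip_ct] at h5
    have h6 := congrArg star (h2 j i)
    rw [star_mul', star_mul', h3, Complex.star_def, Complex.conj_ofReal, Complex.conj_ofReal] at h6
    rw [Complex.star_def] at h5
    have h7 : ((c * (w i + w j) : ℝ) : ℂ) * (Vᴴ * ρ * V) i j = 0 := by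
      push_cast
      linear_combination (w i * w j : ℂ) * h5 - (w j : ℂ) * h2 i j - (w i : ℂ) * h6
    refine (mul_eq_zero.1 h7).resolve_left ?_
    have := hw i
    have := hw j
    exact_mod_cast (by positivity : c * (w i + w j) ≠ 0)
  have h5 : ∀ i, (Vᴴ * ρ * V) i i = (((Vᴴ * ρ * V) i i).re : ℂ) := fun i =>
    (Complex.conj_eq_iff_re.1 (h3 i i)).symm
  refine ⟨fun i => ((Vᴴ * ρ * V) i i).re, ?_, fun w' => ?_⟩
  · have h6 : diagonal (fun i => ((((Vᴴ * ρ * V) i i).re : ℝ) : ℂ)) = Vᴴ * ρ * V := by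
      ext i j
      by_cases hij : i = j
      · subst hij
        rw [diagonal_apply_eq, ← h5]
      · rw [diagonal_apply_ne _ hij, h4 i j hij]
    unfold fr fn
    rw [h6]
    simp only [Matrix.mul_assoc]
    rw [hV, Matrix.mul_one, ← Matrix.mul_assoc, hV, Matrix.one_mul]
  · rw [bip_trace, Complex.re_sum, Finset.mul_sum]
    refine Finset.sum_congr rfl fun i _ => ?_
    have h6 : (w' i : ℂ) * (Vᴴ * R * V) i i =
        ((c * (((Vᴴ * ρ * V) i i).re * (w' i / w i)) : ℝ) : ℂ) := by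
      push_cast
      rw [← h5]
      have h7 := hw' i
      field_simp
      linear_combination (w' i : ℂ) * h2 i i
    rw [h6, Complex.ofReal_re]

omit [DecidableEq n] in
/-- test with the claimed `d'`; Jensen for `log`, then `log x < x - 1` for `x ≠ 1` -/
theorem gibbs (l d : n → ℝ) (hl : ∀ i, 0 ≤ l i) (hl1 : ∑ i, l i = 1) (hd : ∀ i, 0 < d i)
    (hd1 : ∑ i, d i = 1) (a e : ℝ) (ha : 0 < a) (he : 0 < e)
    (hmax : ∀ d' : n → ℝ, (∀ i, 0 < d' i) → ∑ i, d' i = 1 →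
      (∑ i, l i * (d' i ^ a / d i ^ a)) ^ 2 * ∏ i, d' i ^ e ≤ ∏ i, d i ^ e) (i : n) :
    d i = (l i + e / (2 * a)) / (1 + e / (2 * a) * Fintype.card n) := by
  obtain ⟨Z, hZ⟩ : ∃ Z : ℝ, Z = 1 + e / (2 * a) * Fintype.card n := ⟨_, rfl⟩
  have hZ0 : 0 < Z := by rw [hZ]; positivity
  obtain ⟨d', hd'⟩ : ∃ d' : n → ℝ, d' = fun i => (l i + e / (2 * a)) / Z := ⟨_, rfl⟩
  have hp : ∀ i, 0 < d' i := fun i => by
    have := hl i
    rw [hd']
    positivity
  have hs : ∑ i, d' i = 1 := by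
    rw [hd', ← Finset.sum_div, Finset.sum_add_distrib, hl1, Finset.sum_const, Finset.card_univ,
      nsmul_eq_mul, div_eq_one_iff_eq hZ0.ne', hZ, mul_comm]
  obtain ⟨x, hx⟩ : ∃ x : n → ℝ, x = fun i => Real.log (d' i) - Real.log (d i) := ⟨_, rfl⟩
  have h1 : ∀ (t : ℝ) i, d' i ^ t = d i ^ t * Real.exp (t * x i) := by
    intro t i
    rw [Real.rpow_def_of_pos (hp i), Real.rpow_def_of_pos (hd i), ← Real.exp_add, hx]
    congr 1
    ring
  have h2 := hmax d' hp hs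
  have h3 : ∀ i, d' i ^ a / d i ^ a = Real.exp (a * x i) := fun i => by
    rw [h1, mul_div_cancel_left₀ _ (Real.rpow_pos_of_pos (hd i) a).ne']
  have h4 : 0 < ∏ i, d i ^ e := Finset.prod_pos fun i _ => Real.rpow_pos_of_pos (hd i) e
  simp only [h3] at h2
  simp only [h1 e] at h2
  rw [Finset.prod_mul_distrib, ← Real.exp_sum] at h2
  have h5 : Real.exp (∑ i, l i * (a * x i)) ≤ ∑ i, l i * Real.exp (a * x i) :=
    convexOn_exp.map_sum_le (t := Finset.univ) (w := l) (p := fun i => a * x i)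
      (fun i _ => hl i) hl1 fun i _ => Set.mem_univ _
  have h6 : Real.exp (∑ i, l i * (a * x i)) ^ 2 * Real.exp (∑ i, e * x i) ≤ 1 := by
    have h7 := mul_le_mul_of_nonneg_right (pow_le_pow_left₀ (Real.exp_pos _).le h5 2)
      (mul_pos h4 (Real.exp_pos (∑ i, e * x i))).le
    refine le_of_mul_le_mul_left ?_ h4
    linarith
  rw [sq, ← Real.exp_add, ← Real.exp_add, Real.exp_le_one_iff] at h6
  have h7 : ∑ i, l i * (a * x i) + ∑ i, l i * (a * x i) + ∑ i, e * x i =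
      2 * a * Z * ∑ i, d' i * x i := by
    rw [← Finset.sum_add_distrib, ← Finset.sum_add_distrib, Finset.mul_sum]
    refine Finset.sum_congr rfl fun i _ => ?_
    rw [hd']
    field_simp
    ring
  have h8 : ∑ i, d' i * x i ≤ 0 := by
    rw [h7] at h6
    exact nonpos_of_mul_nonpos_right h6 (by positivity)
  have h9 : ∀ i, x i = -Real.log (d i / d' i) := fun i => by
    rw [Real.log_div (hd i).ne' (hp i).ne', hx]
    ring
  have h10 : ∀ i, d' i * (d i / d' i - 1) = d i - d' i := fun i => by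
    have := hp i
    field_simp
  have h11 : ∀ i, d' i - d i ≤ d' i * x i := fun i => by
    have h12 := mul_le_mul_of_nonneg_left
      (Real.log_le_sub_one_of_pos (div_pos (hd i) (hp i))) (hp i).le
    rw [h10] at h12
    rw [h9]
    linarith
  rw [← hZ]
  show d i = (fun i => (l i + e / (2 * a)) / Z) i
  rw [← hd']
  by_contra hne
  have h12 : d' i - d i < d' i * x i := by
    have h13 := mul_lt_mul_of_pos_left (Real.log_lt_sub_one_of_pos (div_pos (hd i) (hp i))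
      fun h14 => hne ((div_eq_one_iff_eq (hp i).ne').1 h14)) (hp i)
    rw [h10] at h13
    rw [h9]
    linarith
  have h13 := Finset.sum_lt_sum (s := Finset.univ) (fun j _ => h11 j) ⟨i, Finset.mem_univ i, h12⟩
  rw [Finset.sum_sub_distrib, hs, hd1] at h13
  linarith

theorem bip_log {l d : ℝ} (hl : 0 ≤ l) (hd : 0 < d) :
    Real.negMulLog l + l * Real.log d ≤ d - l := by
  rcases hl.eq_or_lt with h | h
  · rw [← h]
    simp [hd.le]
  · have h1 := mul_le_mul_of_nonneg_left (Real.log_le_sub_one_of_pos (div_pos hd h)) hl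
    rw [Real.log_div hd.ne' h.ne'] at h1
    have h2 : l * (d / l - 1) = d - l := by field_simp
    rw [Real.negMulLog]
    linarith

omit [DecidableEq n] in
theorem bip_left {M : n → n → ℝ} (hM : ∀ i, ∑ j, M i j = 1) (f : n → ℝ) :
    ∑ i, ∑ j, M i j * f i = ∑ i, f i :=
  Finset.sum_congr rfl fun i _ => by rw [← Finset.sum_mul, hM, one_mul]

omit [DecidableEq n] in
theorem bip_right {M : n → n → ℝ} (hM : ∀ j, ∑ i, M i j = 1) (f : n → ℝ) :
    ∑ i, ∑ j, M i j * f j = ∑ j, f j := by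
  rw [Finset.sum_comm]
  exact Finset.sum_congr rfl fun j _ => by rw [← Finset.sum_mul, hM, one_mul]

/-- Klein inequality -/
theorem klein {V W : Matrix n n ℂ} (hV : V * Vᴴ = 1) (hW : W * Wᴴ = 1) (l d : n → ℝ)
    (hl : ∀ i, 0 ≤ l i) (hl1 : ∑ i, l i = 1) (hd : ∀ i, 0 < d i) (hd1 : ∑ i, d i = 1) :
    ∑ i, Real.negMulLog (l i) ≤ -(trace (fr W (fun j => Real.log (d j)) * fr V l)).re := by
  have hr := bip_row (bip_uni hV hW)
  have hc := bip_col (bip_uni hV hW)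
  rw [trace_fr_fr]
  have h1 : ∑ i, ∑ j, (‖(Vᴴ * W) i j‖ ^ 2 * Real.negMulLog (l i) +
      l i * ‖(Vᴴ * W) i j‖ ^ 2 * Real.log (d j)) ≤
      ∑ i, ∑ j, (‖(Vᴴ * W) i j‖ ^ 2 * d j - ‖(Vᴴ * W) i j‖ ^ 2 * l i) :=
    Finset.sum_le_sum fun i _ => Finset.sum_le_sum fun j _ => by
      have := mul_le_mul_of_nonneg_left (bip_log (hl i) (hd j)) (sq_nonneg ‖(Vᴴ * W) i j‖)
      linarith
  simp only [Finset.sum_add_distrib, Finset.sum_sub_distrib] at h1
  rw [bip_left hr, bip_left hr, bip_right hc, hl1, hd1] at h1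
  linarith

theorem bip_exp {y : ℝ} (hy : y ≤ 0) : Real.exp y ≤ 1 + y + y ^ 2 := by
  have h1 := Real.add_one_le_exp (-y)
  have h2 : Real.exp y * Real.exp (-y) = 1 := by rw [← Real.exp_add, add_neg_cancel, Real.exp_zero]
  have h3 := mul_le_mul_of_nonneg_left h1 (Real.exp_pos y).le
  refine le_of_mul_le_mul_right ?_ (show 0 < -y + 1 by linarith)
  have h4 : 0 ≤ -y * y ^ 2 := mul_nonneg (by linarith) (sq_nonneg y)
  nlinarith

theorem bip_term {l d t : ℝ} (hl : 0 ≤ l) (hl1 : l ≤ 1) (hd : 0 ≤ d) (ht : 0 < t) (ht1 : t ≤ 1) :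
    l * d ^ t ≤ (1 - t) * (l - t * Real.negMulLog l + t ^ 2 * (l * Real.log l ^ 2)) + t * d := by
  rcases hl.eq_or_lt with h | h
  · rw [← h]
    simp only [zero_mul, Real.negMulLog_zero, mul_zero, sub_zero, add_zero, zero_add]
    positivity
  have h1 := Real.geom_mean_le_arith_mean2_weighted (w₁ := 1 - t) (w₂ := t) (p₁ := l) (p₂ := d)
    (by linarith) ht.le hl hd (by ring)
  have h2 : l ^ t * l ^ (1 - t) = l := by rw [← Real.rpow_add h, add_sub_cancel, Real.rpow_one]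
  have h3 := mul_le_mul_of_nonneg_left h1 (Real.rpow_nonneg hl t)
  rw [← mul_assoc, h2] at h3
  have h4 : l ^ t ≤ 1 := Real.rpow_le_one hl hl1 ht.le
  have h5 : l ^ t ≤ 1 + Real.log l * t + (Real.log l * t) ^ 2 := by
    rw [Real.rpow_def_of_pos h]
    exact bip_exp (mul_nonpos_of_nonpos_of_nonneg (Real.log_nonpos hl hl1) ht.le)
  have h6 := mul_le_mul_of_nonneg_right h5 (mul_nonneg (sub_nonneg.2 ht1) hl)
  have h7 := mul_le_mul_of_nonneg_right h4 (mul_nonneg ht.le hd)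
  rw [Real.negMulLog]
  linarith

/-- `l * d ^ t ≤ (1 - t) * l ^ (1 + t) + t * l ^ t * d` with `t = 2 * a`, `l ^ t ≤ 1`, and
`l ^ t ≤ 1 + t * log l + (t * log l) ^ 2` for `0 < l ≤ 1` -/
theorem small {V : Matrix n n ℂ} (hV : V * Vᴴ = 1) (l : n → ℝ) (hl : ∀ i, 0 ≤ l i)
    (hl1 : ∑ i, l i = 1) :
    ∃ C : ℝ, 0 ≤ C ∧ ∀ (W : Matrix n n ℂ) (d : n → ℝ), W * Wᴴ = 1 → (∀ i, 0 ≤ d i) →
      ∑ i, d i = 1 → ∀ a : ℝ, 0 < a → a ≤ 1 / 4 →
      (trace (fr W (fun j => d j ^ a * d j ^ a) * fr V l)).re ≤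
        Real.exp (-(2 * a * ∑ i, Real.negMulLog (l i)) + C * a ^ 2) := by
  have hle : ∀ i, l i ≤ 1 := fun i =>
    hl1 ▸ Finset.single_le_sum (fun j _ => hl j) (Finset.mem_univ i)
  have hS : 0 ≤ ∑ i, Real.negMulLog (l i) :=
    Finset.sum_nonneg fun i _ => Real.negMulLog_nonneg (hl i) (hle i)
  have hT : 0 ≤ ∑ i, l i * Real.log (l i) ^ 2 :=
    Finset.sum_nonneg fun i _ => mul_nonneg (hl i) (sq_nonneg _)
  refine ⟨4 * (∑ i, Real.negMulLog (l i) + ∑ i, l i * Real.log (l i) ^ 2), by positivity,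
    fun W d hW hd hd1 a ha ha4 => ?_⟩
  have hr := bip_row (bip_uni hV hW)
  have hc := bip_col (bip_uni hV hW)
  rw [trace_fr_fr]
  refine le_trans ?_ (Real.add_one_le_exp _)
  have h1 : ∑ i, ∑ j, l i * ‖(Vᴴ * W) i j‖ ^ 2 * (d j ^ a * d j ^ a) ≤
      ∑ i, ∑ j, (‖(Vᴴ * W) i j‖ ^ 2 * ((1 - 2 * a) * (l i - 2 * a * Real.negMulLog (l i) +
        (2 * a) ^ 2 * (l i * Real.log (l i) ^ 2))) + ‖(Vᴴ * W) i j‖ ^ 2 * (2 * a * d j)) :=
    Finset.sum_le_sum fun i _ => Finset.sum_le_sum fun j _ => by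
      have h2 := mul_le_mul_of_nonneg_left
        (bip_term (t := 2 * a) (hl i) (hle i) (hd j) (by linarith) (by linarith))
        (sq_nonneg ‖(Vᴴ * W) i j‖)
      rw [← Real.rpow_add_of_nonneg (hd j) ha.le ha.le, ← two_mul]
      linarith
  simp only [Finset.sum_add_distrib] at h1
  rw [bip_left hr, bip_right hc] at h1
  simp only [← Finset.mul_sum, Finset.sum_add_distrib, Finset.sum_sub_distrib, hl1, hd1] at h1
  refine h1.trans ?_
  have h2 : 0 ≤ a ^ 3 * ∑ i, l i * Real.log (l i) ^ 2 := by positivity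
  nlinarith

end Vale.Agent.P356
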