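import Vale.Agent.P356.Loc

namespace Vale.Agent.P356

open Matrix

theorem defect_exp {t : ℝ} (ht : 0 ≤ t) :
    |Real.exp t + Real.exp (-t) - 2| ≤ t ^ 2 * Real.exp t := by
  have h1 : Real.exp t * Real.exp (-t) = 1 := by rw [← Real.exp_add, add_neg_cancel, Real.exp_zero]
  have h2 : Real.exp t + Real.exp (-t) - 2 = (1 - Real.exp (-t)) ^ 2 * Real.exp t := by
    linear_combination (2 - Real.exp (-t)) * h1
  have h3 : Real.exp (-t) ≤ 1 := Real.exp_le_one_iff.2 (by linarith)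
  have h4 : 1 - Real.exp (-t) ≤ t := by linarith [Real.add_one_le_exp (-t)]
  rw [h2, abs_of_nonneg (by positivity)]
  exact mul_le_mul_of_nonneg_right (pow_le_pow_left₀ (by linarith) h4 2) (Real.exp_pos t).le

theorem defect_scalar_le (x y e Z a : ℝ) (hx : 0 < x) (hy : 0 < y) (he : 0 < e) (hZ : 0 < Z)
    (ha : 0 < a) (ha4 : a ≤ 1 / 4) (hxy : y ≤ x) :
    Real.sqrt x * Real.sqrt y * |((x + e) / Z) ^ a * ((y + e) / Z) ^ (-a) +
      ((x + e) / Z) ^ (-a) * ((y + e) / Z) ^ a - 2| ≤ 32 * a ^ 2 * (x + y) := by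
  have hp : 0 < (x + e) / Z := by positivity
  have hq : 0 < (y + e) / Z := by positivity
  obtain ⟨r, hr⟩ : ∃ r, r = Real.log ((x + e) / Z) - Real.log ((y + e) / Z) := ⟨_, rfl⟩
  obtain ⟨s, hs⟩ : ∃ s, s = Real.log x - Real.log y := ⟨_, rfl⟩
  have hr0 : 0 ≤ r := by
    rw [hr, sub_nonneg]
    exact Real.log_le_log hq (div_le_div_of_nonneg_right (by linarith) hZ.le)
  have hrs : r ≤ s := by
    rw [hr, hs, ← Real.log_div hp.ne' hq.ne', ← Real.log_div hx.ne' hy.ne']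
    refine Real.log_le_log (div_pos hp hq) ?_
    rw [div_div_div_cancel_right₀ hZ.ne', div_le_div_iff₀ (by linarith) hy]
    nlinarith [mul_le_mul_of_nonneg_left hxy he.le]
  have hs0 : 0 ≤ s := hr0.trans hrs
  have e1 : ((x + e) / Z) ^ a * ((y + e) / Z) ^ (-a) = Real.exp (a * r) := by
    rw [Real.rpow_def_of_pos hp, Real.rpow_def_of_pos hq, ← Real.exp_add, hr]
    congr 1; ring
  have e2 : ((x + e) / Z) ^ (-a) * ((y + e) / Z) ^ a = Real.exp (-(a * r)) := by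
    rw [Real.rpow_def_of_pos hp, Real.rpow_def_of_pos hq, ← Real.exp_add, hr]
    congr 1; ring
  have e3 : Real.sqrt x * Real.sqrt y * (Real.exp (s / 4) * Real.exp (s / 4)) = x := by
    rw [Real.sqrt_eq_rpow, Real.sqrt_eq_rpow, Real.rpow_def_of_pos hx, Real.rpow_def_of_pos hy,
      ← Real.exp_add, ← Real.exp_add, ← Real.exp_add, hs]
    conv_rhs => rw [← Real.exp_log hx]
    congr 1; ring
  have h1 := defect_exp (mul_nonneg ha.le hr0)
  have h2 : a * r ≤ a * s := mul_le_mul_of_nonneg_left hrs ha.le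
  have h3 : a * s ≤ s / 4 := by nlinarith
  have h4 : s ^ 2 ≤ 32 * Real.exp (s / 4) := by
    have := Real.quadratic_le_exp_of_nonneg (show 0 ≤ s / 4 by linarith)
    nlinarith
  have h5 : (a * r) ^ 2 * Real.exp (a * r) ≤ a ^ 2 * (32 * Real.exp (s / 4)) * Real.exp (s / 4) := by
    refine mul_le_mul ?_ (Real.exp_le_exp.2 (h2.trans h3)) (Real.exp_pos _).le (by positivity)
    refine (pow_le_pow_left₀ (mul_nonneg ha.le hr0) h2 2).trans ?_
    rw [mul_pow]
    exact mul_le_mul_of_nonneg_left h4 (sq_nonneg a)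
  rw [e1, e2]
  refine (mul_le_mul_of_nonneg_left (h1.trans h5) (by positivity)).trans ?_
  have e4 : Real.sqrt x * Real.sqrt y * (a ^ 2 * (32 * Real.exp (s / 4)) * Real.exp (s / 4)) =
      32 * a ^ 2 * (Real.sqrt x * Real.sqrt y * (Real.exp (s / 4) * Real.exp (s / 4))) := by ring
  rw [e4, e3]
  exact mul_le_mul_of_nonneg_left (by linarith) (by positivity)

/-- scalar inequality -/
theorem defect_scalar (x y e Z a : ℝ) (hx : 0 < x) (hy : 0 < y) (he : 0 < e) (hZ : 0 < Z)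
    (ha : 0 < a) (ha4 : a ≤ 1 / 4) :
    Real.sqrt x * Real.sqrt y * |((x + e) / Z) ^ a * ((y + e) / Z) ^ (-a) +
      ((x + e) / Z) ^ (-a) * ((y + e) / Z) ^ a - 2| ≤ 32 * a ^ 2 * (x + y) := by
  rcases le_total y x with h | h
  · exact defect_scalar_le x y e Z a hx hy he hZ ha ha4 h
  · have h1 := defect_scalar_le y x e Z a hy hx he hZ ha ha4 h
    rw [mul_comm (Real.sqrt y), add_comm y x, mul_comm (((y + e) / Z) ^ a),
      mul_comm (((y + e) / Z) ^ (-a)), add_comm (((x + e) / Z) ^ (-a) * _)] at h1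
    exact h1

section
variable {n m k : Type} [Fintype n] [Fintype m] [Fintype k]

theorem defect_ctr_mul {M : Matrix n m ℂ} {N : Matrix m k ℂ} (hM : Ctr M) (hN : Ctr N) :
    Ctr (M * N) := fun v => by
  rw [← mulVec_mulVec]
  exact (hM _).trans (hN v)

theorem defect_ctr_ct {M : Matrix n m ℂ} (hM : Ctr M) : Ctr Mᴴ := fun v => by
  have h1 := cs v (M *ᵥ (Mᴴ *ᵥ v))
  rw [dot_mulVec, ← nsq_eq, Complex.norm_real, Real.norm_eq_abs, sq_abs] at h1
  have h2 := mul_le_mul_of_nonneg_left (hM (Mᴴ *ᵥ v)) (nsq_nonneg v)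
  have h3 := nsq_nonneg (Mᴴ *ᵥ v)
  rcases h3.eq_or_lt with h | h
  · rw [← h]; exact nsq_nonneg v
  · refine le_of_mul_le_mul_right ?_ h
    rw [← pow_two]
    exact h1.trans h2

theorem defect_col {M : Matrix n m ℂ} (hM : Ctr M) (j : m) : ∑ i, ‖M i j‖ ^ 2 ≤ 1 := by
  classical
  have h := hM (Pi.single j 1)
  have e : nsq (Pi.single j (1 : ℂ) : m → ℂ) = 1 := by
    unfold nsq
    rw [Finset.sum_eq_single j (fun b _ hb => by simp [hb]) (by simp)]
    simp
  rw [e] at h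
  simpa [nsq] using h

theorem defect_row {M : Matrix n m ℂ} (hM : Ctr M) (i : n) : ∑ j, ‖M i j‖ ^ 2 ≤ 1 := by
  have h := defect_col (defect_ctr_ct hM) i
  simpa only [conjTranspose_apply, norm_star] using h

open Classical in
theorem defect_ctr_rel (R : n → m → Prop) (h1 : ∀ i j j', R i j → R i j' → j = j')
    (h2 : ∀ i i' j, R i j → R i' j → i = i') :
    Ctr (Matrix.of fun i j => if R i j then (1 : ℂ) else 0) := fun v => by
  have a1 : ∀ i, ‖((Matrix.of fun i j => if R i j then (1 : ℂ) else 0) *ᵥ v) i‖ ^ 2 ≤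
      ∑ j, if R i j then ‖v j‖ ^ 2 else 0 := by
    intro i
    simp only [mulVec, dotProduct, Matrix.of_apply]
    by_cases h : ∃ j, R i j
    · obtain ⟨j, hj⟩ := h
      rw [Finset.sum_eq_single j (fun b _ hb => by
        rw [if_neg fun hb' => hb (h1 i b j hb' hj), zero_mul]) (by simp),
        Finset.sum_eq_single j (fun b _ hb => if_neg fun hb' => hb (h1 i b j hb' hj)) (by simp),
        if_pos hj, if_pos hj, one_mul]
    · have h' : ∀ j, ¬ R i j := fun j hj => h ⟨j, hj⟩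
      simp [h']
  refine (Finset.sum_le_sum fun i _ => a1 i).trans ?_
  rw [Finset.sum_comm]
  refine Finset.sum_le_sum fun j _ => ?_
  by_cases h : ∃ i, R i j
  · obtain ⟨i, hi⟩ := h
    rw [Finset.sum_eq_single i (fun b _ hb => if_neg fun hb' => hb (h2 b i j hb' hi)) (by simp),
      if_pos hi]
  · have h' : ∀ i, ¬ R i j := fun i hi => h ⟨i, hi⟩
    simp [h']

theorem defect_schur (l : n → ℝ) (hl : ∀ i, 0 ≤ l i) (hl1 : ∑ i, l i = 1) {M W : Matrix n n ℂ}
    (hM : Ctr M) (hW : Ctr W) :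
    ∑ i, ∑ j, (l i + l j) * (‖M i j‖ * ‖W j i‖) ≤ 2 := by
  have a1 : ∀ i j, (l i + l j) * (‖M i j‖ * ‖W j i‖) ≤
      (l i * ‖M i j‖ ^ 2 + l i * ‖W j i‖ ^ 2 + (l j * ‖M i j‖ ^ 2 + l j * ‖W j i‖ ^ 2)) / 2 := by
    intro i j
    have h1 : ‖M i j‖ * ‖W j i‖ ≤ (‖M i j‖ ^ 2 + ‖W j i‖ ^ 2) / 2 := by
      nlinarith [sq_nonneg (‖M i j‖ - ‖W j i‖)]
    exact (mul_le_mul_of_nonneg_left h1 (add_nonneg (hl i) (hl j))).trans (le_of_eq (by ring))
  refine (Finset.sum_le_sum fun i _ => Finset.sum_le_sum fun j _ => a1 i j).trans ?_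
  have b : ∀ f : n → n → ℝ, (∀ i, ∑ j, f i j ≤ 1) → ∑ i, ∑ j, l i * f i j ≤ 1 := by
    intro f hf
    rw [← hl1]
    refine Finset.sum_le_sum fun i _ => ?_
    rw [← Finset.mul_sum]
    exact mul_le_of_le_one_right (hl i) (hf i)
  have b1 := b (fun i j => ‖M i j‖ ^ 2) (defect_row hM)
  have b2 := b (fun i j => ‖W j i‖ ^ 2) (defect_col hW)
  have b3 := b (fun j i => ‖M i j‖ ^ 2) (defect_col hM)
  have b4 := b (fun j i => ‖W j i‖ ^ 2) (defect_row hW)
  rw [Finset.sum_comm] at b3 b4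
  simp only [← Finset.sum_div, Finset.sum_add_distrib]
  linarith

end

section
variable {n m : Type} [Fintype n] [DecidableEq n] [Fintype m] [DecidableEq m]

omit [DecidableEq m] in
theorem defect_trace (U : Matrix n m ℂ) (V α : Matrix n n ℂ) (β : Matrix m m ℂ) (f g : n → ℂ) :
    trace (Uᴴ * (fn V f * α * fn V g * U * β)) =
      ∑ i, ∑ j, f i * g j * ((Vᴴ * α * V) i j * ((Vᴴ * U) * β * (Vᴴ * U)ᴴ) j i) := by
  have e : trace (Uᴴ * (fn V f * α * fn V g * U * β)) =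
      trace ((diagonal f * (Vᴴ * α * V) * diagonal g) * ((Vᴴ * U) * β * (Vᴴ * U)ᴴ)) := by
    rw [conjTranspose_mul, conjTranspose_conjTranspose, ← Matrix.mul_assoc _ _ (Uᴴ * V),
      trace_mul_comm _ (Uᴴ * V)]
    unfold fn
    simp only [Matrix.mul_assoc]
  rw [e, trace]
  refine Finset.sum_congr rfl fun i _ => ?_
  rw [diag_apply, Matrix.mul_apply]
  refine Finset.sum_congr rfl fun j _ => ?_
  rw [mul_diagonal, diagonal_mul]
  ring

omit [DecidableEq m] in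
theorem defect_polar (T : Matrix n m ℂ) (l : n → ℝ) (hl : ∀ i, 0 ≤ l i)
    (h : T * Tᴴ = diagonal fun i => (l i : ℂ)) :
    ∃ O : Matrix n m ℂ, Ctr O ∧ T = diagonal (fun i => (Real.sqrt (l i) : ℂ)) * O := by
  refine ⟨diagonal (fun i => (((Real.sqrt (l i))⁻¹ : ℝ) : ℂ)) * T, ?_, ?_⟩
  · rw [← conjTranspose_conjTranspose (diagonal _ * T)]
    refine defect_ctr_ct fun v => ?_
    have e : (diagonal (fun i => (((Real.sqrt (l i))⁻¹ : ℝ) : ℂ)) * T) *
        (diagonal (fun i => (((Real.sqrt (l i))⁻¹ : ℝ) : ℂ)) * T)ᴴ =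
        diagonal fun i => ((((Real.sqrt (l i))⁻¹ * l i * (Real.sqrt (l i))⁻¹ : ℝ)) : ℂ) := by
      rw [conjTranspose_mul, Matrix.mul_assoc, ← Matrix.mul_assoc T, h, diagonal_conjTranspose,
        diagonal_mul_diagonal, diagonal_mul_diagonal]
      congr 1
      funext i
      simp [mul_assoc]
    have h1 := nsq_eq ((diagonal (fun i => (((Real.sqrt (l i))⁻¹ : ℝ) : ℂ)) * T)ᴴ *ᵥ v)
    rw [← dot_mulVec, mulVec_mulVec, e] at h1
    have h2 : star v ⬝ᵥ ((diagonal fun i =>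
        ((((Real.sqrt (l i))⁻¹ * l i * (Real.sqrt (l i))⁻¹ : ℝ)) : ℂ)) *ᵥ v) =
        ((∑ i, ((Real.sqrt (l i))⁻¹ * l i * (Real.sqrt (l i))⁻¹) * ‖v i‖ ^ 2 : ℝ) : ℂ) := by
      rw [dotProduct, Complex.ofReal_sum]
      refine Finset.sum_congr rfl fun i _ => ?_
      rw [mulVec_diagonal, Pi.star_apply, Complex.star_def, Complex.ofReal_mul _ (‖v i‖ ^ 2),
        Complex.ofReal_pow, ← Complex.conj_mul']
      ring
    rw [h2, Complex.ofReal_inj] at h1
    rw [h1]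
    refine Finset.sum_le_sum fun i _ => mul_le_of_le_one_left (sq_nonneg _) ?_
    rcases (hl i).eq_or_lt with h0 | h0
    · rw [← h0]; simp
    · have h3 := Real.sqrt_pos.2 h0
      have h4 := Real.mul_self_sqrt h0.le
      refine le_of_eq ?_
      field_simp
      linarith
  · ext i j
    rw [diagonal_mul, diagonal_mul]
    rcases (hl i).eq_or_lt with h0 | h0
    · have h1 := congrFun (congrFun h i) i
      rw [diagonal_apply_eq, ← h0, Matrix.mul_apply] at h1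
      have h2 : nsq (T i) = 0 := by
        have h3 := nsq_eq (T i)
        rw [dotProduct] at h3
        rw [← Complex.ofReal_inj, h3, ← h1]
        exact Finset.sum_congr rfl fun k _ => by
          rw [conjTranspose_apply, Pi.star_apply, mul_comm]
      have h3 : T i j = 0 := congrFun (eq_zero_of_nsq _ h2) j
      rw [h3, mul_zero, mul_zero]
    · have h3 := (Real.sqrt_pos.2 h0).ne'
      rw [← mul_assoc, ← Complex.ofReal_mul, mul_inv_cancel₀ h3, Complex.ofReal_one, one_mul]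

end

/-- the bipartite defect bound -/
theorem defect {n m : Type} [Fintype n] [DecidableEq n] [Fintype m] [DecidableEq m]
    (U : Matrix n m ℂ) {V : Matrix n n ℂ} (hV : V * Vᴴ = 1) (l : n → ℝ)
    (hρ : U * Uᴴ = fr V l) (h1 : trace (U * Uᴴ) = 1) (e Z a : ℝ) (he : 0 < e) (hZ : 0 < Z)
    (ha : 0 < a) (ha4 : a ≤ 1 / 4) (α : Matrix n n ℂ) (β : Matrix m m ℂ) (hα : Ctr α)
    (hβ : Ctr β) :
    ‖trace (Uᴴ * (pw V (fun i => (l i + e) / Z) a * α * pw V (fun i => (l i + e) / Z) (-a) *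
        U * β)) +
      trace (Uᴴ * (pw V (fun i => (l i + e) / Z) (-a) * α * pw V (fun i => (l i + e) / Z) a *
        U * β)) - 2 * trace (Uᴴ * (α * U * β))‖ ≤ 64 * a ^ 2 := by
  have hl : ∀ i, 0 ≤ l i := eig_nonneg hV U l hρ
  have hl1 : ∑ i, l i = 1 := by
    rw [hρ, fr, trace_fn hV] at h1
    exact_mod_cast h1
  have hV' := uni_symm hV
  have hT : (Vᴴ * U) * (Vᴴ * U)ᴴ = diagonal fun i => (l i : ℂ) := by
    rw [conjTranspose_mul, conjTranspose_conjTranspose, Matrix.mul_assoc, ← Matrix.mul_assoc U, hρ]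
    unfold fr fn
    simp only [Matrix.mul_assoc]
    rw [hV', Matrix.mul_one, ← Matrix.mul_assoc, hV', Matrix.one_mul]
  obtain ⟨O, hO, hTO⟩ := defect_polar (Vᴴ * U) l hl hT
  have cV : Ctr V := fun v => (nsq_uni hV v).le
  have hM : Ctr (Vᴴ * α * V) := defect_ctr_mul (defect_ctr_mul (defect_ctr_ct cV) hα) cV
  have hW : Ctr (O * β * Oᴴ) := defect_ctr_mul (defect_ctr_mul hO hβ) (defect_ctr_ct hO)
  have hB : ∀ j i, ((Vᴴ * U) * β * (Vᴴ * U)ᴴ) j i =
      (Real.sqrt (l j) : ℂ) * (O * β * Oᴴ) j i * (Real.sqrt (l i) : ℂ) := by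
    intro j i
    have e : (Vᴴ * U) * β * (Vᴴ * U)ᴴ = diagonal (fun i => (Real.sqrt (l i) : ℂ)) * (O * β * Oᴴ) *
        diagonal (fun i => (Real.sqrt (l i) : ℂ)) := by
      rw [hTO, conjTranspose_mul, diagonal_conjTranspose]
      have e2 : star (fun i => (Real.sqrt (l i) : ℂ)) = fun i => (Real.sqrt (l i) : ℂ) := by
        funext i
        simp
      rw [e2]
      simp only [Matrix.mul_assoc]
    rw [e, mul_diagonal, diagonal_mul]
  have e3 : α * U * β = fn V (fun _ => 1) * α * fn V (fun _ => 1) * U * β := by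
    rw [fn_one hV, Matrix.one_mul, Matrix.mul_one]
  unfold pw fr
  rw [e3, defect_trace, defect_trace, defect_trace, Finset.mul_sum, ← Finset.sum_add_distrib,
    ← Finset.sum_sub_distrib]
  have key := defect_schur l hl hl1 hM hW
  have e4 : 64 * a ^ 2 = 32 * a ^ 2 * 2 := by ring
  rw [e4]
  refine le_trans ?_ (mul_le_mul_of_nonneg_left key (by positivity))
  rw [Finset.mul_sum]
  refine (norm_sum_le _ _).trans (Finset.sum_le_sum fun i _ => ?_)
  rw [Finset.mul_sum, Finset.mul_sum, ← Finset.sum_add_distrib, ← Finset.sum_sub_distrib]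
  refine (norm_sum_le _ _).trans (Finset.sum_le_sum fun j _ => ?_)
  have s1 : Real.sqrt (l i) * Real.sqrt (l j) * |((l i + e) / Z) ^ a * ((l j + e) / Z) ^ (-a) +
      ((l i + e) / Z) ^ (-a) * ((l j + e) / Z) ^ a - 2| ≤ 32 * a ^ 2 * (l i + l j) := by
    have h0 : 0 ≤ 32 * a ^ 2 * (l i + l j) := mul_nonneg (by positivity) (add_nonneg (hl i) (hl j))
    rcases (hl i).eq_or_lt with hi | hi
    · rw [show Real.sqrt (l i) = 0 by rw [← hi, Real.sqrt_zero], zero_mul, zero_mul]; exact h0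
    rcases (hl j).eq_or_lt with hj | hj
    · rw [show Real.sqrt (l j) = 0 by rw [← hj, Real.sqrt_zero], mul_zero, zero_mul]; exact h0
    exact defect_scalar _ _ e Z a hi hj he hZ ha ha4
  rw [hB]
  have e5 : ∀ p q r t x y : ℝ, ∀ z w : ℂ, (p : ℂ) * (q : ℂ) * (z * ((y : ℂ) * w * (x : ℂ))) +
      (r : ℂ) * (t : ℂ) * (z * ((y : ℂ) * w * (x : ℂ))) - 2 * (1 * 1 * (z * ((y : ℂ) * w * (x : ℂ)))) =
      ((x * y * (p * q + r * t - 2) : ℝ) : ℂ) * (z * w) := by
    intro p q r t x y z w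
    push_cast; ring
  rw [e5, norm_mul, norm_mul, Complex.norm_real, Real.norm_eq_abs, abs_mul,
    abs_of_nonneg (mul_nonneg (Real.sqrt_nonneg _) (Real.sqrt_nonneg _)), ← mul_assoc (32 * a ^ 2)]
  exact mul_le_mul_of_nonneg_right s1 (by positivity)

variable {Λ Q : Type} [Fintype Λ] [DecidableEq Λ] [Fintype Q] [DecidableEq Q]

/-- the pattern of a matrix unit -/
def DefectRel (X : Finset Λ) {ι : Type} (e : ι → Λ) (s0 t0 : {x // x ∈ X} → Q) (i j : ι → Q) :
    Prop :=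
  (∀ x (hx : e x ∈ X), i x = s0 ⟨e x, hx⟩ ∧ j x = t0 ⟨e x, hx⟩) ∧ ∀ x, e x ∉ X → i x = j x

omit [Fintype Λ] [Fintype Q] [DecidableEq Q] in
theorem defect_rel1 {X : Finset Λ} {ι : Type} {e : ι → Λ} {s0 t0 : {x // x ∈ X} → Q}
    (i j j' : ι → Q) (h : DefectRel X e s0 t0 i j) (h' : DefectRel X e s0 t0 i j') : j = j' := by
  funext x
  by_cases hx : e x ∈ X
  · rw [(h.1 x hx).2, (h'.1 x hx).2]
  · rw [← h.2 x hx, h'.2 x hx]

omit [Fintype Λ] [Fintype Q] [DecidableEq Q] in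
theorem defect_rel2 {X : Finset Λ} {ι : Type} {e : ι → Λ} {s0 t0 : {x // x ∈ X} → Q}
    (i i' j : ι → Q) (h : DefectRel X e s0 t0 i j) (h' : DefectRel X e s0 t0 i' j) : i = i' := by
  funext x
  by_cases hx : e x ∈ X
  · rw [(h.1 x hx).1, (h'.1 x hx).1]
  · rw [h.2 x hx, h'.2 x hx]

omit [Fintype Λ] [Fintype Q] [DecidableEq Q] in
theorem defect_rel_iff (X A : Finset Λ) (s0 t0 : {x // x ∈ X} → Q) (s t : Λ → Q) :
    (DefectRel X (fun x : {x // x ∈ A} => x.1) s0 t0 (res A s) (res A t) ∧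
      DefectRel X (fun x : {x // x ∉ A} => x.1) s0 t0 (cores A s) (cores A t)) ↔
    ((s0, t0) = (res X s, res X t) ∧ ∀ x, x ∉ X → s x = t x) := by
  constructor
  · rintro ⟨h1, h2⟩
    refine ⟨Prod.ext (funext fun x => ?_) (funext fun x => ?_), fun x hx => ?_⟩
    · by_cases hA : x.1 ∈ A
      · exact (h1.1 ⟨x.1, hA⟩ x.2).1.symm
      · exact (h2.1 ⟨x.1, hA⟩ x.2).1.symm
    · by_cases hA : x.1 ∈ A
      · exact (h1.1 ⟨x.1, hA⟩ x.2).2.symm
      · exact (h2.1 ⟨x.1, hA⟩ x.2).2.symm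
    · by_cases hA : x ∈ A
      · exact h1.2 ⟨x, hA⟩ hx
      · exact h2.2 ⟨x, hA⟩ hx
  · rintro ⟨h1, h2⟩
    obtain ⟨rfl, rfl⟩ := Prod.mk.inj h1
    exact ⟨⟨fun x hx => ⟨rfl, rfl⟩, fun x hx => h2 x.1 hx⟩,
      ⟨fun x hx => ⟨rfl, rfl⟩, fun x hx => h2 x.1 hx⟩⟩

theorem defect_lift_colift (A : Finset Λ) (α : Matrix ({x // x ∈ A} → Q) ({x // x ∈ A} → Q) ℂ)
    (β : Matrix ({x // x ∉ A} → Q) ({x // x ∉ A} → Q) ℂ) (s t : Λ → Q) :
    (lift A α * colift A β) s t = α (res A s) (res A t) * β (cores A s) (cores A t) := by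
  rw [Matrix.mul_apply, sum_glue A]
  simp [lift, colift, res_glue, cores_glue]

/-- matrix unit decomposition across the cut `A` -/
theorem decomp [Nonempty Q] (X A : Finset Λ) (h : Matrix (Λ → Q) (Λ → Q) ℂ)
    (hl : Loc (fun x => x ∈ X) h) (J : ℝ) (hJ : ∀ s t, ‖h s t‖ ≤ J) :
    ∃ (c : ({x // x ∈ X} → Q) × ({x // x ∈ X} → Q) → ℂ)
      (α : ({x // x ∈ X} → Q) × ({x // x ∈ X} → Q) →
        Matrix ({x // x ∈ A} → Q) ({x // x ∈ A} → Q) ℂ)
      (β : ({x // x ∈ X} → Q) × ({x // x ∈ X} → Q) →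
        Matrix ({x // x ∉ A} → Q) ({x // x ∉ A} → Q) ℂ),
      (∀ i, ‖c i‖ ≤ J) ∧ (∀ i, Ctr (α i)) ∧ (∀ i, Ctr (β i)ᵀ) ∧
      h = ∑ i, c i • (lift A (α i) * colift A (β i)) := by
  classical
  obtain ⟨q⟩ := ‹Nonempty Q›
  refine ⟨fun i => h (glue X i.1 fun _ => q) (glue X i.2 fun _ => q),
    fun i => Matrix.of fun a b =>
      if DefectRel X (fun x : {x // x ∈ A} => x.1) i.1 i.2 a b then 1 else 0,
    fun i => Matrix.of fun a b =>
      if DefectRel X (fun x : {x // x ∉ A} => x.1) i.1 i.2 a b then 1 else 0,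
    fun i => hJ _ _, fun i => defect_ctr_rel _ defect_rel1 defect_rel2,
    fun i => defect_ctr_rel (fun a b => DefectRel X (fun x : {x // x ∉ A} => x.1) i.1 i.2 b a)
      (fun a b b' h1 h2 => defect_rel2 b b' a h1 h2) (fun a a' b h1 h2 => defect_rel1 b a a' h1 h2),
    ?_⟩
  ext s t
  rw [Matrix.sum_apply]
  simp only [Matrix.smul_apply, defect_lift_colift, Matrix.of_apply, smul_eq_mul, ite_zero_mul_ite_zero,
    one_mul, defect_rel_iff]
  by_cases hst : ∀ x, x ∉ X → s x = t x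
  · rw [Finset.sum_eq_single (res X s, res X t) (fun b _ hb => by
      rw [if_neg fun hb' => hb hb'.1, mul_zero]) (by simp), if_pos ⟨rfl, hst⟩, mul_one]
    refine hl.2 _ _ _ _ (fun x hx => ?_) (fun x hx => ?_) hst (fun x hx => ?_)
    · simp [glue, res, hx]
    · simp [glue, res, hx]
    · simp [glue, hx]
  · rw [Finset.sum_eq_zero fun b _ => by rw [if_neg fun hb' => hst hb'.2, mul_zero]]
    push Not at hst
    obtain ⟨x, hx, hne⟩ := hst
    exact hl.1 s t x hx hne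

theorem defect_ip (A : Finset Λ) (P α P' : Matrix ({x // x ∈ A} → Q) ({x // x ∈ A} → Q) ℂ)
    (β : Matrix ({x // x ∉ A} → Q) ({x // x ∉ A} → Q) ℂ) (u : (Λ → Q) → ℂ) :
    ip u (lift A P * (lift A α * colift A β) * lift A P') u =
      trace ((amp A u)ᴴ * (P * α * P' * amp A u * βᵀ)) := by
  rw [ip, dot_amp A, ← mulVec_mulVec, ← mulVec_mulVec, ← mulVec_mulVec, amp_lift, amp_lift,
    amp_colift, amp_lift]
  simp only [Matrix.mul_assoc]

theorem defect_ip_sum {n ι : Type} [Fintype n] [Fintype ι] (u : n → ℂ) (P P' : Matrix n n ℂ)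
    (c : ι → ℂ) (M : ι → Matrix n n ℂ) :
    ip u (P * (∑ i, c i • M i) * P') u = ∑ i, c i * ip u (P * M i * P') u := by
  unfold ip
  rw [Matrix.mul_sum, Matrix.sum_mul, Matrix.sum_mulVec, dotProduct_sum]
  refine Finset.sum_congr rfl fun i _ => ?_
  rw [Matrix.mul_smul, Matrix.smul_mul, Matrix.smul_mulVec, dotProduct_smul, smul_eq_mul]

theorem defect_ip_ct {n : Type} [Fintype n] (u : n → ℂ) (M : Matrix n n ℂ) :
    (ip u Mᴴ u).re = (ip u M u).re := by
  have h : ip u Mᴴ u = star (ip u M u) := by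
    unfold ip
    rw [dot_mulVec M]
    simp [dotProduct, mul_comm]
  rw [h, Complex.star_def, Complex.conj_re]

theorem defect_full [Nonempty Q] (X A : Finset Λ) (h : Matrix (Λ → Q) (Λ → Q) ℂ)
    (hh : h.IsHermitian) (hl : Loc (fun x => x ∈ X) h) (J : ℝ) (hJ : ∀ s t, ‖h s t‖ ≤ J)
    (m : ℕ) (hm : X.card ≤ m) {u : (Λ → Q) → ℂ} (hu : nsq u = 1)
    {V : Matrix (Λ → Q) (Λ → Q) ℂ} {d : (Λ → Q) → ℝ} (ho : Own A u V d) (a : ℝ) (ha : 0 < a)
    (ha4 : a ≤ 1 / 4) :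
    (ip u h u).re - (ip u (pw V d a * h * pw V d (-a)) u).re ≤ KK Q J m * a ^ 2 := by
  obtain ⟨V0, l, e, Z, he, hZ, hV0, rfl, hρ, hd⟩ := ho
  obtain rfl : d = fun s => (l (res A s) + e) / Z := funext hd
  have hp : ∀ b : ℝ, pw (lift A V0) (fun s => (l (res A s) + e) / Z) b =
      lift A (pw V0 (fun i => (l i + e) / Z) b) := fun b =>
    fr_lift A V0 fun i => ((l i + e) / Z) ^ b
  have hct : (ip u (pw (lift A V0) (fun s => (l (res A s) + e) / Z) (-a) * h *
      pw (lift A V0) (fun s => (l (res A s) + e) / Z) a) u).re =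
      (ip u (pw (lift A V0) (fun s => (l (res A s) + e) / Z) a * h *
      pw (lift A V0) (fun s => (l (res A s) + e) / Z) (-a)) u).re := by
    rw [← defect_ip_ct, conjTranspose_mul, conjTranspose_mul, hh.eq, Matrix.mul_assoc]
    unfold pw
    rw [fr_ct, fr_ct]
  obtain ⟨c, α, β, hc, hα, hβ, hdec⟩ := decomp X A h hl J hJ
  obtain ⟨q⟩ := ‹Nonempty Q›
  have hJ0 : 0 ≤ J := (norm_nonneg _).trans (hJ (fun _ => q) (fun _ => q))
  have hρ' : amp A u * (amp A u)ᴴ = fr V0 l := by rw [← rho_amp, hρ]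
  have htr : trace (amp A u * (amp A u)ᴴ) = 1 := by
    rw [← rho_amp, trace_rho, hu, Complex.ofReal_one]
  have e0 : ip u h u = ∑ i, c i * trace ((amp A u)ᴴ * (α i * amp A u * (β i)ᵀ)) := by
    have e1 : h = lift A 1 * h * lift A 1 := by rw [lift_one, Matrix.one_mul, Matrix.mul_one]
    rw [e1, hdec, defect_ip_sum]
    refine Finset.sum_congr rfl fun i _ => ?_
    rw [defect_ip, Matrix.one_mul, Matrix.mul_one]
  have e1 : ∀ b b' : ℝ, ip u (pw (lift A V0) (fun s => (l (res A s) + e) / Z) b * h *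
      pw (lift A V0) (fun s => (l (res A s) + e) / Z) b') u =
      ∑ i, c i * trace ((amp A u)ᴴ * (pw V0 (fun i => (l i + e) / Z) b * α i *
        pw V0 (fun i => (l i + e) / Z) b' * amp A u * (β i)ᵀ)) := by
    intro b b'
    rw [hp, hp, hdec, defect_ip_sum]
    exact Finset.sum_congr rfl fun i _ => by rw [defect_ip]
  have key : ‖ip u (pw (lift A V0) (fun s => (l (res A s) + e) / Z) a * h *
      pw (lift A V0) (fun s => (l (res A s) + e) / Z) (-a)) u +
      ip u (pw (lift A V0) (fun s => (l (res A s) + e) / Z) (-a) * h *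
      pw (lift A V0) (fun s => (l (res A s) + e) / Z) a) u - 2 * ip u h u‖ ≤
      2 * (KK Q J m * a ^ 2) := by
    rw [e1, e1, e0, Finset.mul_sum, ← Finset.sum_add_distrib, ← Finset.sum_sub_distrib]
    refine (norm_sum_le _ _).trans ((Finset.sum_le_card_nsmul _ _ (J * (64 * a ^ 2))
      fun i _ => ?_).trans ?_)
    · rw [mul_left_comm, ← mul_add, ← mul_sub, norm_mul]
      exact mul_le_mul (hc i) (defect (amp A u) hV0 l hρ' htr e Z a he hZ ha ha4 (α i) (β i)ᵀ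
        (hα i) (hβ i)) (norm_nonneg _) hJ0
    · have hQ : (1 : ℝ) ≤ Fintype.card Q := Nat.one_le_cast.2 (Fintype.card_pos_iff.2 ⟨q⟩)
      have h2 : (Fintype.card Q : ℝ) ^ X.card * (Fintype.card Q : ℝ) ^ X.card ≤
          (Fintype.card Q : ℝ) ^ (2 * m) := by
        rw [← pow_add]
        exact pow_le_pow_right₀ hQ (by omega)
      rw [nsmul_eq_mul, Finset.card_univ, Fintype.card_prod, Nat.cast_mul, card_in]
      refine (mul_le_mul_of_nonneg_right h2 (by positivity)).trans (le_of_eq ?_)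
      unfold KK
      ring
  have h3 := (abs_le.1 ((Complex.abs_re_le_norm _).trans key)).1
  rw [Complex.sub_re, Complex.add_re, hct] at h3
  have h4 : (2 * ip u h u).re = 2 * (ip u h u).re := by simp
  linarith

end Vale.Agent.P356
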