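import Mathlib

namespace Vale.Agent.P356

open Matrix

variable {Λ Q : Type} [Fintype Λ] [DecidableEq Λ] [Fintype Q] [DecidableEq Q]

/-- The basis configuration equal to `a` on `A` and to `c` off `A`. -/
def glue (A : Finset Λ) (a : {x // x ∈ A} → Q) (c : {x // x ∉ A} → Q) : Λ → Q :=
  fun x => if h : x ∈ A then a ⟨x, h⟩ else c ⟨x, h⟩

/-- The reduced density matrix on `A` of the vector `Ω`: the trace over the sites off `A`. -/
def rho (A : Finset Λ) (Ω : (Λ → Q) → ℂ) :
    Matrix ({x // x ∈ A} → Q) ({x // x ∈ A} → Q) ℂ :=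
  fun a b => ∑ c : {x // x ∉ A} → Q, Ω (glue A a c) * star (Ω (glue A b c))

omit [DecidableEq Q] in
theorem rho_herm (A : Finset Λ) (Ω : (Λ → Q) → ℂ) : (rho A Ω).IsHermitian := by
  ext a b
  simp [rho, Matrix.conjTranspose_apply, mul_comm]

/-- The entanglement entropy `- Tr (rho log rho)`, summed over the eigenvalues. -/
noncomputable def entropy (A : Finset Λ) (Ω : (Λ → Q) → ℂ) : ℝ :=
  ∑ i, Real.negMulLog ((rho_herm A Ω).eigenvalues i)

/-- `M` acts on the tensor factors in `X` and as the identity elsewhere. -/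
def ActsOn (X : Finset Λ) (M : Matrix (Λ → Q) (Λ → Q) ℂ) : Prop :=
  ∃ m : Matrix ({x // x ∈ X} → Q) ({x // x ∈ X} → Q) ℂ, ∀ s t : Λ → Q,
    M s t = if ∀ x, x ∉ X → s x = t x then m (fun x => s x) (fun x => t x) else 0

/-- The l1 distance on the square grid. -/
def dist1 {L : ℕ} (x y : Fin L × Fin L) : ℕ :=
  ((x.1.val : ℤ) - y.1.val).natAbs + ((x.2.val : ℤ) - y.2.val).natAbs

/-- The nonempty sets of sites of l1 diameter at most `R`. -/
def supports (L R : ℕ) : Finset (Finset (Fin L × Fin L)) :=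
  Finset.univ.filter fun X => X.Nonempty ∧ ∀ x ∈ X, ∀ y ∈ X, dist1 x y ≤ R

/-- The number of edges with one end in `A` and the other end outside `A`. -/
def bdry {L : ℕ} (A : Finset (Fin L × Fin L)) : ℕ :=
  (Finset.univ.filter fun e : (Fin L × Fin L) × (Fin L × Fin L) =>
    e.1 ∈ A ∧ e.2 ∉ A ∧ dist1 e.1 e.2 = 1).card

end Vale.Agent.P356
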