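import Vale.Agent.P356.Loc
import Vale.Agent.P356.Bip

namespace Vale.Agent.P356

open Matrix

variable {Λ Q : Type} [Fintype Λ] [DecidableEq Λ] [Fintype Q] [DecidableEq Q] [Nonempty Q]

set_option linter.unusedSectionVars false

theorem ent_q_pos : (0 : ℝ) < Fintype.card Q := by exact_mod_cast Fintype.card_pos

theorem ent_sum_res (A : Finset Λ) (d0 : ({x // x ∈ A} → Q) → ℝ) :
    ∑ s : Λ → Q, d0 (res A s) = (Fintype.card ({x // x ∉ A} → Q) : ℝ) * ∑ i, d0 i := by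
  rw [sum_glue A, Finset.mul_sum]
  refine Finset.sum_congr rfl fun a _ => ?_
  simp only [res_glue, Finset.sum_const, Finset.card_univ, nsmul_eq_mul]

theorem Spec.toBip {A : Finset Λ} {V : Matrix (Λ → Q) (Λ → Q) ℂ} {d : (Λ → Q) → ℝ}
    (h : Spec A V d) :
    ∃ (V0 : Matrix ({x // x ∈ A} → Q) ({x // x ∈ A} → Q) ℂ) (d0 : ({x // x ∈ A} → Q) → ℝ),
      V0 * V0ᴴ = 1 ∧ V = lift A V0 ∧ (d = fun s => d0 (res A s)) ∧ (∀ i, 0 ≤ d0 i) ∧
      ∑ i, d0 i = 1 := by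
  obtain ⟨V0, hV0⟩ := h.loc.exists_lift
  obtain ⟨q⟩ := ‹Nonempty Q›
  have hd : d = fun s => d (glue A (res A s) fun _ => q) := by
    funext s
    refine h.dep _ _ fun x hx => ?_
    simp only [glue, res, dif_pos hx]
  refine ⟨V0, fun a => d (glue A a fun _ => q), ?_, hV0, hd, fun _ => h.nonneg _, ?_⟩
  · refine lift_inj A ?_
    rw [lift_mul, lift_ct, ← hV0, lift_one, h.uni]
  · have h1 := h.sum
    have h2 := ent_sum_res A fun a => d (glue A a fun _ => q)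
    rw [← card_in_mul_out (Q := Q) A] at h1
    have h3 : ∑ s, d s = ∑ s, d (glue A (res A s) fun _ => q) := by rw [← hd]
    rw [h3, h2] at h1
    have h4 : (0 : ℝ) < (Fintype.card Q : ℝ) ^ A.card := pow_pos ent_q_pos _
    have h5 : (0 : ℝ) < Fintype.card ({x // x ∉ A} → Q) := by exact_mod_cast Fintype.card_pos
    have h6 := mul_right_cancel₀ h4.ne' h1
    exact mul_left_cancel₀ h5.ne' (h6.trans (mul_one _).symm)

theorem spec_ofBip (A : Finset Λ) {V0 : Matrix ({x // x ∈ A} → Q) ({x // x ∈ A} → Q) ℂ}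
    (hV : V0 * V0ᴴ = 1) (d0 : ({x // x ∈ A} → Q) → ℝ) (h0 : ∀ i, 0 ≤ d0 i)
    (h1 : ∑ i, d0 i = 1) : Spec A (lift A V0) fun s => d0 (res A s) := by
  refine ⟨?_, loc_lift A V0, dep_res A d0, fun _ => h0 _, fun s => ?_, ?_⟩
  · rw [← lift_ct, ← lift_mul, hV, lift_one]
  · rw [← h1]
    exact Finset.single_le_sum (fun i _ => h0 i) (Finset.mem_univ _)
  · rw [ent_sum_res, h1, mul_one, card_in_mul_out]

theorem ent_sum_flat (A : Finset Λ) :
    ∑ _i : {x // x ∈ A} → Q, ((Fintype.card Q : ℝ) ^ A.card)⁻¹ = 1 := by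
  rw [Finset.sum_const, Finset.card_univ, nsmul_eq_mul, card_in]
  exact mul_inv_cancel₀ (pow_pos ent_q_pos _).ne'

/-- the flat density matrix -/
theorem spec_flat (A : Finset Λ) :
    Spec A (1 : Matrix (Λ → Q) (Λ → Q) ℂ) fun _ => ((Fintype.card Q : ℝ) ^ A.card)⁻¹ := by
  have h := spec_ofBip (Q := Q) A (V0 := 1) (by simp)
    (fun _ => ((Fintype.card Q : ℝ) ^ A.card)⁻¹) (fun _ => by positivity) (ent_sum_flat A)
  rwa [lift_one] at h

theorem Spec.mix {A : Finset Λ} {V : Matrix (Λ → Q) (Λ → Q) ℂ} {d : (Λ → Q) → ℝ}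
    (h : Spec A V d) (t : ℝ) (h0 : 0 ≤ t) (h1 : t ≤ 1) :
    Spec A V fun s => (1 - t) * d s + t * ((Fintype.card Q : ℝ) ^ A.card)⁻¹ := by
  obtain ⟨V0, d0, hV, rfl, rfl, h2, h3⟩ := h.toBip
  refine spec_ofBip A hV (fun i => (1 - t) * d0 i + t * ((Fintype.card Q : ℝ) ^ A.card)⁻¹)
    (fun i => add_nonneg (mul_nonneg (by linarith) (h2 i)) (by positivity)) ?_
  rw [Finset.sum_add_distrib, ← Finset.mul_sum, ← Finset.mul_sum, h3, ent_sum_flat]
  ring

theorem Spec.conj {A : Finset Λ} {V U : Matrix (Λ → Q) (Λ → Q) ℂ} {d : (Λ → Q) → ℝ}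
    (h : Spec A V d) (hU : U * Uᴴ = 1) (hl : Loc (fun x => x ∈ A) U) : Spec A (U * V) d := by
  refine ⟨?_, hl.mul h.loc, h.dep, h.nonneg, h.le_one, h.sum⟩
  rw [conjTranspose_mul, Matrix.mul_assoc, ← Matrix.mul_assoc V, h.uni, Matrix.one_mul, hU]

/-- for the sum: split along `A` with `sum_glue`; `d` depends on `a`, `e` on `c` only -/
theorem Spec.prod {A B : Finset Λ} {V W : Matrix (Λ → Q) (Λ → Q) ℂ} {d e : (Λ → Q) → ℝ}
    (hA : Spec A V d) (hB : Spec B W e) (hAB : Disjoint A B) :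
    Spec (A ∪ B) (V * W) fun s => d s * e s := by
  refine ⟨?_, (hA.loc.mono fun x hx => Finset.mem_union_left _ hx).mul
    (hB.loc.mono fun x hx => Finset.mem_union_right _ hx), fun s t hst => ?_,
    fun s => mul_nonneg (hA.nonneg s) (hB.nonneg s),
    fun s => mul_le_one₀ (hA.le_one s) (hB.nonneg s) (hB.le_one s), ?_⟩
  · rw [conjTranspose_mul, Matrix.mul_assoc, ← Matrix.mul_assoc W, hB.uni, Matrix.one_mul, hA.uni]
  · show d s * e s = d t * e t
    rw [hA.dep s t fun x hx => hst x (Finset.mem_union_left _ hx),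
      hB.dep s t fun x hx => hst x (Finset.mem_union_right _ hx)]
  · obtain ⟨V0, d0, -, -, rfl, -, h3⟩ := hA.toBip
    obtain ⟨q⟩ := ‹Nonempty Q›
    have he : ∀ a c, e (glue A a c) = e (glue A (fun _ => q) c) := by
      intro a c
      refine hB.dep _ _ fun x hx => ?_
      have hx' : x ∉ A := fun h => Finset.disjoint_left.1 hAB h hx
      simp only [glue, dif_neg hx']
    have h1 : ∑ s, d0 (res A s) * e s = ∑ c, e (glue A (fun _ => q) c) := by
      rw [sum_glue A]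
      simp only [res_glue, he _ _, ← Finset.mul_sum, ← Finset.sum_mul, h3, one_mul]
    have h2 : ∑ s, e s = (Fintype.card Q : ℝ) ^ A.card * ∑ c, e (glue A (fun _ => q) c) := by
      rw [sum_glue A, ← card_in]
      simp only [he _ _, Finset.sum_const, Finset.card_univ, nsmul_eq_mul]
    rw [h1, ← hB.sum, h2, Finset.card_union_of_disjoint hAB, pow_add]
    ring

theorem ent_trace_fr {n : Type} [Fintype n] [DecidableEq n] {V : Matrix n n ℂ} (hV : V * Vᴴ = 1)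
    (f : n → ℝ) : trace (fr V f) = ((∑ i, f i : ℝ) : ℂ) := by
  rw [fr, trace_fn hV, Complex.ofReal_sum]

theorem ent_basis (A : Finset Λ) {Ω : (Λ → Q) → ℂ} (hΩ : nsq Ω = 1) :
    ∃ (V0 : Matrix ({x // x ∈ A} → Q) ({x // x ∈ A} → Q) ℂ) (l : ({x // x ∈ A} → Q) → ℝ),
      V0 * V0ᴴ = 1 ∧ rho A Ω = fr V0 l ∧ (∀ i, 0 ≤ l i) ∧ ∑ i, l i = 1 ∧
      entropy A Ω = ∑ i, Real.negMulLog (l i) := by
  obtain ⟨V0, hV, h1⟩ := herm_spec (rho_herm A Ω)
  refine ⟨V0, _, hV, h1, eig_nonneg hV (amp A Ω) _ ((rho_amp A Ω).symm.trans h1), ?_, rfl⟩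
  have h2 := trace_rho A Ω
  rw [hΩ] at h2
  have h3 := (ent_trace_fr hV _).symm.trans ((congrArg trace h1).symm.trans h2)
  exact_mod_cast h3

theorem ent_nonneg (A : Finset Λ) {Ω : (Λ → Q) → ℂ} (hΩ : nsq Ω = 1) : 0 ≤ entropy A Ω := by
  obtain ⟨V0, l, -, -, h2, h3, h4⟩ := ent_basis A hΩ
  rw [h4]
  refine Finset.sum_nonneg fun i _ => Real.negMulLog_nonneg (h2 i) ?_
  rw [← h3]
  exact Finset.single_le_sum (fun i _ => h2 i) (Finset.mem_univ _)

theorem ent_ip (A : Finset Λ) (Ω : (Λ → Q) → ℂ)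
    (V0 : Matrix ({x // x ∈ A} → Q) ({x // x ∈ A} → Q) ℂ) (f : ({x // x ∈ A} → Q) → ℝ) :
    ip Ω (fr (lift A V0) fun s => f (res A s)) Ω = trace (fr V0 f * rho A Ω) := by
  rw [fr_lift, ip_lift, rho_amp]

theorem ent_klein {A : Finset Λ} {Ω : (Λ → Q) → ℂ} (hΩ : nsq Ω = 1)
    {V : Matrix (Λ → Q) (Λ → Q) ℂ} {d : (Λ → Q) → ℝ} (h : Spec A V d) (hd : ∀ s, 0 < d s) :
    entropy A Ω ≤ -(ip Ω (fr V fun s => Real.log (d s)) Ω).re := by
  obtain ⟨V1, l, hV1, h1, h2, h3, h4⟩ := ent_basis A hΩ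
  obtain ⟨V0, d0, hV, rfl, rfl, -, h6⟩ := h.toBip
  obtain ⟨q⟩ := ‹Nonempty Q›
  have h7 : ∀ i, 0 < d0 i := fun i => by
    have h8 := hd (glue A i fun _ => q)
    simpa only [res_glue] using h8
  rw [h4, ent_ip A Ω V0 fun i => Real.log (d0 i), h1]
  exact klein hV1 hV l d0 h2 h3 h7 h6

/-- eigenbasis and `d = (1 - t) * l + t / n` with `- log (1 - t) ≤ δ` -/
theorem ent_approx (A : Finset Λ) {Ω : (Λ → Q) → ℂ} (hΩ : nsq Ω = 1) (δ : ℝ) (hδ : 0 < δ) :
    ∃ (V : Matrix (Λ → Q) (Λ → Q) ℂ) (d : (Λ → Q) → ℝ), Spec A V d ∧ (∀ s, 0 < d s) ∧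
      -(ip Ω (fr V fun s => Real.log (d s)) Ω).re ≤ entropy A Ω + δ := by
  obtain ⟨V0, l, hV, h1, h2, h3, h4⟩ := ent_basis A hΩ
  have e0 : 0 < Real.exp (-δ) := Real.exp_pos _
  have e1 : Real.exp (-δ) < 1 := Real.exp_lt_one_iff.2 (by linarith)
  have hn : (0 : ℝ) < ((Fintype.card Q : ℝ) ^ A.card)⁻¹ := inv_pos.2 (pow_pos ent_q_pos _)
  set t := 1 - Real.exp (-δ) with ht
  have ht0 : 0 < t := by linarith
  have ht1 : 1 - t = Real.exp (-δ) := by linarith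
  have hpos : ∀ i, 0 < (1 - t) * l i + t * ((Fintype.card Q : ℝ) ^ A.card)⁻¹ := fun i =>
    add_pos_of_nonneg_of_pos (mul_nonneg (by linarith) (h2 i)) (mul_pos ht0 hn)
  refine ⟨_, _, (spec_ofBip A hV l h2 h3).mix t ht0.le (by linarith), fun s => hpos _, ?_⟩
  have hδ' : ∑ i, Real.negMulLog (l i) + δ = ∑ i, (Real.negMulLog (l i) + δ * l i) := by
    rw [Finset.sum_add_distrib, ← Finset.mul_sum, h3, mul_one]
  rw [h4, ent_ip A Ω V0 fun i =>
    Real.log ((1 - t) * l i + t * ((Fintype.card Q : ℝ) ^ A.card)⁻¹), h1, fr_mul hV,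
    ent_trace_fr hV, Complex.ofReal_re, ← Finset.sum_neg_distrib, hδ']
  refine Finset.sum_le_sum fun i _ => ?_
  rcases (h2 i).eq_or_lt with h5 | h5
  · rw [← h5]
    simp
  · have h6 : Real.log (Real.exp (-δ) * l i) ≤
        Real.log ((1 - t) * l i + t * ((Fintype.card Q : ℝ) ^ A.card)⁻¹) := by
      refine Real.log_le_log (mul_pos e0 h5) ?_
      rw [ht1]
      exact le_add_of_nonneg_right (mul_pos ht0 hn).le
    rw [Real.log_mul e0.ne' h5.ne', Real.log_exp] at h6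
    have h7 := mul_le_mul_of_nonneg_right h6 h5.le
    rw [Real.negMulLog]
    linarith

theorem ent_ip_add {n : Type} [Fintype n] (u v : n → ℂ) (M N : Matrix n n ℂ) :
    ip u (M + N) v = ip u M v + ip u N v := by
  simp only [ip, add_mulVec, dotProduct_add]

theorem ent_union {A B : Finset Λ} (hAB : Disjoint A B) {Ω : (Λ → Q) → ℂ} (hΩ : nsq Ω = 1) :
    entropy (A ∪ B) Ω ≤ entropy A Ω + entropy B Ω := by
  refine le_of_forall_pos_le_add fun δ hδ => ?_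
  obtain ⟨V, d, hA, hd, h1⟩ := ent_approx A hΩ (δ / 2) (by linarith)
  obtain ⟨W, e, hB, he, h2⟩ := ent_approx B hΩ (δ / 2) (by linarith)
  have h3 := ent_klein hΩ (hA.prod hB hAB) fun s => mul_pos (hd s) (he s)
  have hpq : ∀ x, x ∈ A → ¬ x ∈ B := fun x hx => Finset.disjoint_left.1 hAB hx
  have h4 := fn_prod (f := fun s => ((Real.log (d s) : ℝ) : ℂ)) (g := fun _ => 1) hA.loc hB.loc
    (hA.dep.comp fun x => ((Real.log x : ℝ) : ℂ)) (fun _ _ _ => rfl) hpq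
  have h5 := fn_prod (f := fun _ => 1) (g := fun s => ((Real.log (e s) : ℝ) : ℂ)) hA.loc hB.loc
    (fun _ _ _ => rfl) (hB.dep.comp fun x => ((Real.log x : ℝ) : ℂ)) hpq
  rw [fn_one hB.uni, Matrix.mul_one] at h4
  rw [fn_one hA.uni, Matrix.one_mul] at h5
  have h6 : (fr (V * W) fun s => Real.log (d s * e s)) =
      (fr V fun s => Real.log (d s)) + fr W fun s => Real.log (e s) := by
    unfold fr
    rw [← h4, ← h5, ← fn_add]
    congr 1
    funext s
    beta_reduce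
    rw [Real.log_mul (hd s).ne' (he s).ne']
    push_cast
    ring
  rw [h6, ent_ip_add, Complex.add_re] at h3
  linarith

theorem ent_le_card (A : Finset Λ) {Ω : (Λ → Q) → ℂ} (hΩ : nsq Ω = 1) :
    entropy A Ω ≤ A.card * Real.log (Fintype.card Q) := by
  have h1 := ent_klein hΩ (spec_flat A) fun _ => inv_pos.2 (pow_pos ent_q_pos _)
  have h2 := fn_smul (1 : Matrix (Λ → Q) (Λ → Q) ℂ)
    ((Real.log ((Fintype.card Q : ℝ) ^ A.card)⁻¹ : ℝ) : ℂ) fun _ => 1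
  rw [fn_one (by simp)] at h2
  simp only [mul_one] at h2
  rw [fr, h2, ip, smul_mulVec, one_mulVec, dotProduct_smul, ← nsq_eq, hΩ, Complex.ofReal_one,
    smul_eq_mul, mul_one, Complex.ofReal_re, Real.log_inv, neg_neg, Real.log_pow] at h1
  exact h1

theorem ent_rect {n m : Type} [Fintype n] [DecidableEq n] [Fintype m] [DecidableEq m]
    (U : Matrix n m ℂ) {M : Matrix n n ℂ} {N : Matrix m m ℂ} (hM : M.IsHermitian)
    (hN : N.IsHermitian) (h1 : M = U * Uᴴ) (h2 : N = (Uᴴ * U)ᵀ) :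
    ∑ j, Real.negMulLog (hN.eigenvalues j) = ∑ i, Real.negMulLog (hM.eigenvalues i) := by
  obtain ⟨V, hV, h3⟩ := herm_spec hM
  obtain ⟨W, hW, h4⟩ := herm_spec (isHermitian_conjTranspose_mul_self U)
  generalize hM.eigenvalues = l at h3 ⊢
  generalize (isHermitian_conjTranspose_mul_self U).eigenvalues = k at h4
  have e : (Wᴴᵀ)ᴴ = Wᵀ := by
    ext i j
    simp
  have hW' : Wᴴᵀ * (Wᴴᵀ)ᴴ = 1 := by
    rw [e, ← transpose_mul, hW, transpose_one]
  have h5 : N = fr Wᴴᵀ k := by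
    rw [h2, h4, fr, fr, fn, fn, e, transpose_mul, transpose_mul, diagonal_transpose,
      Matrix.mul_assoc]
  rw [sum_eig hN hW' k h5]
  have h6 : fr V l * U = U * fr W k := by
    rw [← h3, ← h4, h1, Matrix.mul_assoc]
  have h7 := intertwine hV hW U l k h6 fun x => -Real.log x
  have h8 : trace ((fr V fun i => -Real.log (l i)) * fr V l) =
      trace ((fr W fun j => -Real.log (k j)) * fr W k) := by
    rw [← h3, ← h4, h1, ← Matrix.mul_assoc, h7, trace_mul_cycle, trace_mul_comm]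
  rw [fr_mul hV, fr_mul hW, ent_trace_fr hV, ent_trace_fr hW, Complex.ofReal_inj] at h8
  have e2 : ∀ x : ℝ, Real.negMulLog x = -Real.log x * x := fun x => by
    rw [Real.negMulLog]
    ring
  simp only [e2]
  exact h8.symm

/-- configurations on the complement -/
def entE1 (A : Finset Λ) : ({x // x ∈ Aᶜ} → Q) ≃ ({x // x ∉ A} → Q) where
  toFun f x := f ⟨x.1, Finset.mem_compl.2 x.2⟩
  invFun f x := f ⟨x.1, Finset.mem_compl.1 x.2⟩
  left_inv _ := rfl
  right_inv _ := rfl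

/-- configurations off the complement -/
def entE2 (A : Finset Λ) : ({x // x ∉ Aᶜ} → Q) ≃ ({x // x ∈ A} → Q) where
  toFun f x := f ⟨x.1, fun h => Finset.mem_compl.1 h x.2⟩
  invFun f x := f ⟨x.1, not_not.1 fun h => x.2 (Finset.mem_compl.2 h)⟩
  left_inv _ := rfl
  right_inv _ := rfl

theorem ent_glue_compl (A : Finset Λ) (a : {x // x ∈ Aᶜ} → Q) (c : {x // x ∉ Aᶜ} → Q) :
    glue Aᶜ a c = glue A (entE2 A c) (entE1 A a) := by
  funext x
  by_cases hx : x ∈ A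
  · have hx' : x ∉ Aᶜ := fun h => Finset.mem_compl.1 h hx
    simp only [glue, dif_pos hx, dif_neg hx']
    rfl
  · have hx' : x ∈ Aᶜ := Finset.mem_compl.2 hx
    simp only [glue, dif_neg hx, dif_pos hx']
    rfl

/-- `negMulLog x = x * (- log x)`, `intertwine`, `sum_eig` and reindexing -/
theorem ent_compl (A : Finset Λ) (Ω : (Λ → Q) → ℂ) : entropy Aᶜ Ω = entropy A Ω := by
  refine ent_rect (fun a c => Ω (glue A a (entE1 A c))) (rho_herm A Ω) (rho_herm Aᶜ Ω) ?_ ?_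
  · ext a b
    exact ((entE1 A).sum_comp fun c => Ω (glue A a c) * star (Ω (glue A b c))).symm
  · ext a b
    simp only [rho, transpose_apply, ent_glue_compl]
    rw [(entE2 A).sum_comp fun c => Ω (glue A c (entE1 A a)) * star (Ω (glue A c (entE1 A b)))]
    exact Finset.sum_congr rfl fun c _ => mul_comm _ _

theorem ent_small (A : Finset Λ) {Ω : (Λ → Q) → ℂ} (hΩ : nsq Ω = 1) :
    ∃ C : ℝ, 0 ≤ C ∧ ∀ (V : Matrix (Λ → Q) (Λ → Q) ℂ) (d : (Λ → Q) → ℝ), Spec A V d →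
      ∀ a : ℝ, 0 < a → a ≤ 1 / 4 →
      nsq (pw V d a *ᵥ Ω) ≤ Real.exp (-(2 * a * entropy A Ω) + C * a ^ 2) := by
  obtain ⟨V1, l, hV1, h1, h2, h3, h4⟩ := ent_basis A hΩ
  obtain ⟨C, hC, h5⟩ := small hV1 l h2 h3
  refine ⟨C, hC, fun V d h a ha ha' => ?_⟩
  have h6 := nsq_fr h.uni (fun s => d s ^ a) Ω
  obtain ⟨V0, d0, hV, rfl, rfl, h7, h8⟩ := h.toBip
  rw [ent_ip A Ω V0 fun i => d0 i ^ a * d0 i ^ a, h1] at h6
  have h9 := h5 V0 d0 hV h7 h8 a ha ha'
  rw [← h6, Complex.ofReal_re] at h9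
  rw [h4]
  exact h9

end Vale.Agent.P356
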