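import Vale.Agent.P356.Var
import Vale.Agent.P356.Defect

namespace Vale.Agent.P356

open Matrix

variable {Λ Q : Type} [Fintype Λ] [DecidableEq Λ] [Fintype Q] [DecidableEq Q] [Nonempty Q]

theorem fid_KK_nonneg {J : ℝ} (hJ : 0 ≤ J) (m : ℕ) : 0 ≤ KK Q J m := by
  unfold KK
  positivity

theorem fid_gapcase (A : ℕ → Finset Λ) (hA : Monotone A) (a : ℕ → ℝ)
    (x : ℕ → Matrix (Λ → Q) (Λ → Q) ℂ × ((Λ → Q) → ℝ)) (hx : Dom A x) (u Ω : (Λ → Q) → ℂ)
    (c : ℂ) (j n : ℕ) (hs : seg (PP a x) 0 (j + n) *ᵥ Ω = c • u)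
    (ho : ∀ r, r < j + n → Own (A r) u (x r).1 (x r).2) (X : Finset Λ)
    (N : Matrix (Λ → Q) (Λ → Q) ℂ) (hN : Loc (fun z => z ∈ X) N)
    (h1 : ∀ r, r < j → Disjoint X (A r)) (h2 : ∀ r, j ≤ r → r < j + n → X ⊆ A r) :
    star u ⬝ᵥ (seg (PP a x) 0 (j + n) *ᵥ (N *ᵥ Ω)) = c * ip u N u := by
  obtain ⟨T, t1, t2, t3⟩ := transfer A a x hx hA u n j fun r _ hr => ho r hr
  have hc : seg (PP a x) 0 j * N = N * seg (PP a x) 0 j := by
    refine seg_comm _ _ _ _ fun r _ hr => ?_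
    have hPl : Loc (fun z => z ∈ A r) (PP a x r) := (hx r).loc_fr fun t => t ^ a r
    exact hPl.comm hN fun z hz hz' => Finset.disjoint_left.1 (h1 r (by omega)) hz' hz
  rw [seg_add, Nat.zero_add, ← mulVec_mulVec] at hs
  have h3 := t2 _ _ hs
  rw [seg_add, Nat.zero_add, ← mulVec_mulVec, t1, mulVec_mulVec Ω, hc, ← mulVec_mulVec,
    mulVec_mulVec (seg (PP a x) 0 j *ᵥ Ω), t3 X N h2 hN, ← mulVec_mulVec, h3, mulVec_smul,
    dotProduct_smul, smul_eq_mul, ip]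

theorem fid_cutcase (A : ℕ → Finset Λ) (hA : Monotone A) (a : ℕ → ℝ)
    (x : ℕ → Matrix (Λ → Q) (Λ → Q) ℂ × ((Λ → Q) → ℝ)) (hx : Dom A x) (u Ω : (Λ → Q) → ℂ)
    (c : ℂ) (j n : ℕ) (hs : seg (PP a x) 0 (j + 1 + n) *ᵥ Ω = c • u)
    (ho : ∀ r, r < j + 1 + n → Own (A r) u (x r).1 (x r).2) (X : Finset Λ)
    (N : Matrix (Λ → Q) (Λ → Q) ℂ) (hN : Loc (fun z => z ∈ X) N)
    (h1 : ∀ r, r < j → Disjoint X (A r)) (h2 : ∀ r, j + 1 ≤ r → r < j + 1 + n → X ⊆ A r) :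
    star u ⬝ᵥ (seg (PP a x) 0 (j + 1 + n) *ᵥ (N *ᵥ Ω)) =
      c * ip u (pw (x j).1 (x j).2 (a j) * N * pw (x j).1 (x j).2 (-a j)) u := by
  obtain ⟨T, t1, t2, t3⟩ := transfer A a x hx hA u n (j + 1) fun r _ hr => ho r hr
  have hoj := ho j (by omega)
  have hc : seg (PP a x) 0 j * N = N * seg (PP a x) 0 j := by
    refine seg_comm _ _ _ _ fun r _ hr => ?_
    have hPl : Loc (fun z => z ∈ A r) (PP a x r) := (hx r).loc_fr fun t => t ^ a r
    exact hPl.comm hN fun z hz hz' => Finset.disjoint_left.1 (h1 r (by omega)) hz' hz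
  have hPl : Loc (fun z => z ∈ A j) (PP a x j) := (hx j).loc_fr fun t => t ^ a j
  have hTP : T * PP a x j = PP a x j * T :=
    t3 (A j) _ (fun r hr _ => hA (by omega)) hPl
  have hinv : pw (x j).1 (x j).2 (-a j) * PP a x j = 1 := by
    have : pw (x j).1 (x j).2 (-a j) * PP a x j =
        fr (x j).1 fun s => (x j).2 s ^ (-a j) * (x j).2 s ^ a j := fr_mul (hx j).uni _ _
    rw [this]
    have h4 : (fun s => (x j).2 s ^ (-a j) * (x j).2 s ^ a j) = fun _ => (1 : ℝ) := by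
      funext s
      rw [← Real.rpow_add (hoj.pos s)]
      simp
    rw [h4]
    simpa [fr] using fn_one (hx j).uni
  have hseg : seg (PP a x) 0 (j + 1 + n) =
      seg (PP a x) (j + 1) n * (PP a x j * seg (PP a x) 0 j) := by
    rw [seg_add, Nat.zero_add]
    congr 1
    show PP a x (0 + j) * _ = _
    rw [Nat.zero_add]
  rw [hseg, ← mulVec_mulVec] at hs
  have h3 := t2 _ _ hs
  rw [← mulVec_mulVec, mulVec_mulVec (seg (PP a x) 0 j *ᵥ Ω), hTP, ← mulVec_mulVec] at h3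
  have h4 : T *ᵥ (seg (PP a x) 0 j *ᵥ Ω) = c • (pw (x j).1 (x j).2 (-a j) *ᵥ u) := by
    rw [← mulVec_smul, ← h3, mulVec_mulVec (T *ᵥ (seg (PP a x) 0 j *ᵥ Ω)), hinv, one_mulVec]
  have h5 : T * (PP a x j * seg (PP a x) 0 j) * N = PP a x j * N * T * seg (PP a x) 0 j := by
    rw [← Matrix.mul_assoc, hTP, Matrix.mul_assoc _ _ N, hc, Matrix.mul_assoc (PP a x j) N T,
      ← t3 X N h2 hN]
    simp only [Matrix.mul_assoc]
  rw [hseg, ← mulVec_mulVec, t1, mulVec_mulVec, mulVec_mulVec, h5, ← mulVec_mulVec,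
    ← mulVec_mulVec, h4, mulVec_smul, dotProduct_smul, smul_eq_mul, ip, mulVec_mulVec]
  rfl

/-- energy of the tilted state -/
theorem energy {T : Finset (Finset Λ)} {h : Finset Λ → Matrix (Λ → Q) (Λ → Q) ℂ}
    {Ω : (Λ → Q) → ℂ} {E0 Δ J : ℝ} {m : ℕ} (G : Gapped T h Ω E0 Δ J m) (hJ : 0 ≤ J)
    (A : ℕ → Finset Λ) (hA : Monotone A) (k : ℕ)
    (sep : ∀ Y ∈ T, ∀ r, r + 1 < k → ¬ Disjoint Y (A r) → Y ⊆ A (r + 1))
    (a : ℕ → ℝ) (ha : ∀ r, 0 < a r) (ha4 : ∀ r, a r ≤ 1 / 4)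
    (x : ℕ → Matrix (Λ → Q) (Λ → Q) ℂ × ((Λ → Q) → ℝ)) (hx : Dom A x) (u : (Λ → Q) → ℂ)
    (c : ℝ) (hc : 0 < c) (hu : nsq u = 1) (hs : seg (PP a x) 0 k *ᵥ Ω = (c : ℂ) • u)
    (ho : ∀ r, r < k → Own (A r) u (x r).1 (x r).2) :
    (ip u (∑ X ∈ T, h X) u).re - E0 ≤
      KK Q J m * ∑ r ∈ Finset.range k, a r ^ 2 * ncross T (A r) := by
  classical
  have hK := fid_KK_nonneg (Q := Q) hJ m
  have term : ∀ X ∈ T, c * (ip u (h X) u).re -
      (star u ⬝ᵥ (seg (PP a x) 0 k *ᵥ (h X *ᵥ Ω))).re ≤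
      c * (KK Q J m * ∑ r ∈ Finset.range k,
        a r ^ 2 * (if ¬ X ⊆ A r ∧ ¬ Disjoint X (A r) then 1 else 0)) := by
    intro X hX
    have hnn : ∀ r ∈ Finset.range k,
        0 ≤ a r ^ 2 * (if ¬ X ⊆ A r ∧ ¬ Disjoint X (A r) then (1 : ℝ) else 0) := by
      intro r _
      split_ifs <;> positivity
    have hgap : ∀ j n, j + n = k → (∀ r, r < j → Disjoint X (A r)) →
        (∀ r, j ≤ r → r < j + n → X ⊆ A r) → c * (ip u (h X) u).re -
        (star u ⬝ᵥ (seg (PP a x) 0 k *ᵥ (h X *ᵥ Ω))).re ≤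
        c * (KK Q J m * ∑ r ∈ Finset.range k,
          a r ^ 2 * (if ¬ X ⊆ A r ∧ ¬ Disjoint X (A r) then 1 else 0)) := by
      intro j n hjn h1 h2
      subst hjn
      rw [fid_gapcase A hA a x hx u Ω c j n hs ho X (h X) (G.loc X hX) h1 h2,
        Complex.re_ofReal_mul, sub_self]
      exact mul_nonneg hc.le (mul_nonneg hK (Finset.sum_nonneg hnn))
    by_cases hex : ∃ r, r < k ∧ ¬ Disjoint X (A r)
    · set j := Nat.find hex with hj
      obtain ⟨hjk, hjd⟩ : j < k ∧ ¬ Disjoint X (A j) := Nat.find_spec hex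
      have h1 : ∀ r, r < j → Disjoint X (A r) := by
        intro r hr
        by_contra hd
        exact Nat.find_min hex hr ⟨by omega, hd⟩
      have h2 : ∀ r, j + 1 ≤ r → r < k → X ⊆ A r := fun r hr hr' =>
        (sep X hX j (by omega) hjd).trans (hA hr)
      by_cases hsub : X ⊆ A j
      · exact hgap j (k - j) (by omega) h1 fun r hr _ => hsub.trans (hA hr)
      · obtain ⟨n, hn⟩ : ∃ n, k = j + 1 + n := ⟨k - (j + 1), by omega⟩
        clear_value j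
        subst hn
        rw [fid_cutcase A hA a x hx u Ω c j n hs ho X (h X) (G.loc X hX) h1 h2,
          Complex.re_ofReal_mul, ← mul_sub]
        refine mul_le_mul_of_nonneg_left ?_ hc.le
        refine (defect_full X (A j) (h X) (G.herm X hX) (G.loc X hX) J (G.ent X hX) m
          (G.card X hX) hu (ho j hjk) (a j) (ha j) (ha4 j)).trans ?_
        refine mul_le_mul_of_nonneg_left ?_ hK
        refine le_trans ?_ (Finset.single_le_sum hnn (Finset.mem_range.2 hjk))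
        rw [if_pos ⟨hsub, hjd⟩, mul_one]
    · refine hgap k 0 rfl (fun r hr => ?_) fun r h1 h2 => by omega
      by_contra hd
      exact hex ⟨r, hr, hd⟩
  have huu : star u ⬝ᵥ ((c : ℂ) • u) = c := by
    rw [dotProduct_smul, ← nsq_eq, hu]
    simp
  have tot : ∑ X ∈ T, (star u ⬝ᵥ (seg (PP a x) 0 k *ᵥ (h X *ᵥ Ω))).re = c * E0 := by
    rw [← Complex.re_sum, ← dotProduct_sum, ← mulVec_sum, ← sum_mulVec, G.eig, mulVec_smul, hs,
      dotProduct_smul, huu, smul_eq_mul, ← Complex.ofReal_mul, Complex.ofReal_re, mul_comm]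
  have hsum := Finset.sum_le_sum term
  rw [Finset.sum_sub_distrib, tot, ← Finset.mul_sum, ← Finset.mul_sum, ← Finset.mul_sum,
    Finset.sum_comm, ← mul_sub] at hsum
  have h1 : (ip u (∑ X ∈ T, h X) u).re = ∑ X ∈ T, (ip u (h X) u).re := by
    rw [ip, sum_mulVec, dotProduct_sum, Complex.re_sum]
    rfl
  have h2 : ∀ r ∈ Finset.range k, a r ^ 2 * (ncross T (A r) : ℝ) =
      ∑ X ∈ T, a r ^ 2 * (if ¬ X ⊆ A r ∧ ¬ Disjoint X (A r) then (1 : ℝ) else 0) := by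
    intro r _
    rw [← Finset.mul_sum, Finset.sum_boole, ncross]
  rw [h1, Finset.sum_congr rfl h2]
  exact le_of_mul_le_mul_left hsum hc

/-- the norm is controlled by the overlap with the ground state -/
theorem fid {T : Finset (Finset Λ)} {h : Finset Λ → Matrix (Λ → Q) (Λ → Q) ℂ}
    {Ω : (Λ → Q) → ℂ} {E0 Δ J : ℝ} {m : ℕ} (G : Gapped T h Ω E0 Δ J m) (hJ : 0 ≤ J)
    (hΔ : 0 < Δ) (A : ℕ → Finset Λ) (hA : Monotone A) (k : ℕ)
    (sep : ∀ Y ∈ T, ∀ r, r + 1 < k → ¬ Disjoint Y (A r) → Y ⊆ A (r + 1))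
    (a : ℕ → ℝ) (ha : ∀ r, 0 < a r) (ha4 : ∀ r, a r ≤ 1 / 4) (η : ℝ) (hη : η ≤ 1 / 2)
    (hE : KK Q J m * ∑ r ∈ Finset.range k, a r ^ 2 * ncross T (A r) ≤ η * Δ) (B : ℝ)
    (hB : ∀ y, Dom A y → ‖star Ω ⬝ᵥ (seg (PP a y) 0 k *ᵥ Ω)‖ ^ 2 ≤ B)
    (x : ℕ → Matrix (Λ → Q) (Λ → Q) ℂ × ((Λ → Q) → ℝ)) (hx : Dom A x) :
    nsq (seg (PP a x) 0 k *ᵥ Ω) ≤ B * Real.exp (2 * η) := by
  have hK := fid_KK_nonneg (Q := Q) hJ m
  have hη0 : 0 ≤ η := by
    have : 0 ≤ η * Δ := le_trans (mul_nonneg hK (Finset.sum_nonneg fun r _ => by positivity)) hE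
    by_contra hn
    have := mul_neg_of_neg_of_pos (not_le.1 hn) hΔ
    linarith
  have hexp : 1 ≤ (1 - η) * Real.exp (2 * η) := by
    have := Real.add_one_le_exp (2 * η)
    nlinarith
  have inner : ∀ y, Dom A y → (∀ r s, 0 < (y r).2 s) →
      nsq (seg (PP a y) 0 k *ᵥ Ω) ≤ B * Real.exp (2 * η) := by
    intro y hy hp
    have h1 : ∀ ε : ℝ, 0 < ε →
        nsq (seg (PP a y) 0 k *ᵥ Ω) * reg k ε y ≤ B * Real.exp (2 * η) := by
      intro ε hε
      obtain ⟨z, u, c, hz, hc, hu, hs, hm, ho⟩ := exists_own A hA a ha k ε hε G.norm1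
      have e1 := (energy G hJ A hA k sep a ha ha4 z hz u c hc hu hs ho).trans hE
      have e2 := (G.gap u hu).trans e1
      have e3 : 1 - η ≤ ‖star Ω ⬝ᵥ u‖ ^ 2 := by
        have : Δ * (1 - ‖star Ω ⬝ᵥ u‖ ^ 2) ≤ Δ * η := by linarith
        have := le_of_mul_le_mul_left this hΔ
        linarith
      have e4 := hB z hz
      rw [hs, dotProduct_smul, smul_eq_mul, norm_mul, mul_pow, Complex.norm_real,
        Real.norm_eq_abs, sq_abs] at e4
      have e5 : reg k ε z ≤ 1 :=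
        Finset.prod_le_one (fun r _ => Finset.prod_nonneg fun s _ =>
          Real.rpow_nonneg ((hz r).nonneg s) _) fun r _ =>
          Finset.prod_le_one (fun s _ => Real.rpow_nonneg ((hz r).nonneg s) _) fun s _ =>
          Real.rpow_le_one ((hz r).nonneg s) ((hz r).le_one s) hε.le
      have e6 : c ^ 2 * (1 - η) ≤ B := (mul_le_mul_of_nonneg_left e3 (sq_nonneg c)).trans e4
      calc _ ≤ c ^ 2 * reg k ε z := hm y hy
        _ ≤ c ^ 2 * 1 := mul_le_mul_of_nonneg_left e5 (sq_nonneg c)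
        _ ≤ c ^ 2 * ((1 - η) * Real.exp (2 * η)) := mul_le_mul_of_nonneg_left hexp (sq_nonneg c)
        _ = c ^ 2 * (1 - η) * Real.exp (2 * η) := by ring
        _ ≤ B * Real.exp (2 * η) := mul_le_mul_of_nonneg_right e6 (Real.exp_pos _).le
    have h2 : Continuous fun ε : ℝ => nsq (seg (PP a y) 0 k *ᵥ Ω) * reg k ε y := by
      refine continuous_const.mul ?_
      unfold reg
      exact continuous_finset_prod _ fun r _ => continuous_finset_prod _ fun s _ =>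
        Real.continuous_const_rpow (hp r s).ne'
    have h3 : Filter.Tendsto (fun ε : ℝ => nsq (seg (PP a y) 0 k *ᵥ Ω) * reg k ε y)
        (nhdsWithin 0 (Set.Ioi 0)) (nhds (nsq (seg (PP a y) 0 k *ᵥ Ω) * reg k 0 y)) :=
      (h2.tendsto 0).mono_left nhdsWithin_le_nhds
    have h4 := le_of_tendsto h3 (eventually_nhdsWithin_of_forall fun ε hε => h1 ε hε)
    simpa [reg] using h4
  have hq : (0 : ℝ) < Fintype.card Q := by exact_mod_cast Fintype.card_pos
  let X : ℝ → ℕ → Matrix (Λ → Q) (Λ → Q) ℂ × ((Λ → Q) → ℝ) := fun t r =>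
    ((x r).1, fun s => (1 - t) * (x r).2 s + t * ((Fintype.card Q : ℝ) ^ (A r).card)⁻¹)
  have hXc : Continuous X := by
    refine continuous_pi fun r => continuous_const.prodMk (continuous_pi fun s => ?_)
    fun_prop
  have hX0 : X 0 = x := by
    funext r
    simp [X]
  have h3 : Filter.Tendsto (fun t : ℝ => nsq (seg (PP a (X t)) 0 k *ᵥ Ω))
      (nhdsWithin 0 (Set.Ioi 0)) (nhds (nsq (seg (PP a (X 0)) 0 k *ᵥ Ω))) :=
    (((cont_val a ha k Ω).comp hXc).tendsto 0).mono_left nhdsWithin_le_nhds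
  rw [hX0] at h3
  refine le_of_tendsto h3 ?_
  filter_upwards [Ioc_mem_nhdsGT (zero_lt_one' ℝ)] with t ht
  refine inner (X t) (fun r => (hx r).mix t ht.1.le ht.2) fun r s => ?_
  have h5 := mul_nonneg (sub_nonneg.2 ht.2) ((hx r).nonneg s)
  have h6 : 0 < t * ((Fintype.card Q : ℝ) ^ (A r).card)⁻¹ := mul_pos ht.1 (by positivity)
  exact add_pos_of_nonneg_of_pos h5 h6

/-- one cut: halve the exponent repeatedly -/
theorem single {T : Finset (Finset Λ)} {h : Finset Λ → Matrix (Λ → Q) (Λ → Q) ℂ}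
    {Ω : (Λ → Q) → ℂ} {E0 Δ J : ℝ} {m : ℕ} (G : Gapped T h Ω E0 Δ J m) (hJ : 0 ≤ J)
    (hΔ : 0 < Δ) (A : Finset Λ) (a : ℝ) (ha : 0 < a) (ha4 : a ≤ 1 / 4)
    (hE : KK Q J m * (a ^ 2 * ncross T A) ≤ 1 / 2 * Δ)
    {V : Matrix (Λ → Q) (Λ → Q) ℂ} {d : (Λ → Q) → ℝ} (hs : Spec A V d) :
    nsq (pw V d a *ᵥ Ω) ≤ Real.exp (-(2 * a * entropy A Ω) + 2) := by
  have hK := fid_KK_nonneg (Q := Q) hJ m
  obtain ⟨C, hC, hs0⟩ := ent_small A G.norm1
  set κ : ℝ := KK Q J m * ncross T A / Δ with hκ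
  have hκ0 : 0 ≤ κ := by positivity
  have key : ∀ j : ℕ, ∀ a : ℝ, 0 < a → a ≤ 1 / 4 → κ * a ^ 2 ≤ 1 / 2 →
      ∀ (V : Matrix (Λ → Q) (Λ → Q) ℂ) (d : (Λ → Q) → ℝ), Spec A V d →
      nsq (pw V d a *ᵥ Ω) ≤
        Real.exp (-(2 * a * entropy A Ω) + C * a ^ 2 / 2 ^ j + 4 * (κ * a ^ 2)) := by
    intro j
    induction j with
    | zero =>
      intro a ha ha4 _ V d hs
      refine (hs0 V d hs a ha ha4).trans (Real.exp_le_exp.2 ?_)
      have : 0 ≤ κ * a ^ 2 := by positivity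
      simp only [pow_zero, div_one]
      linarith
    | succ j ih =>
      intro a ha ha4 hk V d hs
      have h1 := fid G hJ hΔ (fun _ => A) monotone_const 1 (fun Y _ r hr => by omega)
        (fun _ => a) (fun _ => ha) (fun _ => ha4) (κ * a ^ 2) hk
        (by
          rw [Finset.sum_range_one, hκ]
          apply le_of_eq
          field_simp)
        (Real.exp (-(2 * (a / 2) * entropy A Ω) + C * (a / 2) ^ 2 / 2 ^ j +
          4 * (κ * (a / 2) ^ 2)) ^ 2)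
        (by
          intro y hy
          have e1 : star Ω ⬝ᵥ (seg (PP (fun _ => a) y) 0 1 *ᵥ Ω) =
              (nsq (pw (y 0).1 (y 0).2 (a / 2) *ᵥ Ω) : ℂ) := by
            rw [pw, nsq_fr (hy 0).uni, ip]
            have : (fun i => (y 0).2 i ^ (a / 2) * (y 0).2 i ^ (a / 2)) =
                fun i => (y 0).2 i ^ a := by
              funext i
              rw [← Real.rpow_add' ((hy 0).nonneg i) (by linarith [ha] : a / 2 + a / 2 ≠ 0)]
              simp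
            rw [this]
            simp [seg, PP, pw]
          rw [e1, Complex.norm_real, Real.norm_eq_abs, sq_abs]
          refine pow_le_pow_left₀ (nsq_nonneg _) ?_ 2
          exact ih (a / 2) (by linarith) (by linarith) (by nlinarith) _ _ (hy 0))
        (fun _ => (V, d)) fun _ => hs
      have e2 : seg (PP (fun _ => a) fun _ => (V, d)) 0 1 = pw V d a := by simp [seg, PP]
      rw [e2, ← Real.exp_nat_mul, ← Real.exp_add] at h1
      refine h1.trans (le_of_eq ?_)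
      congr 1
      push_cast
      ring
  have hk : κ * a ^ 2 ≤ 1 / 2 := by
    rw [hκ, div_mul_eq_mul_div, div_le_iff₀ hΔ]
    linarith
  have h3 : Filter.Tendsto (fun j : ℕ =>
      Real.exp (-(2 * a * entropy A Ω) + C * a ^ 2 * (1 / 2) ^ j + 2)) Filter.atTop
      (nhds (Real.exp (-(2 * a * entropy A Ω) + C * a ^ 2 * 0 + 2))) := by
    refine (Real.continuous_exp.tendsto _).comp ?_
    exact (((tendsto_pow_atTop_nhds_zero_of_lt_one (by norm_num) (by norm_num)).const_mul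
      _).const_add _).add_const _
  rw [mul_zero, add_zero] at h3
  refine ge_of_tendsto' h3 fun j => (key j a ha ha4 hk V d hs).trans (Real.exp_le_exp.2 ?_)
  rw [one_div, inv_pow, ← div_eq_mul_inv]
  linarith

/-- peel off the outermost cut -/
theorem upper {T : Finset (Finset Λ)} {h : Finset Λ → Matrix (Λ → Q) (Λ → Q) ℂ}
    {Ω : (Λ → Q) → ℂ} {E0 Δ J : ℝ} {m : ℕ} (G : Gapped T h Ω E0 Δ J m) (hJ : 0 ≤ J)
    (hΔ : 0 < Δ) (A : ℕ → Finset Λ) (hA : Monotone A) (k : ℕ)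
    (sep : ∀ Y ∈ T, ∀ r, r + 1 < k → ¬ Disjoint Y (A r) → Y ⊆ A (r + 1))
    (a : ℕ → ℝ) (ha : ∀ r, 0 < a r) (ha4 : ∀ r, a r ≤ 1 / 4)
    (hE : KK Q J m * ∑ r ∈ Finset.range k, a r ^ 2 * ncross T (A r) ≤ 1 / 2 * Δ)
    (x : ℕ → Matrix (Λ → Q) (Λ → Q) ℂ × ((Λ → Q) → ℝ)) (hx : Dom A x) :
    nsq (seg (PP a x) 0 k *ᵥ Ω) ≤
      Real.exp (-(2 * ∑ r ∈ Finset.range k, a r * entropy (A r) Ω) + 3 * k) := by
  have hK := fid_KK_nonneg (Q := Q) hJ m
  induction k generalizing x with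
  | zero => simp [seg, G.norm1]
  | succ k ih =>
    have hn : 0 ≤ KK Q J m * ∑ r ∈ Finset.range k, a r ^ 2 * (ncross T (A r) : ℝ) :=
      mul_nonneg hK (Finset.sum_nonneg fun r _ => by positivity)
    have hn' : 0 ≤ KK Q J m * (a k ^ 2 * (ncross T (A k) : ℝ)) := by positivity
    have hE' := hE
    rw [Finset.sum_range_succ, mul_add] at hE'
    have h1 := fid G hJ hΔ A hA (k + 1) sep a ha ha4 (1 / 2) le_rfl hE
      (Real.exp (-(2 * a k * entropy (A k) Ω) + 2) *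
        Real.exp (-(2 * ∑ r ∈ Finset.range k, a r * entropy (A r) Ω) + 3 * k))
      (by
        intro y hy
        have e1 : seg (PP a y) 0 (k + 1) = PP a y k * seg (PP a y) 0 k := by
          show PP a y (0 + k) * _ = _
          rw [Nat.zero_add]
        have hPh : (PP a y k)ᴴ = PP a y k := fr_ct _ _
        rw [e1, ← mulVec_mulVec, dot_mulVec, hPh]
        refine (cs _ _).trans (mul_le_mul ?_ ?_ (nsq_nonneg _) (Real.exp_pos _).le)
        · exact single G hJ hΔ (A k) (a k) (ha k) (ha4 k) (by linarith) (hy k)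
        · exact ih (fun Y hY r hr => sep Y hY r (by omega)) (by linarith) y hy) x hx
    rw [← Real.exp_add, ← Real.exp_add] at h1
    refine h1.trans (le_of_eq ?_)
    congr 1
    rw [Finset.sum_range_succ]
    push_cast
    ring

end Vale.Agent.P356
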