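import Vale.Agent.P356.Geo

namespace Vale.Agent.P356

open Matrix
open scoped ComplexOrder

theorem fin_symm {L : ℕ} (x y : Fin L × Fin L) : dist1 x y = dist1 y x := by
  unfold dist1
  omega

theorem bdry_compl {L : ℕ} (A : Finset (Fin L × Fin L)) : bdry Aᶜ = bdry A := by
  refine Finset.card_equiv (Equiv.prodComm _ _) fun e => ?_
  simp only [Finset.mem_filter, Finset.mem_univ, true_and, Finset.mem_compl, not_not,
    Equiv.prodComm_apply, Prod.fst_swap, Prod.snd_swap, fin_symm e.2 e.1]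
  tauto

/-- `z` lies in the rectangle spanned by `x` and `y` -/
def finBtw {L : ℕ} (x y z : Fin L × Fin L) : Prop :=
  min x.1.val y.1.val ≤ z.1.val ∧ z.1.val ≤ max x.1.val y.1.val ∧
    min x.2.val y.2.val ≤ z.2.val ∧ z.2.val ≤ max x.2.val y.2.val

theorem fin_toward {L : ℕ} (x y : Fin L × Fin L) (n : ℕ) (h : dist1 x y = n + 1) :
    ∃ z, dist1 x z = 1 ∧ dist1 z y = n ∧ finBtw x y z := by
  obtain ⟨⟨a, ha⟩, ⟨b, hb⟩⟩ := x
  obtain ⟨⟨c, hc⟩, ⟨d, hd⟩⟩ := y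
  simp only [dist1] at h
  rcases lt_trichotomy a c with h1 | h1 | h1
  · refine ⟨(⟨a + 1, by omega⟩, ⟨b, hb⟩), ?_, ?_, ?_⟩ <;> simp only [dist1, finBtw] <;> omega
  · rcases lt_or_ge b d with h2 | h2
    · refine ⟨(⟨a, ha⟩, ⟨b + 1, by omega⟩), ?_, ?_, ?_⟩ <;> simp only [dist1, finBtw] <;> omega
    · refine ⟨(⟨a, ha⟩, ⟨b - 1, by omega⟩), ?_, ?_, ?_⟩ <;> simp only [dist1, finBtw] <;> omega
  · refine ⟨(⟨a - 1, by omega⟩, ⟨b, hb⟩), ?_, ?_, ?_⟩ <;> simp only [dist1, finBtw] <;> omega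

theorem fin_edge {L : ℕ} (A : Finset (Fin L × Fin L)) (y : Fin L × Fin L) (hy : y ∉ A) (n : ℕ) :
    ∀ x ∈ A, dist1 x y = n → ∃ u v, u ∈ A ∧ v ∉ A ∧ dist1 u v = 1 ∧ finBtw x y u := by
  induction n with
  | zero =>
    intro x hx h
    have h1 : x = y := by
      unfold dist1 at h
      exact Prod.ext (Fin.ext (by omega)) (Fin.ext (by omega))
    exact absurd (h1 ▸ hx) hy
  | succ n ih =>
    intro x hx h
    obtain ⟨z, h1, h2, h3⟩ := fin_toward x y n h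
    by_cases hz : z ∈ A
    · obtain ⟨u, v, hu, hv, h4, h5⟩ := ih z hz h2
      refine ⟨u, v, hu, hv, h4, ?_⟩
      unfold finBtw at *
      omega
    · refine ⟨x, z, hx, hz, h1, ?_⟩
      unfold finBtw
      omega

/-- the boundary edges -/
def finE {L : ℕ} (A : Finset (Fin L × Fin L)) : Finset ((Fin L × Fin L) × (Fin L × Fin L)) :=
  Finset.univ.filter fun e => e.1 ∈ A ∧ e.2 ∉ A ∧ dist1 e.1 e.2 = 1

theorem fin_row {L : ℕ} (A : Finset (Fin L × Fin L)) {i j j' : Fin L} (h1 : (i, j) ∈ A)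
    (h2 : (i, j') ∉ A) : i ∈ (finE A).image fun e => e.1.1 := by
  obtain ⟨u, v, hu, hv, h3, h4⟩ := fin_edge A _ h2 _ _ h1 rfl
  refine Finset.mem_image.2 ⟨(u, v), by simp [finE, hu, hv, h3], Fin.ext ?_⟩
  simp only [finBtw] at h4 ⊢
  omega

theorem fin_col {L : ℕ} (A : Finset (Fin L × Fin L)) {i i' j : Fin L} (h1 : (i, j) ∈ A)
    (h2 : (i', j) ∉ A) : j ∈ (finE A).image fun e => e.1.2 := by
  obtain ⟨u, v, hu, hv, h3, h4⟩ := fin_edge A _ h2 _ _ h1 rfl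
  refine Finset.mem_image.2 ⟨(u, v), by simp [finE, hu, hv, h3], Fin.ext ?_⟩
  simp only [finBtw] at h4 ⊢
  omega

/-- isoperimetric inequality on the grid -/
theorem isoper {L : ℕ} (A : Finset (Fin L × Fin L)) :
    A.card ≤ bdry A ^ 2 ∨ Aᶜ.card ≤ bdry A ^ 2 := by
  have hI : ((finE A).image fun e => e.1.1).card ≤ bdry A := Finset.card_image_le
  have hJ : ((finE A).image fun e => e.1.2).card ≤ bdry A := Finset.card_image_le
  have hP : ∀ B : Finset (Fin L × Fin L), (∀ z ∈ B, z.1 ∈ (finE A).image (fun e => e.1.1) ∧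
      z.2 ∈ (finE A).image (fun e => e.1.2)) → B.card ≤ bdry A ^ 2 := fun B hB => by
    refine (Finset.card_le_card fun z hz => Finset.mem_product.2 (hB z hz)).trans ?_
    rw [Finset.card_product, sq]
    exact Nat.mul_le_mul hI hJ
  have hL : ∀ S : Finset (Fin L), (∀ i, i ∈ S) → S.card ≤ bdry A → A.card ≤ bdry A ^ 2 :=
    fun S h1 h2 => by
      rw [Finset.eq_univ_of_forall h1, Finset.card_univ, Fintype.card_fin] at h2
      refine (Finset.card_le_univ A).trans ?_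
      rw [Fintype.card_prod, Fintype.card_fin, sq]
      exact Nat.mul_le_mul h2 h2
  by_cases h1 : (∀ i, ∃ j, (i, j) ∉ A) ∧ ∀ j, ∃ i, (i, j) ∉ A
  · refine Or.inl (hP A fun z hz => ?_)
    obtain ⟨j, hj⟩ := h1.1 z.1
    obtain ⟨i, hi⟩ := h1.2 z.2
    exact ⟨fin_row A (j := z.2) hz hj, fin_col A (i := z.1) hz hi⟩
  by_cases h2 : (∀ i, ∃ j, (i, j) ∈ A) ∧ ∀ j, ∃ i, (i, j) ∈ A
  · refine Or.inr (hP Aᶜ fun z hz => ?_)
    obtain ⟨j, hj⟩ := h2.1 z.1
    obtain ⟨i, hi⟩ := h2.2 z.2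
    rw [Finset.mem_compl] at hz
    exact ⟨fin_row A (j' := z.2) hj hz, fin_col A (i' := z.1) hi hz⟩
  left
  simp only [not_and_or, not_forall, not_exists, not_not] at h1 h2
  rcases h1 with ⟨i, hi⟩ | ⟨j, hj⟩ <;> rcases h2 with ⟨i', hi'⟩ | ⟨j', hj'⟩
  · exact hL _ (fun j => fin_col A (hi j) (hi' j)) hJ
  · exact absurd (hi j') (hj' i)
  · exact absurd (hj i') (hi' j)
  · exact hL _ (fun i => fin_row A (hj i) (hj' i)) hI

theorem fin_card {L q : ℕ} [NeZero q] {Ω : (Fin L × Fin L → Fin q) → ℂ} (hΩ : nsq Ω = 1)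
    (A : Finset (Fin L × Fin L)) : entropy A Ω ≤ A.card * Real.log q := by
  simpa only [Fintype.card_fin] using ent_le_card A hΩ

theorem fin_zero {L q : ℕ} [NeZero q] {Ω : (Fin L × Fin L → Fin q) → ℂ} (hΩ : nsq Ω = 1)
    (A : Finset (Fin L × Fin L)) (h : bdry A = 0) : entropy A Ω ≤ 0 := by
  rcases isoper A with h1 | h1
  · have h2 := fin_card hΩ A
    rw [h] at h1
    rwa [Nat.le_zero.1 h1, Nat.cast_zero, zero_mul] at h2
  · have h2 := fin_card hΩ Aᶜ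
    rw [h] at h1
    rwa [Nat.le_zero.1 h1, Nat.cast_zero, zero_mul, ent_compl] at h2

theorem fin_add {L q : ℕ} [NeZero q] {Ω : (Fin L × Fin L → Fin q) → ℂ} (hΩ : nsq Ω = 1) (s c : ℝ)
    (A B B' : Finset (Fin L × Fin L)) (hd : Disjoint B B')
    (h : entropy (A ∩ B) Ω ≤ s * (A ∩ B).card + c * ((finE A).filter fun e => e.1 ∈ B).card)
    (h' : entropy (A ∩ B') Ω ≤ s * (A ∩ B').card + c * ((finE A).filter fun e => e.1 ∈ B').card) :
    entropy (A ∩ (B ∪ B')) Ω ≤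
      s * (A ∩ (B ∪ B')).card + c * ((finE A).filter fun e => e.1 ∈ B ∪ B').card := by
  have h1 : Disjoint (A ∩ B) (A ∩ B') :=
    hd.mono Finset.inter_subset_right Finset.inter_subset_right
  have h2 : ((finE A).filter fun e => e.1 ∈ B ∪ B').card =
      ((finE A).filter fun e => e.1 ∈ B).card + ((finE A).filter fun e => e.1 ∈ B').card := by
    rw [← Finset.card_union_of_disjoint, ← Finset.filter_or]
    · simp only [Finset.mem_union]
    · exact Finset.disjoint_filter.2 fun e _ he => Finset.disjoint_left.1 hd he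
  have h3 := ent_union h1 hΩ
  rw [h2, Finset.inter_union_distrib_left, Finset.card_union_of_disjoint h1]
  push_cast
  linarith

/-- covering by boxes of side about `w` -/
theorem cover {L q : ℕ} [NeZero q] {Ω : (Fin L × Fin L → Fin q) → ℂ} (hΩ : nsq Ω = 1) {s : ℝ}
    (hs : 0 ≤ s) {w : ℕ} (hw : 0 < w) (hG : Good Ω s w) (A : Finset (Fin L × Fin L)) :
    entropy A Ω ≤ s * A.card + 4 * (w : ℝ) ^ 2 * Real.log q * bdry A := by
  have hq := Real.log_natCast_nonneg q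
  have hc : 0 ≤ 4 * (w : ℝ) ^ 2 * Real.log q := by positivity
  have key : ∀ B : Finset (Fin L × Fin L), B.card ≤ 4 * w ^ 2 → ∀ n : ℕ, 0 < n →
      entropy B Ω ≤ s * B.card + 4 * (w : ℝ) ^ 2 * Real.log q * n := fun B hB n hn => by
    have h1 : (B.card : ℝ) ≤ 4 * (w : ℝ) ^ 2 := by exact_mod_cast hB
    have h2 := mul_le_mul_of_nonneg_right h1 hq
    have h3 := le_mul_of_one_le_right hc (show (1 : ℝ) ≤ n by exact_mod_cast hn)
    have h4 : 0 ≤ s * B.card := by positivity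
    linarith [fin_card hΩ B]
  rcases lt_or_ge L w with hL | hL
  · rcases Nat.eq_zero_or_pos (bdry A) with h0 | h0
    · exact (fin_zero hΩ A h0).trans (by positivity)
    · refine key A ((Finset.card_le_univ A).trans ?_) _ h0
      rw [Fintype.card_prod, Fintype.card_fin]
      nlinarith
  have h1 := tiling L w hw (fun x1 x2 y1 y2 => entropy (A ∩ box L x1 x2 y1 y2) Ω ≤
      s * (A ∩ box L x1 x2 y1 y2).card + 4 * (w : ℝ) ^ 2 * Real.log q *
        ((finE A).filter fun e => e.1 ∈ box L x1 x2 y1 y2).card)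
    (fun x1 x2 x3 y1 y2 a1 a2 _ _ _ p1 p2 => by
      obtain ⟨e, d⟩ := box_split_x L x1 x2 x3 y1 y2 a1 a2
      rw [e]
      exact fin_add hΩ _ _ A _ _ d p1 p2)
    (fun x1 x2 y1 y2 y3 _ _ a1 a2 _ p1 p2 => by
      obtain ⟨e, d⟩ := box_split_y L x1 x2 y1 y2 y3 a1 a2
      rw [e]
      exact fin_add hΩ _ _ A _ _ d p1 p2)
    (fun x1 x2 y1 y2 a1 a2 a3 b1 b2 b3 => ?_) 0 L 0 L (by omega) le_rfl (by omega) le_rfl
  · have e : box L 0 L 0 L = Finset.univ := by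
      ext z
      simp [box]
    simp only [e, Finset.inter_univ, Finset.mem_univ, Finset.filter_true] at h1
    exact h1
  by_cases h2 : box L x1 x2 y1 y2 ⊆ A
  · rw [Finset.inter_eq_right.2 h2, box_card L x1 x2 y1 y2 a3 b3, Nat.cast_mul,
      Nat.cast_sub (by omega), Nat.cast_sub (by omega)]
    exact (hG x1 x2 y1 y2 a1 a3 b1 b3).trans (le_add_of_nonneg_right (by positivity))
  rcases (A ∩ box L x1 x2 y1 y2).eq_empty_or_nonempty with h3 | ⟨x, hx⟩
  · have h4 := fin_card hΩ (A ∩ box L x1 x2 y1 y2)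
    rw [h3] at h4 ⊢
    rw [Finset.card_empty, Nat.cast_zero, zero_mul] at h4
    exact h4.trans (by positivity)
  obtain ⟨y, hy, hy'⟩ := Finset.not_subset.1 h2
  obtain ⟨hx, hx'⟩ := Finset.mem_inter.1 hx
  obtain ⟨u, v, hu, hv, h3, h4⟩ := fin_edge A y hy' _ x hx rfl
  refine key _ ((Finset.card_le_card Finset.inter_subset_right).trans
    ((box_card_le L x1 x2 y1 y2).trans ?_)) _ (Finset.card_pos.2 ⟨(u, v), ?_⟩)
  · exact (Nat.mul_le_mul (show x2 - x1 ≤ 2 * w by omega)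
      (show y2 - y1 ≤ 2 * w by omega)).trans_eq (by ring)
  · simp only [finE, box, finBtw, Finset.mem_filter, Finset.mem_univ, true_and] at hx' hy h4 ⊢
    exact ⟨⟨hu, hv, h3⟩, by omega⟩

theorem iterate (q R : ℕ) [NeZero q] (J Δ : ℝ) (hJ : 0 ≤ J) (hΔ : 0 < Δ) :
    ∃ (M : ℕ) (K γ : ℝ), 3 ≤ M ∧ 0 < K ∧ 0 < γ ∧ γ < 1 ∧ ∀ (L : ℕ)
      (h : Finset (Fin L × Fin L) → Matrix (Fin L × Fin L → Fin q) (Fin L × Fin L → Fin q) ℂ)
      (Ω : (Fin L × Fin L → Fin q) → ℂ) (E0 : ℝ),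
      Gapped (supports L R) h Ω E0 Δ J ((2 * R + 1) ^ 2) → ∀ n : ℕ,
      Good Ω (K * γ ^ n) (M ^ n) := by
  obtain ⟨M, hM, hstep⟩ := step q R J Δ hJ hΔ
  have hM' : (3 : ℝ) ≤ M := by exact_mod_cast hM
  have hq := Real.log_natCast_nonneg q
  obtain ⟨δ, hδ⟩ : ∃ δ : ℝ, δ = 1 / (8 * (M : ℝ) ^ 2) := ⟨_, rfl⟩
  have d0 : 0 < δ := by rw [hδ]; positivity
  have d1 : δ ≤ 1 := by
    rw [hδ, div_le_one (by positivity)]
    nlinarith
  have hK : 0 < Real.log q + 2 / δ := by positivity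
  refine ⟨M, Real.log q + 2 / δ, 1 - δ / 2, hM, hK, by linarith, by linarith,
    fun L h Ω E0 G n => ?_⟩
  induction n with
  | zero =>
    intro x1 x2 y1 y2 a1 a2 b1 b2
    have h1 := fin_card G.norm1 (box L x1 x2 y1 y2)
    rw [box_card L x1 x2 y1 y2 a2 b2] at h1
    rw [← Nat.cast_sub (by omega), ← Nat.cast_sub (by omega), ← Nat.cast_mul, pow_zero, mul_one,
      mul_comm]
    exact h1.trans (mul_le_mul_of_nonneg_left (le_add_of_nonneg_right (by positivity))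
      (Nat.cast_nonneg _))
  | succ n ih =>
    have g0 : 0 < (1 - δ / 2) ^ n := pow_pos (by linarith) n
    have h1 := hstep L h Ω E0 G _ _ (mul_pos hK g0).le (pow_pos (by omega) n) ih
    rw [← hδ, ← pow_succ'] at h1
    intro x1 x2 y1 y2 a1 a2 b1 b2
    refine (h1 x1 x2 y1 y2 a1 a2 b1 b2).trans (mul_le_mul_of_nonneg_right ?_ ?_)
    · have h2 : 1 / ((M ^ n : ℕ) : ℝ) ≤ (1 - δ / 2) ^ n := by
        rw [Nat.cast_pow, ← _root_.one_div_pow]
        refine pow_le_pow_left₀ (by positivity) ?_ n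
        rw [div_le_iff₀ (by positivity)]
        nlinarith
      have h3 : δ / 2 * (Real.log q + 2 / δ) = δ / 2 * Real.log q + 1 := by field_simp
      have h4 : 0 ≤ δ / 2 * Real.log q * (1 - δ / 2) ^ n := by positivity
      have h5 : δ / 2 * (Real.log q + 2 / δ) * (1 - δ / 2) ^ n
          = δ / 2 * Real.log q * (1 - δ / 2) ^ n + (1 - δ / 2) ^ n := by rw [h3]; ring
      rw [pow_succ]
      linarith
    · rw [← Nat.cast_sub (by omega), ← Nat.cast_sub (by omega)]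
      positivity

theorem gapped_of {L q R : ℕ} {J Δ E0 : ℝ}
    (h : Finset (Fin L × Fin L) → Matrix (Fin L × Fin L → Fin q) (Fin L × Fin L → Fin q) ℂ)
    (hh : ∀ X ∈ supports L R, (h X).IsHermitian ∧ ActsOn X (h X) ∧
      ‖Matrix.toEuclideanCLM (𝕜 := ℂ) (n := Fin L × Fin L → Fin q) (h X)‖ ≤ J)
    (Ω : (Fin L × Fin L → Fin q) → ℂ) (h1 : ∑ s, ‖Ω s‖ ^ 2 = 1)
    (h2 : (∑ X ∈ supports L R, h X) *ᵥ Ω = (E0 : ℂ) • Ω)
    (h3 : ((∑ X ∈ supports L R, h X) - (E0 : ℂ) • 1 -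
      (Δ : ℂ) • (1 - vecMulVec Ω (star Ω))).PosSemidef) :
    Gapped (supports L R) h Ω E0 Δ J ((2 * R + 1) ^ 2) := by
  refine ⟨h1, h2, fun u hu => ?_, fun X hX => (hh X hX).1, fun X hX => ?_, fun X hX s t => ?_,
    supports_card L R⟩
  · have h4 := (Complex.nonneg_iff.1 (h3.dotProduct_mulVec_nonneg u)).1
    have h5 : star u ⬝ᵥ u = 1 := by rw [← nsq_eq, hu, Complex.ofReal_one]
    have h6 : star u ⬝ᵥ (vecMulVec Ω (star Ω) *ᵥ u) = ((‖star Ω ⬝ᵥ u‖ ^ 2 : ℝ) : ℂ) := by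
      rw [vecMulVec_mulVec, op_smul_eq_smul, dotProduct_smul, smul_eq_mul, star_dotProduct u Ω,
        ← star_star u, Complex.star_def, Complex.mul_conj, Complex.normSq_eq_norm_sq]
    simp only [sub_mulVec, smul_mulVec, one_mulVec, dotProduct_sub, dotProduct_smul, h5, h6,
      smul_eq_mul, mul_one, ← Complex.ofReal_one, ← Complex.ofReal_sub, ← Complex.ofReal_mul,
      Complex.sub_re, Complex.ofReal_re] at h4
    unfold ip
    linarith
  · obtain ⟨m, hm⟩ := (hh X hX).2.1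
    refine ⟨fun s t x hx hst => ?_, fun s t s' t' a1 a2 a3 a4 => ?_⟩
    · rw [hm, if_neg fun h4 => hst (h4 x hx)]
    · rw [hm, hm, if_pos a3, if_pos a4]
      congr 1
      · exact funext fun x => a1 x x.2
      · exact funext fun x => a2 x x.2
  · have h4 := (Matrix.toEuclideanCLM (𝕜 := ℂ) (n := Fin L × Fin L → Fin q) (h X)).le_opNorm
      (PiLp.single 2 t 1)
    rw [PiLp.norm_single, norm_one, mul_one] at h4
    refine le_trans ?_ (h4.trans (hh X hX).2.2)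
    refine le_trans (le_of_eq ?_) (PiLp.norm_apply_le _ s)
    rw [ofLp_toEuclideanCLM]
    simp

theorem subvolume (q R : ℕ) [NeZero q] (J Δ : ℝ) (hJ : 0 ≤ J) (hΔ : 0 < Δ) :
    ∃ C c : ℝ, 0 < c ∧ ∀ (L : ℕ)
      (h : Finset (Fin L × Fin L) → Matrix (Fin L × Fin L → Fin q) (Fin L × Fin L → Fin q) ℂ)
      (Ω : (Fin L × Fin L → Fin q) → ℂ) (E0 : ℝ),
      Gapped (supports L R) h Ω E0 Δ J ((2 * R + 1) ^ 2) → ∀ A : Finset (Fin L × Fin L),
      entropy A Ω ≤ C * (bdry A : ℝ) ^ (2 - c) := by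
  obtain ⟨M, K, γ, hM, hK, g0, g1, hG⟩ := iterate q R J Δ hJ hΔ
  have hM' : (3 : ℝ) ≤ M := by exact_mod_cast hM
  have hq := Real.log_natCast_nonneg q
  have l0 : 0 < Real.log M := Real.log_pos (by linarith)
  have l1 : 0 < -Real.log γ := neg_pos.2 (Real.log_neg g0 g1)
  obtain ⟨c, c0, c1, c2⟩ : ∃ c : ℝ, 0 < c ∧ c ≤ 1 / 2 ∧ c ≤ -Real.log γ / (4 * Real.log M) :=
    ⟨min (1 / 2) (-Real.log γ / (4 * Real.log M)), by positivity, min_le_left _ _, min_le_right _ _⟩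
  rw [le_div_iff₀ (by positivity)] at c2
  refine ⟨K / γ + 4 * Real.log q, c, c0, fun L h Ω E0 G A => ?_⟩
  wlog hA : A.card ≤ bdry A ^ 2 generalizing A
  · rw [← ent_compl, ← bdry_compl]
    exact this Aᶜ (by rw [bdry_compl]; exact (isoper A).resolve_left hA)
  rcases Nat.eq_zero_or_pos (bdry A) with h0 | h0
  · exact (fin_zero G.norm1 A h0).trans (by positivity)
  obtain ⟨b, hb⟩ : ∃ b : ℕ, b = bdry A := ⟨_, rfl⟩
  obtain ⟨n, hn⟩ : ∃ n : ℕ, n = Nat.log (M ^ 4) b := ⟨_, rfl⟩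
  have h1 := cover G.norm1 (by positivity) (pow_pos (by omega) n) (hG L h Ω E0 G n) A
  rw [← hb] at h0 h1 hA ⊢
  have b1 : (1 : ℝ) ≤ b := by exact_mod_cast h0
  have h2 : ((M : ℝ) ^ 4) ^ n ≤ b := by
    rw [hn]
    exact_mod_cast Nat.pow_log_le_self _ h0.ne'
  have h3 : (b : ℝ) ≤ ((M : ℝ) ^ 4) ^ (n + 1) := by
    rw [hn]
    exact_mod_cast (Nat.lt_pow_succ_log_self (Nat.one_lt_pow (by omega) (by omega)) b).le
  have h4 : (((M ^ n : ℕ) : ℝ)) ^ 2 * b ≤ (b : ℝ) ^ (2 - c) := by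
    have h5 : (((M ^ n : ℕ) : ℝ)) ^ 2 ≤ (b : ℝ) ^ (1 / 2 : ℝ) := by
      rw [← Real.sqrt_eq_rpow]
      refine Real.le_sqrt_of_sq_le (le_trans (le_of_eq ?_) h2)
      push_cast
      ring
    calc _ ≤ (b : ℝ) ^ (1 / 2 : ℝ) * b := by gcongr
      _ = (b : ℝ) ^ (1 / 2 + 1 : ℝ) := (Real.rpow_add_one (by positivity) _).symm
      _ ≤ _ := Real.rpow_le_rpow_of_exponent_le b1 (by linarith)
  have h5 : γ ^ (n + 1) * (b : ℝ) ^ c ≤ 1 := by
    have h6 := Real.log_le_log (by positivity) h3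
    rw [Real.log_pow, Real.log_pow] at h6
    rw [← Real.log_nonpos_iff (by positivity), Real.log_mul (by positivity) (by positivity),
      Real.log_pow, Real.log_rpow (by positivity)]
    have h7 := mul_le_mul_of_nonneg_left h6 c0.le
    have h8 := mul_le_mul_of_nonneg_left c2 (Nat.cast_nonneg (α := ℝ) (n + 1))
    push_cast at h7 h8 ⊢
    linarith
  have h6 : K * γ ^ n * A.card ≤ K / γ * (b : ℝ) ^ (2 - c) := by
    have h7 : (A.card : ℝ) ≤ (b : ℝ) ^ c * (b : ℝ) ^ (2 - c) := by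
      rw [← Real.rpow_add (by positivity), add_sub_cancel, Real.rpow_two]
      exact_mod_cast hA
    calc _ ≤ K * γ ^ n * ((b : ℝ) ^ c * (b : ℝ) ^ (2 - c)) := by gcongr
      _ = K / γ * (b : ℝ) ^ (2 - c) * (γ ^ (n + 1) * (b : ℝ) ^ c) := by
        field_simp
        ring
      _ ≤ _ := mul_le_of_le_one_right (by positivity) h5
  have h7 := mul_le_mul_of_nonneg_left h4 hq
  linarith

end Vale.Agent.P356
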