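import Vale.Agent.P356.Ent

namespace Vale.Agent.P356

open Matrix Filter Topology

section ThreeAux

variable {n : Type} [Fintype n] [DecidableEq n]

/-- the complex power family -/
noncomputable def thE (V : Matrix n n ℂ) (c : n → ℝ) (z : ℂ) : Matrix n n ℂ :=
  fn V fun s => Complex.exp (z * c s)

theorem th_fn_apply (V : Matrix n n ℂ) (f : n → ℂ) (i j : n) :
    fn V f i j = ∑ s, V i s * f s * star (V j s) := by
  simp [fn, Matrix.mul_apply, Matrix.diagonal, conjTranspose_apply]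

theorem thE_deriv (V : Matrix n n ℂ) (c : n → ℝ) (i j : n) (z : ℂ) :
    HasDerivAt (fun z => thE V c z i j)
      (fn V (fun s => Complex.exp (z * c s) * c s) i j) z := by
  simp only [thE, th_fn_apply]
  refine HasDerivAt.fun_sum fun s _ => ?_
  have h1 : HasDerivAt (fun z : ℂ => Complex.exp (z * c s)) (Complex.exp (z * c s) * c s) z := by
    simpa using ((hasDerivAt_id z).mul_const (c s : ℂ)).cexp
  exact (h1.const_mul (V i s)).mul_const _

theorem thE_zero {V : Matrix n n ℂ} (hV : V * Vᴴ = 1) (c : n → ℝ) : thE V c 0 = 1 := by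
  simp only [thE, zero_mul, Complex.exp_zero]
  exact fn_one hV

theorem thE_bdd (V : Matrix n n ℂ) (c : n → ℝ) :
    ∃ C : ℝ, 0 ≤ C ∧ ∀ z : ℂ, 0 ≤ z.re → z.re ≤ 1 → ∀ i j, ‖thE V c z i j‖ ≤ C := by
  refine ⟨∑ i, ∑ j, ∑ s, ‖V i s‖ * Real.exp |c s| * ‖V j s‖, by positivity, ?_⟩
  intro z h0 h1 i j
  calc ‖thE V c z i j‖ ≤ ∑ s, ‖V i s‖ * Real.exp |c s| * ‖V j s‖ := by
        rw [thE, th_fn_apply]
        refine (norm_sum_le _ _).trans (Finset.sum_le_sum fun s _ => ?_)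
        rw [norm_mul, norm_mul, norm_star, Complex.norm_exp]
        gcongr
        simp only [Complex.mul_re, Complex.ofReal_re, Complex.ofReal_im, mul_zero, sub_zero]
        calc z.re * c s ≤ z.re * |c s| := mul_le_mul_of_nonneg_left (le_abs_self _) h0
          _ ≤ |c s| := mul_le_of_le_one_left (abs_nonneg _) h1
    _ ≤ ∑ j, ∑ s, ‖V i s‖ * Real.exp |c s| * ‖V j s‖ :=
        Finset.single_le_sum (f := fun j => ∑ s, ‖V i s‖ * Real.exp |c s| * ‖V j s‖)
          (fun _ _ => by positivity) (Finset.mem_univ j)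
    _ ≤ _ :=
        Finset.single_le_sum (f := fun i => ∑ j, ∑ s, ‖V i s‖ * Real.exp |c s| * ‖V j s‖)
          (fun _ _ => by positivity) (Finset.mem_univ i)

theorem th_fn_uni {V : Matrix n n ℂ} (hV : V * Vᴴ = 1) (f : n → ℂ) (hf : ∀ s, ‖f s‖ = 1) :
    fn V f * (fn V f)ᴴ = 1 := by
  rw [fn_ct, fn_mul hV, ← fn_one hV]
  congr 1
  funext s
  rw [Complex.star_def, Complex.mul_conj, Complex.normSq_eq_norm_sq, hf s]
  simp

/-- the vector of the interpolation family -/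
noncomputable def thG (V : ℕ → Matrix n n ℂ) (c : ℕ → n → ℝ) (ψ : n → ℂ) (k : ℕ) (z : ℂ) :
    n → ℂ :=
  seg (fun r => thE (V r) (c r) z) 0 k *ᵥ ψ

theorem thG_zero (V : ℕ → Matrix n n ℂ) (c : ℕ → n → ℝ) (ψ : n → ℂ) (z : ℂ) :
    thG V c ψ 0 z = ψ := by
  simp [thG, seg]

theorem thG_succ (V : ℕ → Matrix n n ℂ) (c : ℕ → n → ℝ) (ψ : n → ℂ) (k : ℕ) (z : ℂ) :
    thG V c ψ (k + 1) z = thE (V k) (c k) z *ᵥ thG V c ψ k z := by
  simp [thG, seg, Matrix.mulVec_mulVec]

theorem thG_diff (V : ℕ → Matrix n n ℂ) (c : ℕ → n → ℝ) (ψ : n → ℂ) (k : ℕ) :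
    ∀ i, Differentiable ℂ fun z => thG V c ψ k z i := by
  induction k with
  | zero => intro i; simp [thG_zero]
  | succ k ih =>
    intro i
    simp only [thG_succ, Matrix.mulVec, dotProduct]
    refine Differentiable.fun_sum fun j _ => ?_
    exact Differentiable.mul (fun z => (thE_deriv (V k) (c k) i j z).differentiableAt) (ih j)

theorem thG_at0 {V : ℕ → Matrix n n ℂ} (hV : ∀ r, V r * (V r)ᴴ = 1) (c : ℕ → n → ℝ)
    (ψ : n → ℂ) (k : ℕ) : thG V c ψ k 0 = ψ := by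
  induction k with
  | zero => exact thG_zero V c ψ 0
  | succ k ih => rw [thG_succ, thE_zero (hV k), ih, Matrix.one_mulVec]

theorem thG_deriv {V : ℕ → Matrix n n ℂ} (hV : ∀ r, V r * (V r)ᴴ = 1) (c : ℕ → n → ℝ)
    (ψ : n → ℂ) (k : ℕ) : ∀ i, HasDerivAt (fun z => thG V c ψ k z i)
      ((∑ r ∈ Finset.range k, fr (V r) (c r) *ᵥ ψ) i) 0 := by
  induction k with
  | zero => intro i; simpa [thG_zero] using hasDerivAt_const (0 : ℂ) (ψ i)
  | succ k ih =>
    intro i
    have h1 : HasDerivAt (fun z => ∑ j, thE (V k) (c k) z i j * thG V c ψ k z j)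
        (∑ j, (fn (V k) (fun s => Complex.exp (0 * c k s) * c k s) i j * thG V c ψ k 0 j
          + thE (V k) (c k) 0 i j * (∑ r ∈ Finset.range k, fr (V r) (c r) *ᵥ ψ) j)) 0 :=
      HasDerivAt.fun_sum fun j _ => (thE_deriv (V k) (c k) i j 0).mul (ih j)
    have h2 : (fun z => thG V c ψ (k + 1) z i)
        = fun z => ∑ j, thE (V k) (c k) z i j * thG V c ψ k z j := by
      funext z
      rw [thG_succ]
      rfl
    rw [h2]
    convert h1 using 1
    rw [Finset.sum_add_distrib, thG_at0 hV, thE_zero (hV k), Finset.sum_range_succ, Pi.add_apply,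
      add_comm]
    congr 1
    · simp [fr, Matrix.mulVec, dotProduct]
    · exact (congrFun (Matrix.one_mulVec _) i).symm

theorem thG_bdd (V : ℕ → Matrix n n ℂ) (c : ℕ → n → ℝ) (ψ : n → ℂ) (k : ℕ) :
    ∃ C : ℝ, 0 ≤ C ∧ ∀ z : ℂ, 0 ≤ z.re → z.re ≤ 1 → ∀ i, ‖thG V c ψ k z i‖ ≤ C := by
  induction k with
  | zero =>
    refine ⟨‖ψ‖, norm_nonneg _, fun z _ _ i => ?_⟩
    rw [thG_zero]
    exact norm_le_pi_norm ψ i
  | succ k ih =>
    obtain ⟨C, hC, h⟩ := ih
    obtain ⟨D, hD, h'⟩ := thE_bdd (V k) (c k)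
    refine ⟨∑ _j : n, D * C, by positivity, fun z h0 h1 i => ?_⟩
    rw [thG_succ]
    refine (norm_sum_le _ _).trans (Finset.sum_le_sum fun j _ => ?_)
    rw [norm_mul]
    exact mul_le_mul (h' z h0 h1 i j) (h z h0 h1 j) (norm_nonneg _) hD

theorem thG_uni {V : ℕ → Matrix n n ℂ} (hV : ∀ r, V r * (V r)ᴴ = 1) (c : ℕ → n → ℝ)
    (ψ : n → ℂ) (k : ℕ) (z : ℂ) (hz : z.re = 0) : nsq (thG V c ψ k z) = nsq ψ := by
  induction k with
  | zero => rw [thG_zero]
  | succ k ih =>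
    rw [thG_succ, thE, nsq_uni (th_fn_uni (hV k) _ fun s => ?_), ih]
    rw [Complex.norm_exp]
    simp [hz]

theorem th_deriv_nonneg {g : ℝ → ℝ} {g' : ℝ} (hg : HasDerivAt g g' 0) (h0 : g 0 = 0)
    (h : ∀ s, 0 ≤ s → s ≤ 1 → 0 ≤ g s) : 0 ≤ g' := by
  refine ge_of_tendsto hg.tendsto_slope_zero_right ?_
  filter_upwards [Ioo_mem_nhdsGT (show (0 : ℝ) < 1 by norm_num)] with t ht
  rw [zero_add, h0, sub_zero, smul_eq_mul]
  exact mul_nonneg (inv_nonneg.mpr ht.1.le) (h t ht.1.le ht.2.le)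

end ThreeAux

/-- Hadamard three lines for `z ↦ ip ψ (seg ..) ψ`, then compare derivatives at `0` -/
theorem three {n : Type} [Fintype n] [DecidableEq n] (V : ℕ → Matrix n n ℂ)
    (hV : ∀ r, V r * (V r)ᴴ = 1) (c : ℕ → n → ℝ) (k : ℕ) (ψ : n → ℂ) (hψ : nsq ψ = 1) (B : ℝ)
    (hB0 : 0 < B)
    (hB : ∀ t : ℝ, nsq (seg (fun r => fn (V r) fun s =>
      Complex.exp ((1 + t * Complex.I) * c r s)) 0 k *ᵥ ψ) ≤ B) :
    2 * ∑ r ∈ Finset.range k, (ip ψ (fr (V r) (c r)) ψ).re ≤ Real.log B := by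
  set F : ℂ → ℂ := fun z => star ψ ⬝ᵥ thG V c ψ k z with hF
  have hd : Differentiable ℂ F := by
    simp only [hF, dotProduct]
    exact Differentiable.fun_sum fun j _ => (thG_diff V c ψ k j).const_mul _
  have hder : HasDerivAt F (∑ r ∈ Finset.range k, ip ψ (fr (V r) (c r)) ψ) 0 := by
    have h1 : HasDerivAt (fun z => ∑ j, star ψ j * thG V c ψ k z j)
        (∑ j, star ψ j * (∑ r ∈ Finset.range k, fr (V r) (c r) *ᵥ ψ) j) 0 :=
      HasDerivAt.fun_sum fun j _ => (thG_deriv hV c ψ k j).const_mul _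
    have h2 : ∑ r ∈ Finset.range k, ip ψ (fr (V r) (c r)) ψ
        = star ψ ⬝ᵥ (∑ r ∈ Finset.range k, fr (V r) (c r) *ᵥ ψ) := by
      rw [dotProduct_sum]
      rfl
    rw [h2]
    exact h1
  have hF0 : F 0 = 1 := by
    simp only [hF, thG_at0 hV, ← nsq_eq, hψ, Complex.ofReal_one]
  obtain ⟨C, hC, hbd⟩ := thG_bdd V c ψ k
  have hsq : 0 < √B := Real.sqrt_pos.mpr hB0
  have hint : ∀ s : ℝ, 0 ≤ s → s ≤ 1 → ‖F s‖ ≤ √B ^ s := by
    intro s h0 h1
    have := Complex.HadamardThreeLines.norm_le_interp_of_mem_verticalClosedStrip' (f := F)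
      (z := s) (a := 1) (b := √B) (l := 0) (u := 1) one_pos ⟨by simpa using h0, by simpa using h1⟩
      hd.diffContOnCl ?_ ?_ ?_
    · simpa using this
    · refine ⟨∑ j, ‖ψ j‖ * C, ?_⟩
      rintro _ ⟨z, hz, rfl⟩
      refine (norm_sum_le _ _).trans (Finset.sum_le_sum fun j _ => ?_)
      rw [norm_mul, Pi.star_apply, norm_star]
      exact mul_le_mul_of_nonneg_left (hbd z hz.1 hz.2 j) (norm_nonneg _)
    · intro z hz
      have h2 := cs ψ (thG V c ψ k z)
      rw [thG_uni hV c ψ k z hz, hψ, mul_one] at h2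
      exact (pow_le_one_iff_of_nonneg (norm_nonneg _) two_ne_zero).mp h2
    · intro z hz
      have h2 := cs ψ (thG V c ψ k z)
      have hz' : z = 1 + (z.im : ℂ) * Complex.I := by
        have h3 : z.re = 1 := hz
        apply Complex.ext <;> simp [h3]
      have h4 : nsq (thG V c ψ k z) ≤ B := by
        rw [hz']
        exact hB z.im
      rw [hψ, one_mul] at h2
      exact Real.le_sqrt_of_sq_le (h2.trans h4)
  have h5 : HasDerivAt (fun s : ℝ => (F s).re)
      (∑ r ∈ Finset.range k, ip ψ (fr (V r) (c r)) ψ).re 0 := by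
    have h6 : HasDerivAt F (∑ r ∈ Finset.range k, ip ψ (fr (V r) (c r)) ψ) ((0 : ℝ) : ℂ) := by
      simpa using hder
    exact h6.real_of_complex
  have h7 : HasDerivAt (fun s : ℝ => √B ^ s) (Real.log √B) 0 := by
    simpa using (Real.hasStrictDerivAt_const_rpow hsq 0).hasDerivAt
  have h8 := th_deriv_nonneg (h7.sub h5) (by simp [hF0]) fun s h0 h1 => by
    have := (Complex.re_le_norm (F s)).trans (hint s h0 h1)
    simp only [Pi.sub_apply]
    linarith
  rw [Real.log_sqrt hB0.le, Complex.re_sum] at h8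
  linarith

variable {Λ Q : Type} [Fintype Λ] [DecidableEq Λ] [Fintype Q] [DecidableEq Q] [Nonempty Q]

theorem push_aux (A : ℕ → Finset Λ) (hA : Monotone A) (a : ℕ → ℝ)
    (x : ℕ → Matrix (Λ → Q) (Λ → Q) ℂ × ((Λ → Q) → ℝ)) (hx : Dom A x)
    (U : ℕ → Matrix (Λ → Q) (Λ → Q) ℂ) (hU : ∀ r, U r * (U r)ᴴ = 1)
    (hl : ∀ r, Loc (fun z => z ∈ A r) (U r)) (k : ℕ) :
    ∃ y, Dom A y ∧ ∃ W : Matrix (Λ → Q) (Λ → Q) ℂ, W * Wᴴ = 1 ∧ Loc (fun z => z ∈ A k) W ∧
      seg (fun r => U r * PP a x r) 0 k = W * seg (PP a y) 0 k := by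
  induction k with
  | zero => exact ⟨x, hx, 1, by simp, loc_one _, by simp [seg]⟩
  | succ k ih =>
    obtain ⟨y, hy, W, hW, hWl, he⟩ := ih
    have hW' : Wᴴ * Wᴴᴴ = 1 := by rw [conjTranspose_conjTranspose]; exact uni_symm hW
    refine ⟨Function.update y k (Wᴴ * (x k).1, (x k).2), ?_, U k * W, ?_, ?_, ?_⟩
    · intro r
      by_cases hr : r = k
      · subst hr
        rw [Function.update_self]
        exact (hx r).conj hW' hWl.ct
      · rw [Function.update_of_ne hr]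
        exact hy r
    · rw [conjTranspose_mul, Matrix.mul_assoc, ← Matrix.mul_assoc W, hW, Matrix.one_mul, hU]
    · exact ((hl k).mul hWl).mono fun z hz => hA (Nat.le_succ k) hz
    · have h1 : seg (PP a (Function.update y k (Wᴴ * (x k).1, (x k).2))) 0 k = seg (PP a y) 0 k := by
        refine seg_congr _ _ _ _ fun r _ hr => ?_
        have : r ≠ k := by omega
        simp only [PP, Function.update_of_ne this]
      have h2 : PP a (Function.update y k (Wᴴ * (x k).1, (x k).2)) k = Wᴴ * PP a x k * W := by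
        simp only [PP, Function.update_self, pw, fr, fn, conjTranspose_mul,
          conjTranspose_conjTranspose, Matrix.mul_assoc]
      simp only [seg, zero_add]
      rw [h1, h2, he]
      simp only [Matrix.mul_assoc]
      rw [← Matrix.mul_assoc W Wᴴ, hW, Matrix.one_mul]

/-- unitaries on the left of the factors can be pushed out -/
theorem push (A : ℕ → Finset Λ) (hA : Monotone A) (a : ℕ → ℝ)
    (x : ℕ → Matrix (Λ → Q) (Λ → Q) ℂ × ((Λ → Q) → ℝ)) (hx : Dom A x)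
    (U : ℕ → Matrix (Λ → Q) (Λ → Q) ℂ) (hU : ∀ r, U r * (U r)ᴴ = 1)
    (hl : ∀ r, Loc (fun z => z ∈ A r) (U r)) (k : ℕ) :
    ∃ y, Dom A y ∧ ∀ v, nsq (seg (fun r => U r * PP a x r) 0 k *ᵥ v) =
      nsq (seg (PP a y) 0 k *ᵥ v) := by
  obtain ⟨y, hy, W, hW, _, he⟩ := push_aux A hA a x hx U hU hl k
  refine ⟨y, hy, fun v => ?_⟩
  rw [he, ← Matrix.mulVec_mulVec, nsq_uni hW]

theorem low_seg {n : Type} [Fintype n] [DecidableEq n] (T : ℕ → Matrix n n ℂ) (P : Matrix n n ℂ)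
    (hP : P * P = P) (hc : ∀ r, T r * P = P * T r) (k : ℕ) :
    seg (fun r => P * T r) 0 (k + 1) = seg T 0 (k + 1) * P := by
  induction k with
  | zero => simp [seg, hc]
  | succ k ih =>
    rw [seg, ih]
    conv_rhs => rw [seg]
    have h1 := seg_comm T P 0 (k + 1) fun r _ _ => hc r
    rw [← hc, Matrix.mul_assoc, ← Matrix.mul_assoc P, ← h1, Matrix.mul_assoc, hP,
      Matrix.mul_assoc]

theorem low_ip_smul {n : Type} [Fintype n] (M : Matrix n n ℂ) (v : n → ℂ) (t : ℝ) :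
    ip ((t : ℂ) • v) M ((t : ℂ) • v) = ((t ^ 2 : ℝ) : ℂ) * ip v M v := by
  simp only [ip, Matrix.mulVec_smul, star_smul, smul_dotProduct, dotProduct_smul, smul_eq_mul,
    Complex.star_def, Complex.conj_ofReal]
  push_cast
  ring

/-- unnormalised form of `three` -/
theorem three' {n : Type} [Fintype n] [DecidableEq n] (V : ℕ → Matrix n n ℂ)
    (hV : ∀ r, V r * (V r)ᴴ = 1) (c : ℕ → n → ℝ) (k : ℕ) (v : n → ℂ) (β : ℝ)
    (hB : ∀ t : ℝ, nsq (seg (fun r => fn (V r) fun s =>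
      Complex.exp ((1 + t * Complex.I) * c r s)) 0 k *ᵥ v) ≤ Real.exp β) :
    2 * ∑ r ∈ Finset.range k, (ip v (fr (V r) (c r)) v).re
      ≤ nsq v * β + Real.negMulLog (nsq v) := by
  rcases (nsq_nonneg v).eq_or_lt with h0 | h0
  · rw [eq_zero_of_nsq v h0.symm]
    simp [ip, nsq]
  · set l := nsq v with hl
    have ht : (√l)⁻¹ ^ 2 = l⁻¹ := by rw [inv_pow, Real.sq_sqrt h0.le]
    have hn : ∀ w : n → ℂ, nsq ((((√l)⁻¹ : ℝ) : ℂ) • w) = l⁻¹ * nsq w := by
      intro w
      rw [nsq_smul, Complex.norm_real, Real.norm_eq_abs, sq_abs, ht]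
    have h1 := three V hV c k ((((√l)⁻¹ : ℝ) : ℂ) • v) (by rw [hn, inv_mul_cancel₀ h0.ne'])
      (l⁻¹ * Real.exp β) (by positivity) fun t => by
        rw [Matrix.mulVec_smul, hn]
        exact mul_le_mul_of_nonneg_left (hB t) (by positivity)
    simp only [low_ip_smul, ht, Complex.re_ofReal_mul] at h1
    rw [← Finset.mul_sum, Real.log_mul (by positivity) (by positivity), Real.log_inv,
      Real.log_exp] at h1
    have h2 := mul_le_mul_of_nonneg_left h1 h0.le
    have h3 : l * (2 * (l⁻¹ * ∑ r ∈ Finset.range k, (ip v (fr (V r) (c r)) v).re))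
        = 2 * ∑ r ∈ Finset.range k, (ip v (fr (V r) (c r)) v).re := by
      field_simp
    rw [h3] at h2
    rw [Real.negMulLog]
    linarith

theorem lower_aux (A : ℕ → Finset Λ) (hA : Monotone A) (X : Finset Λ) (hX : X ⊆ A 0) (a : ℕ → ℝ)
    (ha : ∀ r, 0 < a r) (k : ℕ) (hk : 0 < k) {Ω : (Λ → Q) → ℂ} (hΩ : nsq Ω = 1) (β : ℝ)
    (hβ : ∀ x, Dom A x → nsq (seg (PP a x) 0 k *ᵥ Ω) ≤ Real.exp β)
    (V : ℕ → Matrix (Λ → Q) (Λ → Q) ℂ) (d : ℕ → (Λ → Q) → ℝ)
    (hS : ∀ r, Spec (A r \ X) (V r) (d r)) (hd : ∀ r s, 0 < d r s) :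
    2 * ∑ r ∈ Finset.range k, (ip Ω (fr (V r) fun s => a r * Real.log (d r s)) Ω).re
      ≤ β + entropy X Ω := by
  obtain ⟨V0, l, hV0, hρ, hl0, hl1, hent⟩ := ent_basis X hΩ
  set c : ℕ → (Λ → Q) → ℝ := fun r s => a r * Real.log (d r s) with hc
  set g : ({x // x ∈ X} → Q) → ({x // x ∈ X} → Q) → ℝ := fun i j => if j = i then 1 else 0 with hg
  have hgS : ∀ i, Spec X (lift X V0) fun s => g i (res X s) := fun i =>
    spec_ofBip X hV0 (g i) (fun j => by simp only [hg]; split_ifs <;> norm_num) (by simp [hg])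
  have hVX : lift X V0 * (lift X V0)ᴴ = 1 := by
    rw [← lift_ct, ← lift_mul, hV0, lift_one]
  set P : ({x // x ∈ X} → Q) → Matrix (Λ → Q) (Λ → Q) ℂ :=
    fun i => fr (lift X V0) fun s => g i (res X s) with hP
  have hgg : ∀ i j, g i j * g i j = g i j := fun i j => by
    simp only [hg]; split_ifs <;> norm_num
  have hPP : ∀ i, P i * P i = P i := fun i => by
    simp only [hP, fr_mul hVX, hgg]
  have hPl : ∀ i, Loc (fun z => z ∈ X) (P i) := fun i => (hgS i).loc_fr id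
  have hdis : ∀ r z, z ∈ X → ¬ z ∈ A r \ X := fun r z hz h => (Finset.mem_sdiff.mp h).2 hz
  have hdepc : ∀ r (φ : ℝ → ℂ), Dep (fun z => z ∈ A r \ X) fun s => φ (d r s) :=
    fun r φ => (hS r).dep.comp φ
  have hcomm : ∀ i r (φ : ℝ → ℂ), fn (V r) (fun s => φ (d r s)) * P i
      = P i * fn (V r) fun s => φ (d r s) := fun i r φ =>
    ((hPl i).comm (loc_fn (hS r).loc (hdepc r φ)) (hdis r)).symm
  have hnorm : ∀ i, nsq (P i *ᵥ Ω) = l i := by
    intro i
    have h1 := nsq_fr hVX (fun s => g i (res X s)) Ω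
    simp only [hgg] at h1
    have h2 : ip Ω (fr (lift X V0) fun s => g i (res X s)) Ω = (l i : ℂ) := by
      rw [fr_lift, ip_lift, ← rho_amp, hρ, fr_mul hV0, fr, trace_fn hV0, ← Complex.ofReal_sum]
      simp [hg]
    rw [h2] at h1
    exact_mod_cast h1
  have hunion : ∀ r, X ∪ (A r \ X) = A r := fun r =>
    Finset.union_sdiff_of_subset (hX.trans (hA (Nat.zero_le r)))
  have hstep : ∀ i, 2 * ∑ r ∈ Finset.range k, (ip (P i *ᵥ Ω) (fr (V r) (c r)) (P i *ᵥ Ω)).re
      ≤ l i * β + Real.negMulLog (l i) := by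
    intro i
    rw [← hnorm i]
    refine three' V (fun r => (hS r).uni) c k _ β fun t => ?_
    set x : ℕ → Matrix (Λ → Q) (Λ → Q) ℂ × ((Λ → Q) → ℝ) :=
      fun r => (lift X V0 * V r, fun s => g i (res X s) * d r s) with hx
    have hxD : Dom A x := fun r => by
      have := (hgS i).prod (hS r) Finset.disjoint_sdiff
      rwa [hunion r] at this
    set U : ℕ → Matrix (Λ → Q) (Λ → Q) ℂ :=
      fun r => fn (lift X V0 * V r) fun s => Complex.exp (t * Complex.I * c r s) with hU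
    have hUu : ∀ r, U r * (U r)ᴴ = 1 := fun r =>
      th_fn_uni (hxD r).uni _ fun s => by
        rw [Complex.norm_exp]
        simp
    have hUl : ∀ r, Loc (fun z => z ∈ A r) (U r) := fun r =>
      loc_fn (hxD r).loc ((hdepc r fun u => Complex.exp (t * Complex.I *
        ((a r * Real.log u : ℝ) : ℂ))).mono fun z hz => (Finset.mem_sdiff.mp hz).1)
    obtain ⟨y, hy, he⟩ := push A hA a x hxD U hUu hUl k
    have hUP : ∀ r, U r * PP a x r = P i * fn (V r) fun s =>
        Complex.exp ((1 + t * Complex.I) * c r s) := by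
      intro r
      have h1 := fn_prod (V := lift X V0) (W := V r) (f := fun s => ((g i (res X s) : ℝ) : ℂ))
        (g := fun s => Complex.exp ((1 + t * Complex.I) * c r s)) (loc_lift X V0) (hS r).loc
        (dep_res X fun j => ((g i j : ℝ) : ℂ))
        (hdepc r fun u => Complex.exp ((1 + t * Complex.I) * ((a r * Real.log u : ℝ) : ℂ)))
        (hdis r)
      have h2 : U r * PP a x r = fn (lift X V0 * V r) fun s =>
          Complex.exp (t * Complex.I * c r s) * (((g i (res X s) * d r s) ^ a r : ℝ) : ℂ) :=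
        fn_mul (hxD r).uni _ _
      rw [h2]
      refine Eq.trans ?_ h1
      congr 1
      funext s
      have h3 : (g i (res X s) * d r s) ^ a r = g i (res X s) * Real.exp (c r s) := by
        simp only [hg, hc]
        split_ifs
        · rw [one_mul, one_mul, Real.rpow_def_of_pos (hd r s), mul_comm]
        · rw [zero_mul, zero_mul, Real.zero_rpow (ha r).ne']
      rw [h3, add_mul, Complex.exp_add, one_mul, Complex.ofReal_mul (g i (res X s)),
        Complex.ofReal_exp]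
      ring
    obtain ⟨k', rfl⟩ : ∃ k', k = k' + 1 := ⟨k - 1, by omega⟩
    have h4 := low_seg (fun r => fn (V r) fun s => Complex.exp ((1 + t * Complex.I) * c r s))
      (P i) (hPP i) (fun r => hcomm i r fun u =>
        Complex.exp ((1 + t * Complex.I) * ((a r * Real.log u : ℝ) : ℂ))) k'
    have h5 := he Ω
    simp only [hUP] at h5
    rw [h4, ← Matrix.mulVec_mulVec] at h5
    rw [h5]
    exact hβ y hy
  have hsumP : ∑ i, P i = 1 := by
    simp only [hP, fr]
    rw [← fn_sum, ← fn_one hVX]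
    congr 1
    funext s
    rw [← Complex.ofReal_sum]
    simp [hg]
  have hip : ∀ r, ∑ i, ip (P i *ᵥ Ω) (fr (V r) (c r)) (P i *ᵥ Ω) = ip Ω (fr (V r) (c r)) Ω := by
    intro r
    have h1 : ∀ i, ip (P i *ᵥ Ω) (fr (V r) (c r)) (P i *ᵥ Ω)
        = star Ω ⬝ᵥ ((fr (V r) (c r) * P i) *ᵥ Ω) := by
      intro i
      have h2 : fr (V r) (c r) * P i = P i * fr (V r) (c r) :=
        hcomm i r fun u => ((a r * Real.log u : ℝ) : ℂ)
      have h3 : (P i)ᴴ = P i := fr_ct _ _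
      have h4 := dot_mulVec (P i) Ω (fr (V r) (c r) *ᵥ (P i *ᵥ Ω))
      rw [h3] at h4
      rw [ip, ← h4, Matrix.mulVec_mulVec, Matrix.mulVec_mulVec, ← h2, Matrix.mul_assoc, hPP]
    simp only [h1]
    rw [← dotProduct_sum, ← Matrix.sum_mulVec, ← Finset.mul_sum, hsumP, Matrix.mul_one, ip]
  have hfin := Finset.sum_le_sum fun i (_ : i ∈ Finset.univ) => hstep i
  rw [← Finset.mul_sum, Finset.sum_comm, Finset.sum_add_distrib, ← Finset.sum_mul, hl1, one_mul,
    ← hent] at hfin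
  simp only [← Complex.re_sum, hip] at hfin
  simpa only [Complex.re_sum] using hfin

/-- the measurement trial -/
theorem lower (A : ℕ → Finset Λ) (hA : Monotone A) (X : Finset Λ) (hX : X ⊆ A 0) (a : ℕ → ℝ)
    (ha : ∀ r, 0 < a r) (k : ℕ) (hk : 0 < k) {Ω : (Λ → Q) → ℂ} (hΩ : nsq Ω = 1) (β : ℝ)
    (hβ : ∀ x, Dom A x → nsq (seg (PP a x) 0 k *ᵥ Ω) ≤ Real.exp β) :
    -(2 * ∑ r ∈ Finset.range k, a r * entropy (A r \ X) Ω) ≤ β + entropy X Ω := by
  have hS0 : 0 < 2 * ∑ r ∈ Finset.range k, a r + 1 := by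
    have : 0 ≤ ∑ r ∈ Finset.range k, a r := Finset.sum_nonneg fun r _ => (ha r).le
    linarith
  refine le_of_forall_pos_le_add fun ε hε => ?_
  set δ := ε / (2 * ∑ r ∈ Finset.range k, a r + 1) with hδ
  have hδ0 : 0 < δ := div_pos hε hS0
  choose V d hS hd hE using fun r => ent_approx (A r \ X) hΩ δ hδ0
  have h1 := lower_aux A hA X hX a ha k hk hΩ β hβ V d hS hd
  have h2 : ∀ r, -(a r * entropy (A r \ X) Ω) - a r * δ
      ≤ (ip Ω (fr (V r) fun s => a r * Real.log (d r s)) Ω).re := by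
    intro r
    have h3 : fr (V r) (fun s => a r * Real.log (d r s))
        = (a r : ℂ) • fr (V r) fun s => Real.log (d r s) := by
      simp only [fr, Complex.ofReal_mul]
      exact fn_smul _ _ _
    rw [h3, ip, Matrix.smul_mulVec, dotProduct_smul, smul_eq_mul, Complex.re_ofReal_mul]
    have h4 := mul_le_mul_of_nonneg_left (hE r) (ha r).le
    rw [ip] at h4
    linarith
  have h5 := Finset.sum_le_sum fun r (_ : r ∈ Finset.range k) => h2 r
  rw [Finset.sum_sub_distrib, Finset.sum_neg_distrib, ← Finset.sum_mul] at h5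
  have h6 : δ * (2 * ∑ r ∈ Finset.range k, a r + 1) = ε := div_mul_cancel₀ _ hS0.ne'
  nlinarith

end Vale.Agent.P356
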