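import Vale.Agent.P356.Fid
import Vale.Agent.P356.Three

namespace Vale.Agent.P356

open Matrix

theorem geo_line (L w : ℕ) (hw : 0 < w) (P : ℕ → ℕ → Prop)
    (hx : ∀ x1 x2 x3, x1 ≤ x2 → x2 ≤ x3 → x3 ≤ L → P x1 x2 → P x2 x3 → P x1 x3)
    (hb : ∀ x1 x2, x1 + w ≤ x2 → x2 ≤ x1 + 2 * w → x2 ≤ L → P x1 x2) :
    ∀ x1 x2, x1 + w ≤ x2 → x2 ≤ L → P x1 x2 := by
  have key : ∀ d x1 x2, x2 - x1 ≤ d → x1 + w ≤ x2 → x2 ≤ L → P x1 x2 := by
    intro d
    induction d with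
    | zero => intro x1 x2 h1 h2 _; omega
    | succ d ih =>
      intro x1 x2 h1 h2 h3
      by_cases h4 : x2 ≤ x1 + 2 * w
      · exact hb x1 x2 h2 h4 h3
      · exact hx x1 (x1 + w) x2 (by omega) h2 h3 (hb _ _ le_rfl (by omega) (by omega))
          (ih _ _ (by omega) (by omega) h3)
  exact fun x1 x2 => key _ x1 x2 le_rfl

/-- tiling principle -/
theorem tiling (L w : ℕ) (hw : 0 < w) (P : ℕ → ℕ → ℕ → ℕ → Prop)
    (hx : ∀ x1 x2 x3 y1 y2, x1 ≤ x2 → x2 ≤ x3 → x3 ≤ L → y1 ≤ y2 → y2 ≤ L →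
      P x1 x2 y1 y2 → P x2 x3 y1 y2 → P x1 x3 y1 y2)
    (hy : ∀ x1 x2 y1 y2 y3, x1 ≤ x2 → x2 ≤ L → y1 ≤ y2 → y2 ≤ y3 → y3 ≤ L →
      P x1 x2 y1 y2 → P x1 x2 y2 y3 → P x1 x2 y1 y3)
    (hb : ∀ x1 x2 y1 y2, x1 + w ≤ x2 → x2 ≤ x1 + 2 * w → x2 ≤ L → y1 + w ≤ y2 →
      y2 ≤ y1 + 2 * w → y2 ≤ L → P x1 x2 y1 y2) :
    ∀ x1 x2 y1 y2, x1 + w ≤ x2 → x2 ≤ L → y1 + w ≤ y2 → y2 ≤ L → P x1 x2 y1 y2 := by
  intro x1 x2 y1 y2 h1 h2 h3 h4
  refine geo_line L w hw (fun a c => P x1 x2 a c)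
    (fun a c e k1 k2 k3 => hy x1 x2 a c e (by omega) h2 k1 k2 k3) ?_ y1 y2 h3 h4
  intro a c k1 k2 k3
  exact geo_line L w hw (fun u v => P u v a c)
    (fun u v t j1 j2 j3 => hx u v t a c j1 j2 j3 (by omega) k3)
    (fun u v j1 j2 j3 => hb u v a c j1 j2 j3 k1 k2 k3) x1 x2 h1 h2

theorem geo_mem {L x1 x2 y1 y2 : ℕ} {z : Fin L × Fin L} : z ∈ box L x1 x2 y1 y2 ↔
    x1 ≤ z.1.val ∧ z.1.val < x2 ∧ y1 ≤ z.2.val ∧ z.2.val < y2 := by
  simp only [box, Finset.mem_filter, Finset.mem_univ, true_and]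

theorem box_split_x (L x1 x2 x3 y1 y2 : ℕ) (h1 : x1 ≤ x2) (h2 : x2 ≤ x3) :
    box L x1 x3 y1 y2 = box L x1 x2 y1 y2 ∪ box L x2 x3 y1 y2 ∧
      Disjoint (box L x1 x2 y1 y2) (box L x2 x3 y1 y2) := by
  constructor
  · ext z
    simp only [Finset.mem_union, geo_mem]
    omega
  · rw [Finset.disjoint_left]
    intro z
    simp only [geo_mem]
    omega

theorem box_split_y (L x1 x2 y1 y2 y3 : ℕ) (h1 : y1 ≤ y2) (h2 : y2 ≤ y3) :
    box L x1 x2 y1 y3 = box L x1 x2 y1 y2 ∪ box L x1 x2 y2 y3 ∧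
      Disjoint (box L x1 x2 y1 y2) (box L x1 x2 y2 y3) := by
  constructor
  · ext z
    simp only [Finset.mem_union, geo_mem]
    omega
  · rw [Finset.disjoint_left]
    intro z
    simp only [geo_mem]
    omega

theorem geo_inj (L : ℕ) :
    Function.Injective fun z : Fin L × Fin L => (z.1.val, z.2.val) := fun _ _ h =>
  Prod.ext (Fin.ext (congrArg Prod.fst h)) (Fin.ext (congrArg Prod.snd h))

theorem box_card_le (L x1 x2 y1 y2 : ℕ) : (box L x1 x2 y1 y2).card ≤ (x2 - x1) * (y2 - y1) := by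
  rw [← Nat.card_Ico, ← Nat.card_Ico, ← Finset.card_product]
  refine Finset.card_le_card_of_injOn (fun z => (z.1.val, z.2.val)) ?_ (geo_inj L).injOn
  intro z hz
  have := geo_mem.1 (Finset.mem_coe.1 hz)
  simp only [Finset.coe_product, Finset.coe_Ico, Set.mem_prod, Set.mem_Ico]
  omega

theorem box_card (L x1 x2 y1 y2 : ℕ) (hx : x2 ≤ L) (hy : y2 ≤ L) :
    (box L x1 x2 y1 y2).card = (x2 - x1) * (y2 - y1) := by
  rw [← Nat.card_Ico, ← Nat.card_Ico, ← Finset.card_product]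
  refine Finset.card_nbij (fun z => (z.1.val, z.2.val)) ?_ (geo_inj L).injOn ?_
  · intro z hz
    have := geo_mem.1 (Finset.mem_coe.1 hz)
    simp only [Finset.coe_product, Finset.coe_Ico, Set.mem_prod, Set.mem_Ico]
    omega
  · intro p hp
    simp only [Finset.coe_product, Finset.coe_Ico, Set.mem_prod, Set.mem_Ico] at hp
    refine ⟨(⟨p.1, by omega⟩, ⟨p.2, by omega⟩), Finset.mem_coe.2 (geo_mem.2 ?_), rfl⟩
    exact ⟨hp.1.1, hp.1.2, hp.2.1, hp.2.2⟩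

theorem geo_near {L R : ℕ} {X : Finset (Fin L × Fin L)} (hX : X ∈ supports L R)
    {u v : Fin L × Fin L} (hu : u ∈ X) (hv : v ∈ X) :
    u.1.val ≤ v.1.val + R ∧ v.1.val ≤ u.1.val + R ∧ u.2.val ≤ v.2.val + R ∧
      v.2.val ≤ u.2.val + R := by
  have h := (Finset.mem_filter.1 hX).2.2 u hu v hv
  unfold dist1 at h
  omega

/-- The square of radius `R` about `u`. -/
def geoSq (L R : ℕ) (u : Fin L × Fin L) : Finset (Fin L × Fin L) :=
  box L (u.1.val - R) (u.1.val + R + 1) (u.2.val - R) (u.2.val + R + 1)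

theorem geoSq_card (L R : ℕ) (u : Fin L × Fin L) : (geoSq L R u).card ≤ (2 * R + 1) ^ 2 := by
  refine (box_card_le _ _ _ _ _).trans ?_
  rw [sq]
  exact Nat.mul_le_mul (by omega) (by omega)

theorem geoSq_sub {L R : ℕ} {X : Finset (Fin L × Fin L)} (hX : X ∈ supports L R)
    {u : Fin L × Fin L} (hu : u ∈ X) : X ⊆ geoSq L R u := fun v hv => by
  have := geo_near hX hu hv
  exact geo_mem.2 (by omega)

theorem supports_card (L R : ℕ) (X : Finset (Fin L × Fin L)) (hX : X ∈ supports L R) :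
    X.card ≤ (2 * R + 1) ^ 2 := by
  obtain ⟨u, hu⟩ := (Finset.mem_filter.1 hX).2.1
  exact (Finset.card_le_card (geoSq_sub hX hu)).trans (geoSq_card L R u)

/-- a cut support has a point of the box within `R` of its edge -/
theorem ncross_box (L R x1 x2 y1 y2 : ℕ) :
    ncross (supports L R) (box L x1 x2 y1 y2) ≤
      2 * R * ((x2 - x1) + (y2 - y1)) * 2 ^ ((2 * R + 1) ^ 2) := by
  set B := (box L x1 (x1 + R) y1 y2 ∪ box L (x2 - R) x2 y1 y2) ∪
    (box L x1 x2 y1 (y1 + R) ∪ box L x1 x2 (y2 - R) y2) with hB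
  have h1 : B.card ≤ 2 * R * ((x2 - x1) + (y2 - y1)) := by
    have a1 := (box_card_le L x1 (x1 + R) y1 y2).trans
      (Nat.mul_le_mul_right _ (show x1 + R - x1 ≤ R by omega))
    have a2 := (box_card_le L (x2 - R) x2 y1 y2).trans
      (Nat.mul_le_mul_right _ (show x2 - (x2 - R) ≤ R by omega))
    have a3 := (box_card_le L x1 x2 y1 (y1 + R)).trans
      (Nat.mul_le_mul_left _ (show y1 + R - y1 ≤ R by omega))
    have a4 := (box_card_le L x1 x2 (y2 - R) y2).trans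
      (Nat.mul_le_mul_left _ (show y2 - (y2 - R) ≤ R by omega))
    refine (Finset.card_union_le _ _).trans ?_
    refine (add_le_add (Finset.card_union_le _ _) (Finset.card_union_le _ _)).trans ?_
    refine (add_le_add (add_le_add a1 a2) (add_le_add a3 a4)).trans (le_of_eq ?_)
    ring
  have h2 : ((supports L R).filter fun X => ¬ X ⊆ box L x1 x2 y1 y2 ∧
      ¬ Disjoint X (box L x1 x2 y1 y2)) ⊆ B.biUnion fun u => (geoSq L R u).powerset := by
    intro X hX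
    obtain ⟨hX, h3, h4⟩ := Finset.mem_filter.1 hX
    obtain ⟨v, hv, hv'⟩ := Finset.not_subset.1 h3
    obtain ⟨u, hu, hu'⟩ := Finset.not_disjoint_iff.1 h4
    refine Finset.mem_biUnion.2 ⟨u, ?_, Finset.mem_powerset.2 (geoSq_sub hX hu)⟩
    have h5 := geo_near hX hu hv
    simp only [hB, Finset.mem_union, geo_mem] at hv' hu' ⊢
    omega
  refine (Finset.card_le_card h2).trans ?_
  refine (Finset.card_biUnion_le_card_mul _ _ (2 ^ ((2 * R + 1) ^ 2)) fun u _ => ?_).trans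
    (Nat.mul_le_mul_right _ h1)
  rw [Finset.card_powerset]
  exact Nat.pow_le_pow_right (by norm_num) (geoSq_card L R u)

/-- entropy density bound `s` for all boxes with both sides at least `l` -/
def Good {L q : ℕ} (Ω : (Fin L × Fin L → Fin q) → ℂ) (s : ℝ) (l : ℕ) : Prop :=
  ∀ x1 x2 y1 y2 : ℕ, x1 + l ≤ x2 → x2 ≤ L → y1 + l ≤ y2 → y2 ≤ L →
    entropy (box L x1 x2 y1 y2) Ω ≤ s * (((x2 : ℝ) - x1) * ((y2 : ℝ) - y1))

/-- a frame is four boxes -/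
theorem frame {L q : ℕ} [NeZero q] {Ω : (Fin L × Fin L → Fin q) → ℂ} (hΩ : nsq Ω = 1) {s : ℝ}
    {l : ℕ} (hG : Good Ω s l) (x1 x2 x3 x4 y1 y2 y3 y4 : ℕ) (h1 : x1 + l ≤ x2)
    (h2 : x2 + l ≤ x3) (h3 : x3 + l ≤ x4) (h4 : x4 ≤ L) (k1 : y1 + l ≤ y2) (k2 : y2 + l ≤ y3)
    (k3 : y3 + l ≤ y4) (k4 : y4 ≤ L) :
    entropy (box L x1 x4 y1 y4 \ box L x2 x3 y2 y3) Ω ≤
      s * (((x4 : ℝ) - x1) * ((y4 : ℝ) - y1) - ((x3 : ℝ) - x2) * ((y3 : ℝ) - y2)) := by
  have e : box L x1 x4 y1 y4 \ box L x2 x3 y2 y3 =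
      (box L x1 x2 y1 y4 ∪ box L x3 x4 y1 y4) ∪ (box L x2 x3 y1 y2 ∪ box L x2 x3 y3 y4) := by
    ext z
    simp only [Finset.mem_sdiff, Finset.mem_union, geo_mem]
    omega
  have d1 : Disjoint (box L x1 x2 y1 y4 ∪ box L x3 x4 y1 y4)
      (box L x2 x3 y1 y2 ∪ box L x2 x3 y3 y4) := by
    rw [Finset.disjoint_left]
    intro z
    simp only [Finset.mem_union, geo_mem]
    omega
  have d2 : Disjoint (box L x1 x2 y1 y4) (box L x3 x4 y1 y4) := by
    rw [Finset.disjoint_left]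
    intro z
    simp only [geo_mem]
    omega
  have d3 : Disjoint (box L x2 x3 y1 y2) (box L x2 x3 y3 y4) := by
    rw [Finset.disjoint_left]
    intro z
    simp only [geo_mem]
    omega
  have a1 := hG x1 x2 y1 y4 h1 (by omega) (by omega) k4
  have a2 := hG x3 x4 y1 y4 h3 h4 (by omega) k4
  have a3 := hG x2 x3 y1 y2 h2 (by omega) k1 (by omega)
  have a4 := hG x2 x3 y3 y4 h2 (by omega) k3 k4
  have b1 := ent_union d1 hΩ
  have b2 := ent_union d2 hΩ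
  have b3 := ent_union d3 hΩ
  rw [e]
  refine (b1.trans (add_le_add (b2.trans (add_le_add a1 a2)) (b3.trans (add_le_add a3 a4)))).trans
    (le_of_eq ?_)
  ring

theorem geo_harm (l : ℕ) (hl : 0 < l) (k : ℕ) :
    Real.log ((l : ℝ) + k) - Real.log l ≤ ∑ r ∈ Finset.range k, 1 / ((l : ℝ) + r) := by
  have hl' : (0 : ℝ) < l := Nat.cast_pos.2 hl
  induction k with
  | zero => simp
  | succ k ih =>
    have h0 : (0 : ℝ) < l + k := by positivity
    have h1 : Real.log (((l : ℝ) + (k + 1)) / (l + k)) ≤ ((l : ℝ) + (k + 1)) / (l + k) - 1 :=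
      Real.log_le_sub_one_of_pos (by positivity)
    rw [Real.log_div (by positivity) h0.ne'] at h1
    have h2 : ((l : ℝ) + (k + 1)) / (l + k) - 1 = 1 / ((l : ℝ) + k) := by
      field_simp
      ring
    rw [Finset.sum_range_succ, Nat.cast_succ]
    linarith

/-- The nested boxes. -/
def geoA (L D l cx cy r : ℕ) : Finset (Fin L × Fin L) :=
  box L (cx - D * (l + r)) (cx + l + D * (l + r)) (cy - D * (l + r)) (cy + l + D * (l + r))

theorem geoA_mono (L D l cx cy : ℕ) : Monotone (geoA L D l cx cy) := by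
  intro r r' hr z hz
  have h : D * (l + r) ≤ D * (l + r') := Nat.mul_le_mul_left _ (by omega)
  have := geo_mem.1 hz
  exact geo_mem.2 (by omega)

theorem geoA_sep (L R l cx cy : ℕ) {Y : Finset (Fin L × Fin L)} (hY : Y ∈ supports L R) (r : ℕ)
    (h : ¬ Disjoint Y (geoA L (R + 1) l cx cy r)) : Y ⊆ geoA L (R + 1) l cx cy (r + 1) := by
  obtain ⟨u, hu, hu'⟩ := Finset.not_disjoint_iff.1 h
  intro v hv
  have h1 := geo_near hY hu hv
  have h2 := geo_mem.1 hu'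
  have h3 : (R + 1) * (l + (r + 1)) = (R + 1) * (l + r) + (R + 1) := by ring
  exact geo_mem.2 (by omega)

theorem geoA_cross (L R l cx cy r : ℕ) :
    (ncross (supports L R) (geoA L (R + 1) l cx cy r) : ℝ) ≤
      12 * R * (R + 1) * 2 ^ ((2 * R + 1) ^ 2) * ((l : ℝ) + r) := by
  have h1 : l ≤ (R + 1) * (l + r) := by nlinarith [Nat.zero_le (R * (l + r)), Nat.zero_le r]
  have h2 : ncross (supports L R) (geoA L (R + 1) l cx cy r) ≤
      2 * R * (6 * ((R + 1) * (l + r))) * 2 ^ ((2 * R + 1) ^ 2) :=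
    (ncross_box _ _ _ _ _ _).trans
      (Nat.mul_le_mul_right _ (Nat.mul_le_mul_left _ (by omega)))
  refine (Nat.cast_le.2 h2).trans (le_of_eq ?_)
  push_cast
  ring

/-- the weighted inequality between the nested boxes and their frames -/
theorem geo_key {L q R : ℕ} [NeZero q] {J Δ E0 : ℝ} (hJ : 0 ≤ J) (hΔ : 0 < Δ)
    {h : Finset (Fin L × Fin L) → Matrix (Fin L × Fin L → Fin q) (Fin L × Fin L → Fin q) ℂ}
    {Ω : (Fin L × Fin L → Fin q) → ℂ} (G : Gapped (supports L R) h Ω E0 Δ J ((2 * R + 1) ^ 2))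
    {l k : ℕ} (hl : 0 < l) (hk : 0 < k) (h4 : 4 ≤ ∑ r ∈ Finset.range k, 1 / ((l : ℝ) + r))
    (hH : 2 * (KK (Fin q) J ((2 * R + 1) ^ 2) * (12 * R * (R + 1) * 2 ^ ((2 * R + 1) ^ 2))) / Δ ≤
      ∑ r ∈ Finset.range k, 1 / ((l : ℝ) + r)) (cx cy : ℕ) :
    ∃ a : ℕ → ℝ, (∀ r, 0 < a r) ∧ ∑ r ∈ Finset.range k, a r = 1 ∧
      2 * ∑ r ∈ Finset.range k, a r * entropy (geoA L (R + 1) l cx cy r) Ω ≤
        2 * ∑ r ∈ Finset.range k,
          a r * entropy (geoA L (R + 1) l cx cy r \ box L cx (cx + l) cy (cy + l)) Ω +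
        entropy (box L cx (cx + l) cy (cy + l)) Ω + 3 * k := by
  set H := ∑ r ∈ Finset.range k, 1 / ((l : ℝ) + r) with hHd
  set N : ℝ := 12 * R * (R + 1) * 2 ^ ((2 * R + 1) ^ 2) with hN
  have hH0 : 0 < H := by linarith
  have hl1 : (1 : ℝ) ≤ l := Nat.one_le_cast.2 hl
  have hr : ∀ r : ℕ, (1 : ℝ) ≤ l + r := fun r => hl1.trans (le_add_of_nonneg_right r.cast_nonneg)
  have hr0 : ∀ r : ℕ, (0 : ℝ) < l + r := fun r => one_pos.trans_le (hr r)
  have hK : 0 ≤ KK (Fin q) J ((2 * R + 1) ^ 2) := by unfold KK; positivity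
  set a : ℕ → ℝ := fun r => H⁻¹ * (1 / ((l : ℝ) + r)) with ha
  have a0 : ∀ r, 0 < a r := fun r => mul_pos (inv_pos.2 hH0) (one_div_pos.2 (hr0 r))
  have a4 : ∀ r, a r ≤ 1 / 4 := fun r => by
    have b1 : H⁻¹ ≤ 1 / 4 := by rw [one_div]; exact inv_anti₀ (by norm_num) h4
    have b2 : 1 / ((l : ℝ) + r) ≤ 1 := (div_le_one (hr0 r)).2 (hr r)
    calc a r ≤ 1 / 4 * 1 := mul_le_mul b1 b2 (one_div_pos.2 (hr0 r)).le (by norm_num)
      _ = 1 / 4 := mul_one _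
  have a1 : ∑ r ∈ Finset.range k, a r = 1 := by
    rw [ha, ← Finset.mul_sum, ← hHd, inv_mul_cancel₀ hH0.ne']
  have hE : KK (Fin q) J ((2 * R + 1) ^ 2) * ∑ r ∈ Finset.range k,
      a r ^ 2 * ncross (supports L R) (geoA L (R + 1) l cx cy r) ≤ 1 / 2 * Δ := by
    have b1 : ∑ r ∈ Finset.range k, a r ^ 2 * ncross (supports L R) (geoA L (R + 1) l cx cy r) ≤
        ∑ r ∈ Finset.range k, N * H⁻¹ * a r := by
      refine Finset.sum_le_sum fun r _ => ?_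
      refine (mul_le_mul_of_nonneg_left (geoA_cross L R l cx cy r) (sq_nonneg _)).trans
        (le_of_eq ?_)
      have := (hr0 r).ne'
      simp only [ha, ← hN]
      field_simp
    rw [← Finset.mul_sum, a1, mul_one] at b1
    refine (mul_le_mul_of_nonneg_left b1 hK).trans ?_
    rw [div_le_iff₀ hΔ] at hH
    rw [← mul_assoc, ← div_eq_mul_inv, div_le_iff₀ hH0]
    linarith
  have hX : box L cx (cx + l) cy (cy + l) ⊆ geoA L (R + 1) l cx cy 0 := fun z hz => by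
    have := geo_mem.1 hz
    exact geo_mem.2 (by omega)
  have h5 := lower _ (geoA_mono L (R + 1) l cx cy) _ hX a a0 k hk G.norm1 _
    (upper G hJ hΔ _ (geoA_mono L (R + 1) l cx cy) k
      (fun Y hY r _ hd => geoA_sep L R l cx cy hY r hd) a a0 a4 hE)
  exact ⟨a, a0, a1, by linarith⟩

/-- the gain in one big box -/
theorem geo_gain {L q R : ℕ} [NeZero q] {J Δ E0 : ℝ} (hJ : 0 ≤ J) (hΔ : 0 < Δ)
    {h : Finset (Fin L × Fin L) → Matrix (Fin L × Fin L → Fin q) (Fin L × Fin L → Fin q) ℂ}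
    {Ω : (Fin L × Fin L → Fin q) → ℂ} (G : Gapped (supports L R) h Ω E0 Δ J ((2 * R + 1) ^ 2))
    {l k : ℕ} (hl : 0 < l) (hk : 0 < k) (h4 : 4 ≤ ∑ r ∈ Finset.range k, 1 / ((l : ℝ) + r))
    (hH : 2 * (KK (Fin q) J ((2 * R + 1) ^ 2) * (12 * R * (R + 1) * 2 ^ ((2 * R + 1) ^ 2))) / Δ ≤
      ∑ r ∈ Finset.range k, 1 / ((l : ℝ) + r)) {s : ℝ} (hG : Good Ω s l) {x1 x2 y1 y2 : ℕ}
    (h1 : x1 + (2 * ((R + 1) * (l + k)) + 3 * l) ≤ x2) (h2 : x2 ≤ L)
    (k1 : y1 + (2 * ((R + 1) * (l + k)) + 3 * l) ≤ y2) (k2 : y2 ≤ L) :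
    entropy (box L x1 x2 y1 y2) Ω ≤
      s * (((x2 : ℝ) - x1) * ((y2 : ℝ) - y1)) - s * (l : ℝ) ^ 2 / 2 + 3 * k / 2 := by
  set cx := x1 + ((R + 1) * (l + k) + l) with hcx
  set cy := y1 + ((R + 1) * (l + k) + l) with hcy
  obtain ⟨a, a0, a1, h3⟩ := geo_key hJ hΔ G hl hk h4 hH cx cy
  have hX : entropy (box L cx (cx + l) cy (cy + l)) Ω ≤ s * (l : ℝ) ^ 2 := by
    refine (hG cx (cx + l) cy (cy + l) le_rfl (by omega) le_rfl (by omega)).trans (le_of_eq ?_)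
    push_cast
    ring
  have h5 : ∀ r ∈ Finset.range k, a r * entropy (box L x1 x2 y1 y2) Ω +
      a r * entropy (geoA L (R + 1) l cx cy r \ box L cx (cx + l) cy (cy + l)) Ω ≤
      a r * entropy (geoA L (R + 1) l cx cy r) Ω +
        a r * (s * (((x2 : ℝ) - x1) * ((y2 : ℝ) - y1)) - s * (l : ℝ) ^ 2) := by
    intro r hr
    have b1 : (R + 1) * (l + r) ≤ (R + 1) * (l + k) :=
      Nat.mul_le_mul_left _ (by have := Finset.mem_range.1 hr; omega)
    have b2 : l ≤ (R + 1) * (l + r) := by nlinarith [Nat.zero_le (R * (l + r)), Nat.zero_le r]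
    have b3 := frame G.norm1 hG (cx - (R + 1) * (l + r)) cx (cx + l) (cx + l + (R + 1) * (l + r))
      (cy - (R + 1) * (l + r)) cy (cy + l) (cy + l + (R + 1) * (l + r)) (by omega) le_rfl
      (by omega) (by omega) (by omega) le_rfl (by omega) (by omega)
    have b4 := frame G.norm1 hG x1 (cx - (R + 1) * (l + r)) (cx + l + (R + 1) * (l + r)) x2
      y1 (cy - (R + 1) * (l + r)) (cy + l + (R + 1) * (l + r)) y2 (by omega) (by omega)
      (by omega) h2 (by omega) (by omega) (by omega) k2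
    have b5 : geoA L (R + 1) l cx cy r ⊆ box L x1 x2 y1 y2 := fun z hz => by
      have := geo_mem.1 hz
      exact geo_mem.2 (by omega)
    have b6 := ent_union (Finset.disjoint_sdiff (s := geoA L (R + 1) l cx cy r)
      (t := box L x1 x2 y1 y2)) G.norm1
    rw [Finset.union_sdiff_of_subset b5] at b6
    have b7 : (((cx + l : ℕ) : ℝ) - cx) * (((cy + l : ℕ) : ℝ) - cy) = (l : ℝ) ^ 2 := by
      push_cast
      ring
    rw [b7] at b3
    rw [← mul_add, ← mul_add]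
    refine mul_le_mul_of_nonneg_left ?_ (a0 r).le
    unfold geoA at b6 ⊢
    linarith
  have h6 := Finset.sum_le_sum h5
  rw [Finset.sum_add_distrib, Finset.sum_add_distrib, ← Finset.sum_mul, ← Finset.sum_mul, a1] at h6
  linarith

/-- one renormalisation step -/
theorem step (q R : ℕ) [NeZero q] (J Δ : ℝ) (hJ : 0 ≤ J) (hΔ : 0 < Δ) :
    ∃ M : ℕ, 3 ≤ M ∧ ∀ (L : ℕ)
      (h : Finset (Fin L × Fin L) → Matrix (Fin L × Fin L → Fin q) (Fin L × Fin L → Fin q) ℂ)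
      (Ω : (Fin L × Fin L → Fin q) → ℂ) (E0 : ℝ),
      Gapped (supports L R) h Ω E0 Δ J ((2 * R + 1) ^ 2) → ∀ (s : ℝ) (l : ℕ), 0 ≤ s → 0 < l →
      Good Ω s l → Good Ω ((1 - 1 / (8 * (M : ℝ) ^ 2)) * s + 1 / l) (M * l) := by
  set c : ℝ := max 4 (2 * (KK (Fin q) J ((2 * R + 1) ^ 2) *
    (12 * R * (R + 1) * 2 ^ ((2 * R + 1) ^ 2))) / Δ) with hc
  obtain ⟨M0, hM0⟩ := exists_nat_gt (Real.exp c)
  have hM1 : 0 < M0 := Nat.cast_pos.1 ((Real.exp_pos c).trans hM0)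
  set M := 2 * ((R + 1) * (1 + M0)) + 3 with hM
  refine ⟨M, by omega, fun L h Ω E0 G s l hs hl hG => ?_⟩
  have hl' : (0 : ℝ) < l := Nat.cast_pos.2 hl
  have hH : c ≤ ∑ r ∈ Finset.range (M0 * l), 1 / ((l : ℝ) + r) := by
    refine le_trans ?_ (geo_harm l hl _)
    have e : (l : ℝ) + (M0 * l : ℕ) = (1 + M0) * l := by push_cast; ring
    rw [e, Real.log_mul (by positivity) hl'.ne', add_sub_cancel_right,
      Real.le_log_iff_exp_le (by positivity)]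
    linarith
  have hMl : M * l = 2 * ((R + 1) * (l + M0 * l)) + 3 * l := by rw [hM]; ring
  have hMM : 2 * M0 + 1 ≤ M := by
    rw [hM]; nlinarith [Nat.zero_le (R * (1 + M0))]
  have hMM' : 2 * (M0 : ℝ) + 1 ≤ M := by exact_mod_cast hMM
  have hM0' : (0 : ℝ) ≤ M0 := Nat.cast_nonneg _
  have hMp : (0 : ℝ) < M := by linarith
  refine tiling L (M * l) (Nat.mul_pos (by omega) hl) _ ?_ ?_ ?_
  · intro x1 x2 x3 y1 y2 h1 h2 _ _ _ p1 p2
    obtain ⟨e, d⟩ := box_split_x L x1 x2 x3 y1 y2 h1 h2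
    rw [e]
    refine ((ent_union d G.norm1).trans (add_le_add p1 p2)).trans (le_of_eq ?_)
    ring
  · intro x1 x2 y1 y2 y3 _ _ h1 h2 _ p1 p2
    obtain ⟨e, d⟩ := box_split_y L x1 x2 y1 y2 y3 h1 h2
    rw [e]
    refine ((ent_union d G.norm1).trans (add_le_add p1 p2)).trans (le_of_eq ?_)
    ring
  · intro x1 x2 y1 y2 h1 h2 h3 k1 k2 k3
    have b := geo_gain hJ hΔ G hl (Nat.mul_pos hM1 hl) ((le_max_left _ _).trans hH)
      ((le_max_right _ _).trans hH) hG (hMl ▸ h1) h3 (hMl ▸ k1) k3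
    have c1 : (M : ℝ) * l ≤ (x2 : ℝ) - x1 := by
      have : ((x1 + M * l : ℕ) : ℝ) ≤ x2 := Nat.cast_le.2 h1
      push_cast at this
      linarith
    have c2 : (x2 : ℝ) - x1 ≤ 2 * (M * l) := by
      have : (x2 : ℝ) ≤ ((x1 + 2 * (M * l) : ℕ) : ℝ) := Nat.cast_le.2 h2
      push_cast at this
      linarith
    have c3 : (M : ℝ) * l ≤ (y2 : ℝ) - y1 := by
      have : ((y1 + M * l : ℕ) : ℝ) ≤ y2 := Nat.cast_le.2 k1
      push_cast at this
      linarith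
    have c4 : (y2 : ℝ) - y1 ≤ 2 * (M * l) := by
      have : (y2 : ℝ) ≤ ((y1 + 2 * (M * l) : ℕ) : ℝ) := Nat.cast_le.2 k2
      push_cast at this
      linarith
    have hml : (0 : ℝ) < M * l := mul_pos hMp hl'
    have c5 : (M : ℝ) * l * (M * l) ≤ ((x2 : ℝ) - x1) * ((y2 : ℝ) - y1) :=
      mul_le_mul c1 c3 hml.le (hml.le.trans c1)
    have c6 : ((x2 : ℝ) - x1) * ((y2 : ℝ) - y1) ≤ 2 * (M * l) * (2 * (M * l)) :=
      mul_le_mul c2 c4 (hml.le.trans c3) (by positivity)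
    generalize ((x2 : ℝ) - x1) * ((y2 : ℝ) - y1) = V at b c5 c6 ⊢
    have c7 : 1 / (8 * (M : ℝ) ^ 2) * s * V ≤ s * (l : ℝ) ^ 2 / 2 := by
      refine (mul_le_mul_of_nonneg_left c6 (by positivity)).trans (le_of_eq ?_)
      field_simp
      ring
    have c8 : 3 * ((M0 * l : ℕ) : ℝ) / 2 ≤ 1 / l * V := by
      refine le_trans ?_ (mul_le_mul_of_nonneg_left c5 (by positivity))
      have e : 1 / (l : ℝ) * (M * l * (M * l)) = M * M * l := by field_simp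
      rw [e]
      push_cast
      have : 3 * (M0 : ℝ) / 2 ≤ M * M := by nlinarith
      nlinarith
    linarith

end Vale.Agent.P356
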