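import Vale.Agent.P356.Api

namespace Vale.Agent.P356

open Matrix

variable {n m : Type} [Fintype n] [DecidableEq n] [Fintype m] [DecidableEq m]

omit [DecidableEq n] in
theorem nsq_nonneg (v : n → ℂ) : 0 ≤ nsq v := 
  Finset.sum_nonneg fun _ _ => sq_nonneg _

omit [DecidableEq n] in
theorem nsq_eq (v : n → ℂ) : (nsq v : ℂ) = star v ⬝ᵥ v := by
  simp only [nsq, dotProduct, Complex.ofReal_sum, Pi.star_apply]
  refine Finset.sum_congr rfl fun s _ => ?_
  rw [Complex.star_def, Complex.conj_mul']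
  push_cast
  rfl

omit [DecidableEq n] in
theorem nsq_smul (c : ℂ) (v : n → ℂ) : nsq (c • v) = ‖c‖ ^ 2 * nsq v := by
  simp only [nsq, Pi.smul_apply, smul_eq_mul, norm_mul, mul_pow, Finset.mul_sum]

omit [DecidableEq n] in
theorem eq_zero_of_nsq (v : n → ℂ) (h : nsq v = 0) : v = 0 := by
  funext s
  have := (Finset.sum_eq_zero_iff_of_nonneg fun _ _ => sq_nonneg _).1 h s (Finset.mem_univ s)
  simpa using this

omit [DecidableEq n] in
/-- Cauchy-Schwarz -/
theorem cs (u v : n → ℂ) : ‖star u ⬝ᵥ v‖ ^ 2 ≤ nsq u * nsq v := by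
  have h1 : ‖star u ⬝ᵥ v‖ ≤ ∑ s, ‖u s‖ * ‖v s‖ := by
    refine (norm_sum_le _ _).trans (le_of_eq ?_)
    refine Finset.sum_congr rfl fun s _ => ?_
    rw [norm_mul, Pi.star_apply, norm_star]
  exact (pow_le_pow_left₀ (norm_nonneg _) h1 2).trans (Finset.sum_mul_sq_le_sq_mul_sq _ _ _)

omit [DecidableEq n] in
/-- equality case: expand `nsq (v - c • u)` -/
theorem cs_eq (u v : n → ℂ) (c : ℝ) (hu : nsq u = 1) (hv : nsq v ≤ c ^ 2) (hc : 0 ≤ c)
    (h : c ≤ (star u ⬝ᵥ v).re) : v = (c : ℂ) • u := by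
  have e : nsq (v - (c : ℂ) • u) = nsq v - 2 * c * (star u ⬝ᵥ v).re + c ^ 2 * nsq u := by
    simp only [nsq, dotProduct, Complex.re_sum, Finset.mul_sum, ← Finset.sum_sub_distrib,
      ← Finset.sum_add_distrib]
    refine Finset.sum_congr rfl fun s _ => ?_
    simp only [Complex.sq_norm, Complex.normSq_apply, Pi.sub_apply, Pi.smul_apply, smul_eq_mul,
      Pi.star_apply, Complex.star_def, Complex.sub_re, Complex.sub_im, Complex.mul_re,
      Complex.mul_im, Complex.ofReal_re, Complex.ofReal_im, Complex.conj_re, Complex.conj_im]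
    ring
  refine sub_eq_zero.1 (eq_zero_of_nsq _ (le_antisymm ?_ (nsq_nonneg _)))
  rw [e, hu]
  nlinarith

omit [DecidableEq n] [DecidableEq m] in
theorem dot_mulVec (M : Matrix m n ℂ) (u : m → ℂ) (v : n → ℂ) :
    star u ⬝ᵥ (M *ᵥ v) = star (Mᴴ *ᵥ u) ⬝ᵥ v := by
  rw [dotProduct_mulVec, star_mulVec, conjTranspose_conjTranspose]

theorem uni_symm {U : Matrix n n ℂ} (hU : U * Uᴴ = 1) : Uᴴ * U = 1 := 
  mul_eq_one_comm.1 hU

theorem nsq_uni {U : Matrix n n ℂ} (hU : U * Uᴴ = 1) (v : n → ℂ) : nsq (U *ᵥ v) = nsq v := by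
  apply Complex.ofReal_injective
  rw [nsq_eq, nsq_eq, dot_mulVec, mulVec_mulVec, uni_symm hU, one_mulVec]

theorem fn_mul {V : Matrix n n ℂ} (hV : V * Vᴴ = 1) (f g : n → ℂ) :
    fn V f * fn V g = fn V fun i => f i * g i := by
  unfold fn
  calc V * diagonal f * Vᴴ * (V * diagonal g * Vᴴ)
      = V * (diagonal f * (Vᴴ * V) * diagonal g) * Vᴴ := by simp only [Matrix.mul_assoc]
    _ = _ := by rw [uni_symm hV, Matrix.mul_one, diagonal_mul_diagonal]

theorem fn_ct (V : Matrix n n ℂ) (f : n → ℂ) : (fn V f)ᴴ = fn V fun i => star (f i) := by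
  unfold fn
  rw [conjTranspose_mul, conjTranspose_mul, conjTranspose_conjTranspose, diagonal_conjTranspose,
    Matrix.mul_assoc]
  rfl

theorem fn_one {V : Matrix n n ℂ} (hV : V * Vᴴ = 1) : fn V (fun _ => 1) = 1 := by
  unfold fn
  rw [diagonal_one, Matrix.mul_one, hV]

theorem fn_add (V : Matrix n n ℂ) (f g : n → ℂ) :
    fn V (fun i => f i + g i) = fn V f + fn V g := by
  unfold fn
  rw [← diagonal_add, Matrix.mul_add, Matrix.add_mul]

theorem fn_smul (V : Matrix n n ℂ) (c : ℂ) (f : n → ℂ) :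
    fn V (fun i => c * f i) = c • fn V f := by
  unfold fn
  rw [← Matrix.smul_mul, ← Matrix.mul_smul, ← diagonal_smul]
  rfl

theorem fn_sum {ι : Type} (V : Matrix n n ℂ) (S : Finset ι) (f : ι → n → ℂ) :
    fn V (fun i => ∑ j ∈ S, f j i) = ∑ j ∈ S, fn V (f j) := by
  classical
  induction S using Finset.induction_on with
  | empty => simp [fn]
  | insert j S hj ih =>
    simp only [Finset.sum_insert hj]
    rw [fn_add, ih]

theorem fr_ct (V : Matrix n n ℂ) (f : n → ℝ) : (fr V f)ᴴ = fr V f := by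
  unfold fr
  rw [fn_ct]
  simp

theorem fr_mul {V : Matrix n n ℂ} (hV : V * Vᴴ = 1) (f g : n → ℝ) :
    fr V f * fr V g = fr V fun i => f i * g i := by
  unfold fr
  rw [fn_mul hV]
  simp

theorem trace_fn {V : Matrix n n ℂ} (hV : V * Vᴴ = 1) (f : n → ℂ) :
    trace (fn V f) = ∑ i, f i := by
  unfold fn
  rw [trace_mul_comm, ← Matrix.mul_assoc, uni_symm hV, Matrix.one_mul, trace_diagonal]

/-- `nsq (fr V f *ᵥ v) = ip v (fr V (f * f)) v` -/
theorem nsq_fr {V : Matrix n n ℂ} (hV : V * Vᴴ = 1) (f : n → ℝ) (v : n → ℂ) :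
    (nsq (fr V f *ᵥ v) : ℂ) = ip v (fr V fun i => f i * f i) v := by
  rw [nsq_eq, ip, ← fr_mul hV, ← mulVec_mulVec, dot_mulVec (fr V f) v, fr_ct]

theorem lin_conj {V : Matrix n n ℂ} {W : Matrix m m ℂ} (hV : V * Vᴴ = 1) (hW : W * Wᴴ = 1)
    (U : Matrix n m ℂ) (l : n → ℂ) (k : m → ℂ) :
    fn V l * U = U * fn W k ↔ ∀ i j, l i * (Vᴴ * U * W) i j = (Vᴴ * U * W) i j * k j := by
  have e1 : Vᴴ * (fn V l * U) * W = diagonal l * (Vᴴ * U * W) := by
    unfold fn
    calc Vᴴ * (V * diagonal l * Vᴴ * U) * W = (Vᴴ * V) * (diagonal l * (Vᴴ * U * W)) := by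
          simp only [Matrix.mul_assoc]
      _ = _ := by rw [uni_symm hV, Matrix.one_mul]
  have e2 : Vᴴ * (U * fn W k) * W = (Vᴴ * U * W) * diagonal k := by
    unfold fn
    calc Vᴴ * (U * (W * diagonal k * Wᴴ)) * W = (Vᴴ * U * W) * diagonal k * (Wᴴ * W) := by
          simp only [Matrix.mul_assoc]
      _ = _ := by rw [uni_symm hW, Matrix.mul_one]
  have e3 : ∀ X : Matrix n m ℂ, V * (Vᴴ * X * W) * Wᴴ = X := fun X => by
    calc V * (Vᴴ * X * W) * Wᴴ = (V * Vᴴ) * X * (W * Wᴴ) := by simp only [Matrix.mul_assoc]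
      _ = X := by rw [hV, hW, Matrix.one_mul, Matrix.mul_one]
  constructor
  · intro h i j
    have := congrFun (congrFun (e1.symm.trans (h ▸ e2)) i) j
    rwa [diagonal_mul, mul_diagonal] at this
  · intro h
    rw [← e3 (fn V l * U), ← e3 (U * fn W k), e1, e2]
    congr 2
    ext i j
    rw [diagonal_mul, mul_diagonal, h]

/-- with `Y = Vᴴ * U * W` one has `(l i - k j) * Y i j = 0` -/
theorem intertwine {V : Matrix n n ℂ} {W : Matrix m m ℂ} (hV : V * Vᴴ = 1) (hW : W * Wᴴ = 1)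
    (U : Matrix n m ℂ) (l : n → ℝ) (k : m → ℝ) (h : fr V l * U = U * fr W k) (φ : ℝ → ℝ) :
    fr V (fun i => φ (l i)) * U = U * fr W fun j => φ (k j) := by
  have h1 := (lin_conj hV hW U _ _).1 h
  refine (lin_conj hV hW U _ _).2 fun i j => ?_
  by_cases h0 : (Vᴴ * U * W) i j = 0
  · rw [h0, mul_zero, zero_mul]
  · have e : l i = k j := by
      apply Complex.ofReal_injective
      exact mul_right_cancel₀ h0 ((h1 i j).trans (mul_comm _ _))
    simp only [e]
    exact mul_comm _ _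

theorem herm_spec {M : Matrix n n ℂ} (hM : M.IsHermitian) :
    ∃ V : Matrix n n ℂ, V * Vᴴ = 1 ∧ M = fr V hM.eigenvalues := by
  refine ⟨(hM.eigenvectorUnitary : Matrix n n ℂ), ?_, ?_⟩
  · exact (Matrix.mem_unitaryGroup_iff.1 hM.eigenvectorUnitary.2)
  · have := hM.spectral_theorem
    rw [Unitary.conjStarAlgAut_apply] at this
    exact this

/-- from `herm_spec`, `intertwine` with `U = 1` and `trace_fn` -/
theorem sum_eig {M V : Matrix n n ℂ} (hM : M.IsHermitian) (hV : V * Vᴴ = 1) (l : n → ℝ)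
    (h : M = fr V l) (φ : ℝ → ℝ) : ∑ i, φ (hM.eigenvalues i) = ∑ i, φ (l i) := by
  obtain ⟨W, hW, e⟩ := herm_spec hM
  have h1 := intertwine hW hV 1 hM.eigenvalues l
    (by rw [Matrix.mul_one, Matrix.one_mul, ← e, ← h]) φ
  rw [Matrix.mul_one, Matrix.one_mul] at h1
  have h2 := congrArg trace h1
  unfold fr at h2
  rw [trace_fn hW, trace_fn hV] at h2
  exact_mod_cast h2

/-- the eigenvalues of `U * Uᴴ` are nonnegative -/
theorem eig_nonneg {V : Matrix n n ℂ} (hV : V * Vᴴ = 1) (U : Matrix n m ℂ) (l : n → ℝ)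
    (h : U * Uᴴ = fr V l) (i : n) : 0 ≤ l i := by
  have e : (Vᴴ * U) * (Vᴴ * U)ᴴ = diagonal fun i => (l i : ℂ) := by
    rw [conjTranspose_mul, conjTranspose_conjTranspose]
    calc Vᴴ * U * (Uᴴ * V) = Vᴴ * (U * Uᴴ) * V := by simp only [Matrix.mul_assoc]
      _ = (Vᴴ * V) * diagonal (fun i => (l i : ℂ)) * (Vᴴ * V) := by
          rw [h, fr, fn]; simp only [Matrix.mul_assoc]
      _ = _ := by rw [uni_symm hV, Matrix.one_mul, Matrix.mul_one]
  have h1 := congrFun (congrFun e i) i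
  rw [diagonal_apply_eq, Matrix.mul_apply] at h1
  have h2 : (l i : ℂ) = ((∑ j, ‖(Vᴴ * U) i j‖ ^ 2 : ℝ) : ℂ) := by
    rw [← h1, Complex.ofReal_sum]
    refine Finset.sum_congr rfl fun j _ => ?_
    rw [conjTranspose_apply, Complex.star_def, Complex.mul_conj']
    push_cast
    rfl
  rw [Complex.ofReal_injective h2]
  exact Finset.sum_nonneg fun _ _ => sq_nonneg _

theorem seg_succ' (P : ℕ → Matrix n n ℂ) (j k : ℕ) :
    seg P j (k + 1) = seg P (j + 1) k * P j := by
  induction k with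
  | zero => simp [seg]
  | succ k ih =>
    rw [seg, ih, seg, Matrix.mul_assoc, show j + (k + 1) = j + 1 + k by ring]

theorem seg_add (P : ℕ → Matrix n n ℂ) (j k l : ℕ) :
    seg P j (k + l) = seg P (j + k) l * seg P j k := by
  induction l with
  | zero => simp [seg]
  | succ l ih => rw [← add_assoc, seg, ih, seg, Matrix.mul_assoc, add_assoc]

theorem seg_congr (P P' : ℕ → Matrix n n ℂ) (j k : ℕ)
    (h : ∀ r, j ≤ r → r < j + k → P r = P' r) : seg P j k = seg P' j k := by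
  induction k with
  | zero => rfl
  | succ k ih =>
    rw [seg, seg, ih fun r h1 h2 => h r h1 (by omega), h (j + k) (by omega) (by omega)]

theorem seg_comm (P : ℕ → Matrix n n ℂ) (N : Matrix n n ℂ) (j k : ℕ)
    (h : ∀ r, j ≤ r → r < j + k → P r * N = N * P r) : seg P j k * N = N * seg P j k := by
  induction k with
  | zero => simp [seg]
  | succ k ih =>
    rw [seg, Matrix.mul_assoc, ih fun r h1 h2 => h r h1 (by omega), ← Matrix.mul_assoc,
      h (j + k) (by omega) (by omega), Matrix.mul_assoc]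

end Vale.Agent.P356
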