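import Vale.Agent.P356.Lin

namespace Vale.Agent.P356

open Matrix

variable {Λ Q : Type} [Fintype Λ] [DecidableEq Λ] [Fintype Q] [DecidableEq Q]

set_option linter.unusedSectionVars false

theorem glue_res (A : Finset Λ) (s : Λ → Q) : glue A (res A s) (cores A s) = s := by
  funext x
  unfold glue res cores
  split_ifs <;> rfl

theorem res_glue (A : Finset Λ) (a : {x // x ∈ A} → Q) (c : {x // x ∉ A} → Q) :
    res A (glue A a c) = a := by
  funext x
  simp [res, glue, x.2]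

theorem cores_glue (A : Finset Λ) (a : {x // x ∈ A} → Q) (c : {x // x ∉ A} → Q) :
    cores A (glue A a c) = c := by
  funext x
  simp [cores, glue, x.2]

/-- splitting of configurations -/
def locEquiv (A : Finset Λ) : (({x // x ∈ A} → Q) × ({x // x ∉ A} → Q)) ≃ (Λ → Q) where
  toFun p := glue A p.1 p.2
  invFun s := (res A s, cores A s)
  left_inv p := by simp [res_glue, cores_glue]
  right_inv s := glue_res A s

theorem loc_res_iff (A : Finset Λ) (s t : Λ → Q) : res A s = res A t ↔ ∀ x, x ∈ A → s x = t x :=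
  ⟨fun h x hx => congrFun h ⟨x, hx⟩, fun h => funext fun x => h x x.2⟩

theorem loc_cores_iff (A : Finset Λ) (s t : Λ → Q) :
    cores A s = cores A t ↔ ∀ x, x ∉ A → s x = t x :=
  ⟨fun h x hx => congrFun h ⟨x, hx⟩, fun h => funext fun x => h x x.2⟩

theorem loc_ext (A : Finset Λ) {s t : Λ → Q} (h1 : res A s = res A t)
    (h2 : cores A s = cores A t) : s = t := by
  rw [← glue_res A s, h1, h2, glue_res]

theorem loc_mat_ext {M N : Matrix (Λ → Q) (Λ → Q) ℂ} (h : ∀ v, M *ᵥ v = N *ᵥ v) : M = N := by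
  ext s t
  have := congrFun (h (Pi.single t 1)) s
  simpa using this

theorem sum_glue {β : Type} [AddCommMonoid β] (A : Finset Λ) (f : (Λ → Q) → β) :
    ∑ s, f s = ∑ a, ∑ c, f (glue A a c) := by
  rw [← (locEquiv A).sum_comp, Fintype.sum_prod_type]
  rfl

theorem prod_glue {β : Type} [CommMonoid β] (A : Finset Λ) (f : (Λ → Q) → β) :
    ∏ s, f s = ∏ a, ∏ c, f (glue A a c) := by
  rw [← (locEquiv A).prod_comp, Fintype.prod_prod_type]
  rfl

theorem card_in (A : Finset Λ) :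
    (Fintype.card ({x // x ∈ A} → Q) : ℝ) = (Fintype.card Q : ℝ) ^ A.card := by
  simp

theorem card_in_mul_out (A : Finset Λ) :
    (Fintype.card ({x // x ∉ A} → Q) : ℝ) * (Fintype.card Q : ℝ) ^ A.card
      = (Fintype.card Q : ℝ) ^ Fintype.card Λ := by
  have h := Fintype.card_congr (locEquiv (Q := Q) A)
  rw [Fintype.card_prod] at h
  rw [← card_in, mul_comm, ← Nat.cast_mul, h]
  simp

theorem amp_lift (A : Finset Λ) (m : Matrix ({x // x ∈ A} → Q) ({x // x ∈ A} → Q) ℂ)
    (v : (Λ → Q) → ℂ) : amp A (lift A m *ᵥ v) = m * amp A v := by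
  ext a c
  simp only [amp, mulVec, dotProduct, mul_apply]
  rw [sum_glue A]
  simp [lift, res_glue, cores_glue]

theorem amp_colift (A : Finset Λ) (m : Matrix ({x // x ∉ A} → Q) ({x // x ∉ A} → Q) ℂ)
    (v : (Λ → Q) → ℂ) : amp A (colift A m *ᵥ v) = amp A v * mᵀ := by
  ext a c
  simp only [amp, mulVec, dotProduct, mul_apply]
  rw [sum_glue A, Finset.sum_comm]
  simp [colift, res_glue, cores_glue, mul_comm]

theorem amp_smul (A : Finset Λ) (c : ℂ) (v : (Λ → Q) → ℂ) : amp A (c • v) = c • amp A v := by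
  rfl

theorem amp_inj (A : Finset Λ) {u v : (Λ → Q) → ℂ} (h : amp A u = amp A v) : u = v := by
  funext s
  have := congrFun (congrFun h (res A s)) (cores A s)
  simpa only [amp, glue_res] using this

theorem dot_amp (A : Finset Λ) (u v : (Λ → Q) → ℂ) :
    star u ⬝ᵥ v = trace ((amp A u)ᴴ * amp A v) := by
  simp only [dotProduct, trace, diag, mul_apply, conjTranspose_apply, amp, Pi.star_apply]
  rw [sum_glue A, Finset.sum_comm]

theorem rho_amp (A : Finset Λ) (v : (Λ → Q) → ℂ) : rho A v = amp A v * (amp A v)ᴴ := by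
  ext a b
  simp only [rho, mul_apply, conjTranspose_apply, amp]

theorem trace_rho (A : Finset Λ) (v : (Λ → Q) → ℂ) : trace (rho A v) = (nsq v : ℂ) := by
  rw [rho_amp, nsq_eq, dot_amp A, trace_mul_comm]

theorem ip_lift (A : Finset Λ) (m : Matrix ({x // x ∈ A} → Q) ({x // x ∈ A} → Q) ℂ)
    (u v : (Λ → Q) → ℂ) : ip u (lift A m) v = trace (m * (amp A v * (amp A u)ᴴ)) := by
  rw [ip, dot_amp A, amp_lift, trace_mul_comm, Matrix.mul_assoc]

theorem lift_mul (A : Finset Λ) (m m' : Matrix ({x // x ∈ A} → Q) ({x // x ∈ A} → Q) ℂ) :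
    lift A (m * m') = lift A m * lift A m' := by
  refine loc_mat_ext fun v => amp_inj A ?_
  rw [← mulVec_mulVec, amp_lift, amp_lift, amp_lift, Matrix.mul_assoc]

theorem lift_ct (A : Finset Λ) (m : Matrix ({x // x ∈ A} → Q) ({x // x ∈ A} → Q) ℂ) :
    lift A mᴴ = (lift A m)ᴴ := by
  ext s t
  simp only [lift, conjTranspose_apply]
  by_cases h : cores A s = cores A t
  · rw [if_pos h, if_pos h.symm]
  · rw [if_neg h, if_neg (Ne.symm h), star_zero]

theorem lift_diag (A : Finset Λ) (f : ({x // x ∈ A} → Q) → ℂ) :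
    lift A (diagonal f) = diagonal fun s => f (res A s) := by
  ext s t
  simp only [lift, diagonal_apply]
  by_cases h : s = t
  · subst h
    simp
  · rw [if_neg h]
    split_ifs with h1 h2
    · exact absurd (loc_ext A h2 h1) h
    · rfl
    · rfl

theorem lift_one (A : Finset Λ) :
    lift A (1 : Matrix ({x // x ∈ A} → Q) ({x // x ∈ A} → Q) ℂ) = 1 := by
  rw [← diagonal_one, lift_diag, diagonal_one]

theorem lift_inj [Nonempty Q] (A : Finset Λ)
    {m m' : Matrix ({x // x ∈ A} → Q) ({x // x ∈ A} → Q) ℂ} (h : lift A m = lift A m') :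
    m = m' := by
  ext a b
  obtain ⟨q⟩ := ‹Nonempty Q›
  have := congrFun (congrFun h (glue A a fun _ => q)) (glue A b fun _ => q)
  simpa [lift, res_glue, cores_glue] using this

theorem colift_ct (A : Finset Λ) (m : Matrix ({x // x ∉ A} → Q) ({x // x ∉ A} → Q) ℂ) :
    colift A mᴴ = (colift A m)ᴴ := by
  ext s t
  simp only [colift, conjTranspose_apply]
  by_cases h : res A s = res A t
  · rw [if_pos h, if_pos h.symm]
  · rw [if_neg h, if_neg (Ne.symm h), star_zero]

theorem lift_colift_comm (A : Finset Λ) (m : Matrix ({x // x ∈ A} → Q) ({x // x ∈ A} → Q) ℂ)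
    (m' : Matrix ({x // x ∉ A} → Q) ({x // x ∉ A} → Q) ℂ) :
    lift A m * colift A m' = colift A m' * lift A m := by
  refine loc_mat_ext fun v => amp_inj A ?_
  rw [← mulVec_mulVec, ← mulVec_mulVec, amp_lift, amp_colift, amp_colift, amp_lift,
    Matrix.mul_assoc]

theorem fn_lift (A : Finset Λ) (V0 : Matrix ({x // x ∈ A} → Q) ({x // x ∈ A} → Q) ℂ)
    (f : ({x // x ∈ A} → Q) → ℂ) : fn (lift A V0) (fun s => f (res A s)) = lift A (fn V0 f) := by
  rw [fn, fn, lift_mul, lift_mul, lift_diag, lift_ct]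

theorem fr_lift (A : Finset Λ) (V0 : Matrix ({x // x ∈ A} → Q) ({x // x ∈ A} → Q) ℂ)
    (f : ({x // x ∈ A} → Q) → ℝ) : fr (lift A V0) (fun s => f (res A s)) = lift A (fr V0 f) := by
  exact fn_lift A V0 fun a => (f a : ℂ)

theorem loc_lift (A : Finset Λ) (m : Matrix ({x // x ∈ A} → Q) ({x // x ∈ A} → Q) ℂ) :
    Loc (fun x => x ∈ A) (lift A m) := by
  refine ⟨fun s t x hx hne => ?_, fun s t s' t' h1 h2 h3 h4 => ?_⟩
  · exact if_neg fun h => hne ((loc_cores_iff A s t).1 h x hx)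
  · simp only [lift]
    rw [if_pos ((loc_cores_iff A s t).2 h3), if_pos ((loc_cores_iff A s' t').2 h4),
      (loc_res_iff A s s').2 h1, (loc_res_iff A t t').2 h2]

theorem loc_colift (A : Finset Λ) (m : Matrix ({x // x ∉ A} → Q) ({x // x ∉ A} → Q) ℂ) :
    Loc (fun x => x ∉ A) (colift A m) := by
  refine ⟨fun s t x hx hne => ?_, fun s t s' t' h1 h2 h3 h4 => ?_⟩
  · exact if_neg fun h => hne ((loc_res_iff A s t).1 h x (not_not.1 hx))
  · simp only [colift]
    rw [if_pos ((loc_res_iff A s t).2 fun x hx => h3 x (not_not.2 hx)),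
      if_pos ((loc_res_iff A s' t').2 fun x hx => h4 x (not_not.2 hx)),
      (loc_cores_iff A s s').2 h1, (loc_cores_iff A t t').2 h2]

theorem Loc.exists_lift [Nonempty Q] {A : Finset Λ} {M : Matrix (Λ → Q) (Λ → Q) ℂ}
    (h : Loc (fun x => x ∈ A) M) : ∃ m, M = lift A m := by
  obtain ⟨q⟩ := ‹Nonempty Q›
  refine ⟨fun a b => M (glue A a fun _ => q) (glue A b fun _ => q), ?_⟩
  ext s t
  simp only [lift]
  split_ifs with hc
  · refine h.2 _ _ _ _ (fun x hx => ?_) (fun x hx => ?_) ((loc_cores_iff A s t).1 hc)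
      (fun x hx => ?_)
    · simp [glue, res, hx]
    · simp [glue, res, hx]
    · simp [glue, hx]
  · rw [loc_cores_iff] at hc
    push Not at hc
    obtain ⟨x, hx, hne⟩ := hc
    exact h.1 s t x hx hne

theorem Loc.exists_colift [Nonempty Q] {A : Finset Λ} {M : Matrix (Λ → Q) (Λ → Q) ℂ}
    (h : Loc (fun x => x ∉ A) M) : ∃ m, M = colift A m := by
  obtain ⟨q⟩ := ‹Nonempty Q›
  refine ⟨fun a b => M (glue A (fun _ => q) a) (glue A (fun _ => q) b), ?_⟩
  ext s t
  simp only [colift]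
  split_ifs with hc
  · refine h.2 _ _ _ _ (fun x hx => ?_) (fun x hx => ?_)
      (fun x hx => (loc_res_iff A s t).1 hc x (not_not.1 hx)) (fun x hx => ?_)
    · simp [glue, cores, hx]
    · simp [glue, cores, hx]
    · simp [glue, not_not.1 hx]
  · rw [loc_res_iff] at hc
    push Not at hc
    obtain ⟨x, hx, hne⟩ := hc
    exact h.1 s t x (not_not.2 hx) hne

theorem Loc.mono {p q : Λ → Prop} {M : Matrix (Λ → Q) (Λ → Q) ℂ} (h : Loc p M)
    (hpq : ∀ x, p x → q x) : Loc q M := by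
  refine ⟨fun s t x hx hne => h.1 s t x (fun hp => hx (hpq x hp)) hne,
    fun s t s' t' h1 h2 h3 h4 => ?_⟩
  by_cases hc : ∀ x, ¬ p x → s x = t x
  · refine h.2 _ _ _ _ (fun x hx => h1 x (hpq x hx)) (fun x hx => h2 x (hpq x hx)) hc
      fun x hx => ?_
    by_cases hq : q x
    · rw [← h1 x hq, ← h2 x hq, hc x hx]
    · exact h4 x hq
  · push Not at hc
    obtain ⟨x, hx, hne⟩ := hc
    have hq : q x := by
      by_contra hq
      exact hne (h3 x hq)
    rw [h.1 s t x hx hne, h.1 s' t' x hx (by rwa [← h1 x hq, ← h2 x hq])]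

theorem Loc.mul [Nonempty Q] {p : Λ → Prop} {M N : Matrix (Λ → Q) (Λ → Q) ℂ} (hM : Loc p M)
    (hN : Loc p N) : Loc p (M * N) := by
  classical
  obtain ⟨m, rfl⟩ := (hM.mono (q := fun x => x ∈ Finset.univ.filter p) (by simp)).exists_lift
  obtain ⟨m', rfl⟩ := (hN.mono (q := fun x => x ∈ Finset.univ.filter p) (by simp)).exists_lift
  rw [← lift_mul]
  exact (loc_lift _ _).mono (by simp)

theorem Loc.ct {p : Λ → Prop} {M : Matrix (Λ → Q) (Λ → Q) ℂ} (hM : Loc p M) : Loc p Mᴴ := by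
  refine ⟨fun s t x hx hne => ?_, fun s t s' t' h1 h2 h3 h4 => ?_⟩
  · rw [conjTranspose_apply, hM.1 t s x hx (Ne.symm hne), star_zero]
  · rw [conjTranspose_apply, conjTranspose_apply, hM.2 t s t' s' h2 h1
      (fun x hx => (h3 x hx).symm) (fun x hx => (h4 x hx).symm)]

theorem loc_diag {p : Λ → Prop} {f : (Λ → Q) → ℂ} (hf : Dep p f) : Loc p (diagonal f) := by
  refine ⟨fun s t x _ hne => diagonal_apply_ne _ fun h => hne (congrFun h x),
    fun s t s' t' h1 h2 h3 h4 => ?_⟩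
  have e : s = t ↔ s' = t' := by
    constructor
    · intro h
      funext x
      by_cases hp : p x
      · rw [← h1 x hp, ← h2 x hp, h]
      · exact h4 x hp
    · intro h
      funext x
      by_cases hp : p x
      · rw [h1 x hp, h2 x hp, h]
      · exact h3 x hp
  simp only [diagonal_apply, e, hf s s' h1]

theorem loc_one (p : Λ → Prop) : Loc p (1 : Matrix (Λ → Q) (Λ → Q) ℂ) := by
  rw [← diagonal_one]
  exact loc_diag fun _ _ _ => rfl

theorem Loc.comm [Nonempty Q] {p q : Λ → Prop} {M N : Matrix (Λ → Q) (Λ → Q) ℂ} (hM : Loc p M)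
    (hN : Loc q N) (hpq : ∀ x, p x → ¬ q x) : M * N = N * M := by
  classical
  obtain ⟨m, rfl⟩ := (hM.mono (q := fun x => x ∈ Finset.univ.filter p) (by simp)).exists_lift
  obtain ⟨m', rfl⟩ := (hN.mono (q := fun x => x ∉ Finset.univ.filter p)
    (fun x hq hx => hpq x (by simpa using hx) hq)).exists_colift
  exact lift_colift_comm _ _ _

theorem Dep.comp {β γ : Type} {p : Λ → Prop} {d : (Λ → Q) → β} (hd : Dep p d) (φ : β → γ) :
    Dep p fun s => φ (d s) := by
  intro s t h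
  simp only [hd s t h]

theorem Dep.mono {β : Type} {p q : Λ → Prop} {d : (Λ → Q) → β} (hd : Dep p d)
    (hpq : ∀ x, p x → q x) : Dep q d := by
  exact fun s t h => hd s t fun x hx => h x (hpq x hx)

theorem dep_res {β : Type} (A : Finset Λ) (f : ({x // x ∈ A} → Q) → β) :
    Dep (fun x => x ∈ A) fun s => f (res A s) := by
  intro s t h
  simp only [(loc_res_iff A s t).2 h]

theorem loc_fn [Nonempty Q] {p : Λ → Prop} {V : Matrix (Λ → Q) (Λ → Q) ℂ} {f : (Λ → Q) → ℂ}
    (hV : Loc p V) (hf : Dep p f) : Loc p (fn V f) := by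
  exact (hV.mul (loc_diag hf)).mul hV.ct

theorem Spec.loc_fr [Nonempty Q] {A : Finset Λ} {V : Matrix (Λ → Q) (Λ → Q) ℂ}
    {d : (Λ → Q) → ℝ} (h : Spec A V d) (φ : ℝ → ℝ) :
    Loc (fun x => x ∈ A) (fr V fun s => φ (d s)) := by
  exact loc_fn h.loc (h.dep.comp fun r => ((φ r : ℝ) : ℂ))

theorem ActsOn.loc {X : Finset Λ} {M : Matrix (Λ → Q) (Λ → Q) ℂ} (h : ActsOn X M) :
    Loc (fun x => x ∈ X) M := by
  obtain ⟨m, hm⟩ := h
  have : M = lift X m := by
    ext s t
    rw [hm, lift]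
    exact if_congr (loc_cores_iff X s t).symm rfl rfl
  rw [this]
  exact loc_lift X m

/-- product of commuting functions on disjoint regions -/
theorem fn_prod [Nonempty Q] {p q : Λ → Prop} {V W : Matrix (Λ → Q) (Λ → Q) ℂ}
    {f g : (Λ → Q) → ℂ} (hV : Loc p V) (hW : Loc q W) (hf : Dep p f) (hg : Dep q g)
    (hpq : ∀ x, p x → ¬ q x) : fn (V * W) (fun s => f s * g s) = fn V f * fn W g := by
  have c1 : W * diagonal f = diagonal f * W :=
    ((loc_diag hf).comm hW hpq).symm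
  have c2 : Vᴴ * fn W g = fn W g * Vᴴ := hV.ct.comm (loc_fn hW hg) hpq
  rw [fn, fn, ← diagonal_mul_diagonal, conjTranspose_mul, Matrix.mul_assoc (V * diagonal f), c2,
    fn]
  simp only [Matrix.mul_assoc]
  rw [← Matrix.mul_assoc W (diagonal f), c1, Matrix.mul_assoc]

/-- mirror operator: `herm_spec` for `Uᴴ * U`, `intertwine`, `N = colift (transpose ..)` -/
theorem Own.mirror {A : Finset Λ} {u : (Λ → Q) → ℂ} {V : Matrix (Λ → Q) (Λ → Q) ℂ}
    {d : (Λ → Q) → ℝ} (h : Own A u V d) (φ : ℝ → ℝ) :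
    ∃ N : Matrix (Λ → Q) (Λ → Q) ℂ, Loc (fun x => x ∉ A) N ∧ Nᴴ = N ∧
      fr V (fun s => φ (d s)) *ᵥ u = N *ᵥ u := by
  obtain ⟨V0, l, e, Z, he, hZ, hV0, rfl, hr, hd⟩ := h
  obtain ⟨W, hW, hU⟩ := herm_spec (isHermitian_conjTranspose_mul_self (amp A u))
  set μ := (isHermitian_conjTranspose_mul_self (amp A u)).eigenvalues
  have h1 : fr V0 l * amp A u = amp A u * fr W μ := by
    rw [← hr, ← hU, rho_amp, Matrix.mul_assoc]
  have h2 := intertwine hV0 hW (amp A u) l μ h1 fun r => φ ((r + e) / Z)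
  refine ⟨colift A (fr W fun j => φ ((μ j + e) / Z))ᵀ, loc_colift A _, ?_, amp_inj A ?_⟩
  · rw [← colift_ct]
    congr 1
    conv_rhs => rw [← fr_ct]
    rfl
  · simp only [hd]
    rw [fr_lift A V0 fun a => φ ((l a + e) / Z), amp_lift, amp_colift, transpose_transpose, h2]

theorem Own.pos {A : Finset Λ} {u : (Λ → Q) → ℂ} {V : Matrix (Λ → Q) (Λ → Q) ℂ}
    {d : (Λ → Q) → ℝ} (h : Own A u V d) (s : Λ → Q) : 0 < d s := by
  obtain ⟨V0, l, e, Z, he, hZ, hV0, -, hr, hd⟩ := h
  rw [rho_amp] at hr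
  have := eig_nonneg hV0 (amp A u) l hr (res A s)
  rw [hd]
  positivity

end Vale.Agent.P356
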