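import Vale.Agent.P356.Defs

namespace Vale.Agent.P356

open Matrix
open scoped ComplexOrder

/-- The operator norm of `M` on Euclidean space is at most `J`. -/
def OpNormLe {n : Type} [Fintype n] [DecidableEq n] (M : Matrix n n ℂ) (J : ℝ) : Prop :=
  ‖Matrix.toEuclideanCLM (𝕜 := ℂ) (n := n) M‖ ≤ J

/-- `Ω` is a unit eigenvector of `H` for `E0`, and `H - E0 ≥ Δ (1 - |Ω><Ω|)`. -/
def HasGap {n : Type} [Fintype n] [DecidableEq n] (H : Matrix n n ℂ) (E0 Δ : ℝ) (Ω : n → ℂ) :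
    Prop :=
  ∑ s, ‖Ω s‖ ^ 2 = 1 ∧ H *ᵥ Ω = (E0 : ℂ) • Ω ∧
    (H - (E0 : ℂ) • 1 - (Δ : ℂ) • (1 - vecMulVec Ω (star Ω))).PosSemidef

/-- Operators on the tensor product of `ℂ ^ q` over the `L × L` grid. -/
abbrev Op (L q : ℕ) : Type := Matrix (Fin L × Fin L → Fin q) (Fin L × Fin L → Fin q) ℂ

/-- Every term with an allowed support is Hermitian, acts on its support, has norm at most `J`. -/
def Admissible (L q R : ℕ) (J : ℝ) (h : Finset (Fin L × Fin L) → Op L q) : Prop :=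
  ∀ X ∈ supports L R, (h X).IsHermitian ∧ ActsOn X (h X) ∧ OpNormLe (h X) J

/-- The Hamiltonian: the sum of the terms over the allowed supports. -/
def ham (L q R : ℕ) (h : Finset (Fin L × Fin L) → Op L q) : Op L q :=
  ∑ X ∈ supports L R, h X

end Vale.Agent.P356
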