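import Vale.Agent.P356.Ent

namespace Vale.Agent.P356

open Matrix

theorem pos_of_mul_pos_of_pos_left' {p q : ℝ} (h : 0 < p * q) (hp : 0 ≤ p) : 0 < q := by
  by_contra hq
  have := mul_nonneg hp (neg_nonneg.2 (not_lt.1 hq))
  linarith

theorem pos_of_mul_pos_of_pos_right' {p q : ℝ} (h : 0 < p * q) (hq : 0 ≤ q) : 0 < p :=
  pos_of_mul_pos_of_pos_left' (by rwa [mul_comm] at h) hq

variable {Λ Q : Type} [Fintype Λ] [DecidableEq Λ] [Fintype Q] [DecidableEq Q] [Nonempty Q]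

omit [Nonempty Q] in
theorem cont_val (a : ℕ → ℝ) (ha : ∀ r, 0 < a r) (k : ℕ) (Ω : (Λ → Q) → ℂ) :
    Continuous fun x : ℕ → Matrix (Λ → Q) (Λ → Q) ℂ × ((Λ → Q) → ℝ) =>
      nsq (seg (PP a x) 0 k *ᵥ Ω) := by
  have hP : ∀ r, Continuous fun x : ℕ → Matrix (Λ → Q) (Λ → Q) ℂ × ((Λ → Q) → ℝ) =>
      PP a x r := by
    intro r
    have h1 : Continuous fun x : ℕ → Matrix (Λ → Q) (Λ → Q) ℂ × ((Λ → Q) → ℝ) => (x r).1 :=
      continuous_fst.comp (continuous_apply r)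
    have h2 : Continuous fun x : ℕ → Matrix (Λ → Q) (Λ → Q) ℂ × ((Λ → Q) → ℝ) =>
        fun s => ((((x r).2 s) ^ a r : ℝ) : ℂ) := by
      refine continuous_pi fun s => Complex.continuous_ofReal.comp ?_
      exact (Real.continuous_rpow_const (ha r).le).comp
        ((continuous_apply s).comp (continuous_snd.comp (continuous_apply r)))
    exact (h1.matrix_mul h2.matrix_diagonal).matrix_mul h1.matrix_conjTranspose
  have hS : ∀ k, Continuous fun x : ℕ → Matrix (Λ → Q) (Λ → Q) ℂ × ((Λ → Q) → ℝ) =>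
      seg (PP a x) 0 k := by
    intro k
    induction k with
    | zero => exact continuous_const
    | succ k ih => exact (hP (0 + k)).matrix_mul ih
  have hv := (hS k).matrix_mulVec (continuous_const (y := Ω))
  unfold nsq
  exact continuous_finset_sum _ fun s _ => (((continuous_apply s).comp hv).norm).pow 2

omit [Nonempty Q] in
theorem var_compact (A : Finset Λ) :
    IsCompact {p : Matrix (Λ → Q) (Λ → Q) ℂ × ((Λ → Q) → ℝ) | Spec A p.1 p.2} := by
  have hK : IsCompact ((Set.pi Set.univ fun _ : Λ → Q => Set.pi Set.univ fun _ : Λ → Q =>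
      Metric.closedBall (0 : ℂ) 1) ×ˢ (Set.pi Set.univ fun _ : Λ → Q => Set.Icc (0 : ℝ) 1)) :=
    (isCompact_univ_pi fun _ => isCompact_univ_pi fun _ => isCompact_closedBall _ _).prod
      (isCompact_univ_pi fun _ => isCompact_Icc)
  have e1 : ∀ s t, Continuous fun p : Matrix (Λ → Q) (Λ → Q) ℂ × ((Λ → Q) → ℝ) => p.1 s t :=
    fun s t => continuous_fst.matrix_elem s t
  have e2 : ∀ s, Continuous fun p : Matrix (Λ → Q) (Λ → Q) ℂ × ((Λ → Q) → ℝ) => p.2 s :=
    fun s => (continuous_apply s).comp continuous_snd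
  refine IsCompact.of_isClosed_subset (s := _) hK ?_ ?_
  · have : {p : Matrix (Λ → Q) (Λ → Q) ℂ × ((Λ → Q) → ℝ) | Spec A p.1 p.2} =
        {p | p.1 * p.1ᴴ = 1} ∩ ({p | ∀ s t x, ¬ x ∈ A → s x ≠ t x → p.1 s t = 0} ∩
        ({p | ∀ s t s' t' : Λ → Q, (∀ x, x ∈ A → s x = s' x) → (∀ x, x ∈ A → t x = t' x) →
          (∀ x, ¬ x ∈ A → s x = t x) → (∀ x, ¬ x ∈ A → s' x = t' x) → p.1 s t = p.1 s' t'} ∩
        ({p | ∀ s t : Λ → Q, (∀ x, x ∈ A → s x = t x) → p.2 s = p.2 t} ∩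
        ({p | ∀ s, 0 ≤ p.2 s} ∩ ({p | ∀ s, p.2 s ≤ 1} ∩
        {p | (∑ s, p.2 s) * (Fintype.card Q : ℝ) ^ A.card =
          (Fintype.card Q : ℝ) ^ Fintype.card Λ}))))) := by
      ext p
      constructor
      · intro h
        exact ⟨h.uni, h.loc.1, h.loc.2, h.dep, h.nonneg, h.le_one, h.sum⟩
      · rintro ⟨h1, h2, h3, h4, h5, h6, h7⟩
        exact ⟨h1, ⟨h2, h3⟩, h4, h5, h6, h7⟩
    rw [this]
    refine IsClosed.inter ?_ (IsClosed.inter ?_ (IsClosed.inter ?_ (IsClosed.inter ?_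
      (IsClosed.inter ?_ (IsClosed.inter ?_ ?_)))))
    · exact isClosed_eq (continuous_fst.matrix_mul continuous_fst.matrix_conjTranspose)
        continuous_const
    · simp only [Set.setOf_forall]
      exact isClosed_iInter fun s => isClosed_iInter fun t => isClosed_iInter fun _ =>
        isClosed_iInter fun _ => isClosed_iInter fun _ => isClosed_eq (e1 s t) continuous_const
    · simp only [Set.setOf_forall]
      exact isClosed_iInter fun s => isClosed_iInter fun t => isClosed_iInter fun s' =>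
        isClosed_iInter fun t' => isClosed_iInter fun _ => isClosed_iInter fun _ =>
        isClosed_iInter fun _ => isClosed_iInter fun _ => isClosed_eq (e1 s t) (e1 s' t')
    · simp only [Set.setOf_forall]
      exact isClosed_iInter fun s => isClosed_iInter fun t => isClosed_iInter fun _ =>
        isClosed_eq (e2 s) (e2 t)
    · simp only [Set.setOf_forall]
      exact isClosed_iInter fun s => isClosed_le continuous_const (e2 s)
    · simp only [Set.setOf_forall]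
      exact isClosed_iInter fun s => isClosed_le (e2 s) continuous_const
    · exact isClosed_eq ((continuous_finset_sum _ fun s _ => e2 s).mul continuous_const)
        continuous_const
  · intro p hp
    have hp' : Spec A p.1 p.2 := hp
    refine ⟨fun s _ t _ => ?_, fun s _ => ⟨hp'.nonneg s, hp'.le_one s⟩⟩
    have hu : p.1 ∈ Matrix.unitaryGroup (Λ → Q) ℂ := by
      rw [Matrix.mem_unitaryGroup_iff]
      exact hp'.uni
    simpa using entry_norm_bound_of_unitary hu s t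

omit [Nonempty Q] [DecidableEq Q] in
theorem var_cont_reg (k : ℕ) (ε : ℝ) (hε : 0 < ε) :
    Continuous fun x : ℕ → Matrix (Λ → Q) (Λ → Q) ℂ × ((Λ → Q) → ℝ) => reg k ε x := by
  unfold reg
  refine continuous_finset_prod _ fun r _ => continuous_finset_prod _ fun s _ => ?_
  exact (Real.continuous_rpow_const hε.le).comp
    ((continuous_apply s).comp (continuous_snd.comp (continuous_apply r)))

/-- compactness of the product of the closed bounded sets `Spec (A r)` -/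
theorem exists_max (A : ℕ → Finset Λ) (a : ℕ → ℝ) (ha : ∀ r, 0 < a r) (k : ℕ) (ε : ℝ)
    (hε : 0 < ε) (Ω : (Λ → Q) → ℂ) :
    ∃ x, Dom A x ∧ ∀ y, Dom A y → nsq (seg (PP a y) 0 k *ᵥ Ω) * reg k ε y ≤
      nsq (seg (PP a x) 0 k *ᵥ Ω) * reg k ε x := by
  have hK : IsCompact (Set.pi Set.univ fun r =>
      {p : Matrix (Λ → Q) (Λ → Q) ℂ × ((Λ → Q) → ℝ) | Spec (A r) p.1 p.2}) :=
    isCompact_univ_pi fun r => var_compact (A r)
  have hne : (Set.pi Set.univ fun r =>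
      {p : Matrix (Λ → Q) (Λ → Q) ℂ × ((Λ → Q) → ℝ) | Spec (A r) p.1 p.2}).Nonempty :=
    ⟨fun r => (1, fun _ => ((Fintype.card Q : ℝ) ^ (A r).card)⁻¹), fun r _ => spec_flat (A r)⟩
  obtain ⟨x, hx, hm⟩ := hK.exists_isMaxOn hne
    (((cont_val a ha k Ω).mul (var_cont_reg k ε hε)).continuousOn)
  exact ⟨x, fun r => hx r trivial, fun y hy => hm (a := y) fun r _ => hy r⟩

/-- induction on `n` with `seg_succ'`; new `T` is `N * T` with `N` from `Own.mirror` -/
theorem transfer (A : ℕ → Finset Λ) (a : ℕ → ℝ)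
    (x : ℕ → Matrix (Λ → Q) (Λ → Q) ℂ × ((Λ → Q) → ℝ)) (hx : Dom A x) (hA : Monotone A)
    (u : (Λ → Q) → ℂ) (n j : ℕ) (ho : ∀ r, j ≤ r → r < j + n → Own (A r) u (x r).1 (x r).2) :
    ∃ T : Matrix (Λ → Q) (Λ → Q) ℂ,
      (∀ y, star u ⬝ᵥ (seg (PP a x) j n *ᵥ y) = star u ⬝ᵥ (T *ᵥ y)) ∧
      (∀ (y : (Λ → Q) → ℂ) (c : ℂ), seg (PP a x) j n *ᵥ y = c • u → T *ᵥ y = c • u) ∧
      ∀ (Y : Finset Λ) (N : Matrix (Λ → Q) (Λ → Q) ℂ), (∀ r, j ≤ r → r < j + n → Y ⊆ A r) →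
        Loc (fun z => z ∈ Y) N → T * N = N * T := by
  induction n generalizing j with
  | zero =>
    refine ⟨1, fun y => rfl, fun y c h => h, fun Y N _ _ => by simp⟩
  | succ n ih =>
    obtain ⟨T, h1, h2, h3⟩ := ih (j + 1) fun r hr hr' => ho r (by omega) (by omega)
    have hoj := ho j le_rfl (by omega)
    obtain ⟨N, hN, hNh, hNu⟩ := hoj.mirror fun t => t ^ a j
    have hPl : Loc (fun z => z ∈ A j) (PP a x j) := (hx j).loc_fr fun t => t ^ a j
    have hPu : PP a x j *ᵥ u = N *ᵥ u := hNu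
    have hPh : (PP a x j)ᴴ = PP a x j := fr_ct _ _
    have hTP : T * PP a x j = PP a x j * T :=
      h3 (A j) _ (fun r hr _ => hA (by omega)) hPl
    have hNP : PP a x j * N = N * PP a x j := hPl.comm hN fun z hz hz' => hz' hz
    have hinv : pw (x j).1 (x j).2 (-a j) * PP a x j = 1 := by
      have : pw (x j).1 (x j).2 (-a j) * PP a x j =
          fr (x j).1 fun s => (x j).2 s ^ (-a j) * (x j).2 s ^ a j := fr_mul (hx j).uni _ _
      rw [this]
      have h4 : (fun s => (x j).2 s ^ (-a j) * (x j).2 s ^ a j) = fun _ => (1 : ℝ) := by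
        funext s
        rw [← Real.rpow_add (hoj.pos s)]
        simp
      rw [h4]
      simpa [fr] using fn_one (hx j).uni
    refine ⟨N * T, fun y => ?_, fun y c h => ?_, fun Y M hY hM => ?_⟩
    · rw [seg_succ', ← mulVec_mulVec, h1, mulVec_mulVec, hTP, ← mulVec_mulVec, dot_mulVec, hPh,
        hPu, ← mulVec_mulVec, dot_mulVec N, hNh]
    · rw [seg_succ', ← mulVec_mulVec] at h
      have h5 := h2 _ _ h
      rw [mulVec_mulVec, hTP, ← mulVec_mulVec] at h5
      have h6 : PP a x j *ᵥ ((N * T) *ᵥ y) = PP a x j *ᵥ (c • u) := by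
        rw [← mulVec_mulVec, mulVec_mulVec (T *ᵥ y), hNP, ← mulVec_mulVec, h5, mulVec_smul,
          mulVec_smul, hPu]
      have h7 := congrArg (fun v => pw (x j).1 (x j).2 (-a j) *ᵥ v) h6
      simpa only [mulVec_mulVec, ← Matrix.mul_assoc, hinv, one_mulVec, Matrix.one_mul] using h7
    · have hM1 : N * M = M * N :=
        hN.comm hM fun z hz hz' => hz (hY j le_rfl (by omega) hz')
      have hM2 := h3 Y M (fun r hr hr' => hY r (by omega) (by omega)) hM
      rw [Matrix.mul_assoc, hM2, ← Matrix.mul_assoc, hM1, Matrix.mul_assoc]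

omit [Nonempty Q] in
theorem var_seg_update (a : ℕ → ℝ) (x : ℕ → Matrix (Λ → Q) (Λ → Q) ℂ × ((Λ → Q) → ℝ))
    (j n : ℕ) (p : Matrix (Λ → Q) (Λ → Q) ℂ × ((Λ → Q) → ℝ)) :
    seg (PP a (Function.update x j p)) 0 (j + 1 + n) =
      seg (PP a x) (j + 1) n * (pw p.1 p.2 (a j) * seg (PP a x) 0 j) := by
  rw [seg_add]
  have h1 : seg (PP a (Function.update x j p)) (0 + (j + 1)) n = seg (PP a x) (j + 1) n := by
    rw [Nat.zero_add]
    refine seg_congr _ _ _ _ fun r hr _ => ?_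
    simp only [PP]
    rw [Function.update_of_ne (by omega)]
  have h2 : seg (PP a (Function.update x j p)) 0 j = seg (PP a x) 0 j := by
    refine seg_congr _ _ _ _ fun r _ hr => ?_
    simp only [PP]
    rw [Function.update_of_ne (by omega)]
  rw [h1]
  congr 1
  show PP a (Function.update x j p) (0 + j) * seg (PP a (Function.update x j p)) 0 j = _
  rw [h2, Nat.zero_add]
  simp only [PP, Function.update_self]

omit [Nonempty Q] [DecidableEq Q] in
theorem var_reg_update (A : Finset Λ) (k j : ℕ) (hj : j < k) (ε : ℝ)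
    (x : ℕ → Matrix (Λ → Q) (Λ → Q) ℂ × ((Λ → Q) → ℝ)) (V : Matrix (Λ → Q) (Λ → Q) ℂ)
    (d0 : ({z // z ∈ A} → Q) → ℝ) (h0 : ∀ i, 0 ≤ d0 i) :
    reg k ε (Function.update x j (V, fun s => d0 (res A s))) =
      (∏ i, d0 i ^ (ε * Fintype.card ({z // z ∉ A} → Q))) *
        ∏ r ∈ (Finset.range k).erase j, ∏ s, (x r).2 s ^ ε := by
  classical
  unfold reg
  rw [← Finset.mul_prod_erase _ _ (Finset.mem_range.2 hj)]
  congr 1
  · rw [Function.update_self, prod_glue A]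
    refine Finset.prod_congr rfl fun i _ => ?_
    simp only [res_glue]
    rw [Finset.prod_const, Finset.card_univ, Real.rpow_mul (h0 i), Real.rpow_natCast]
  · refine Finset.prod_congr rfl fun r hr => ?_
    rw [Function.update_of_ne (Finset.ne_of_mem_erase hr)]

theorem var_level (A : ℕ → Finset Λ) (hA : Monotone A) (a : ℕ → ℝ) (ha : ∀ r, 0 < a r)
    (j n : ℕ) (ε : ℝ) (hε : 0 < ε) (Ω : (Λ → Q) → ℂ)
    (x : ℕ → Matrix (Λ → Q) (Λ → Q) ℂ × ((Λ → Q) → ℝ)) (u : (Λ → Q) → ℂ) (c : ℝ)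
    (hx : Dom A x) (hc : 0 < c) (hu : nsq u = 1)
    (hs : seg (PP a x) 0 (j + 1 + n) *ᵥ Ω = (c : ℂ) • u)
    (hm : ∀ y, Dom A y → nsq (seg (PP a y) 0 (j + 1 + n) *ᵥ Ω) * reg (j + 1 + n) ε y ≤
      c ^ 2 * reg (j + 1 + n) ε x)
    (hr : 0 < reg (j + 1 + n) ε x)
    (ho : ∀ r, j + 1 ≤ r → r < j + 1 + n → Own (A r) u (x r).1 (x r).2) :
    ∃ x', Dom A x' ∧ seg (PP a x') 0 (j + 1 + n) *ᵥ Ω = (c : ℂ) • u ∧
      reg (j + 1 + n) ε x' = reg (j + 1 + n) ε x ∧
      ∀ r, j ≤ r → r < j + 1 + n → Own (A r) u (x' r).1 (x' r).2 := by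
  obtain ⟨T, t1, t2, t3⟩ := transfer A a x hx hA u n (j + 1) ho
  set w := seg (PP a x) 0 j *ᵥ Ω with hw
  set R := amp (A j) (T *ᵥ w) * (amp (A j) u)ᴴ with hR
  set e : ℝ := ε * Fintype.card ({z // z ∉ A j} → Q) with he
  set rest : ℝ := ∏ r ∈ (Finset.range (j + 1 + n)).erase j, ∏ s, (x r).2 s ^ ε with hrest
  have hTl : ∀ m0, T * lift (A j) m0 = lift (A j) m0 * T := fun m0 =>
    t3 (A j) _ (fun r hr _ => hA (by omega)) (loc_lift _ m0)
  have k1 : ∀ (V0 : Matrix ({z // z ∈ A j} → Q) ({z // z ∈ A j} → Q) ℂ)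
      (d0 : ({z // z ∈ A j} → Q) → ℝ),
      seg (PP a (Function.update x j (lift (A j) V0, fun s => d0 (res (A j) s)))) 0
        (j + 1 + n) *ᵥ Ω =
      seg (PP a x) (j + 1) n *ᵥ (lift (A j) (fr V0 fun i => d0 i ^ a j) *ᵥ w) := by
    intro V0 d0
    rw [var_seg_update, hw, mulVec_mulVec, mulVec_mulVec, Matrix.mul_assoc, ← fr_lift]
    rfl
  have k2 : ∀ m0, star u ⬝ᵥ (seg (PP a x) (j + 1) n *ᵥ (lift (A j) m0 *ᵥ w)) =
      trace (m0 * R) := by
    intro m0
    rw [t1, mulVec_mulVec, hTl, ← mulVec_mulVec]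
    exact ip_lift (A j) m0 u (T *ᵥ w)
  have k3 : ∀ (V0 : Matrix ({z // z ∈ A j} → Q) ({z // z ∈ A j} → Q) ℂ)
      (d0 : ({z // z ∈ A j} → Q) → ℝ), (∀ i, 0 ≤ d0 i) →
      reg (j + 1 + n) ε (Function.update x j (lift (A j) V0, fun s => d0 (res (A j) s))) =
      (∏ i, d0 i ^ e) * rest := fun V0 d0 h0 =>
    var_reg_update (A j) _ j (by omega) ε x _ d0 h0
  have k4 : ∀ (V0 : Matrix ({z // z ∈ A j} → Q) ({z // z ∈ A j} → Q) ℂ)
      (d0 : ({z // z ∈ A j} → Q) → ℝ), V0 * V0ᴴ = 1 → (∀ i, 0 ≤ d0 i) → ∑ i, d0 i = 1 →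
      Dom A (Function.update x j (lift (A j) V0, fun s => d0 (res (A j) s))) := by
    intro V0 d0 hV h0 h1 r
    by_cases hrj : r = j
    · subst hrj
      rw [Function.update_self]
      exact spec_ofBip _ hV d0 h0 h1
    · rw [Function.update_of_ne hrj]
      exact hx r
  obtain ⟨V0, d0, hV0, hxV, hxd, hd0, hd1⟩ := (hx j).toBip
  have hxx : Function.update x j (lift (A j) V0, fun s => d0 (res (A j) s)) = x := by
    rw [← hxV, ← hxd]
    exact Function.update_eq_self j x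
  have he0 : 0 < e := mul_pos hε (by exact_mod_cast Fintype.card_pos)
  have hreg : reg (j + 1 + n) ε x = (∏ i, d0 i ^ e) * rest := by
    rw [← k3 V0 d0 hd0, hxx]
  have hp0 : 0 ≤ ∏ i, d0 i ^ e := Finset.prod_nonneg fun i _ => Real.rpow_nonneg (hd0 i) _
  have hrest0 : 0 < rest := by
    rw [hreg] at hr
    exact pos_of_mul_pos_of_pos_left' hr hp0
  have hdpos : ∀ i, 0 < d0 i := by
    intro i
    rcases (hd0 i).lt_or_eq with h | h
    · exact h
    · exfalso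
      have : ∏ i, d0 i ^ e = 0 :=
        Finset.prod_eq_zero (Finset.mem_univ i) (by rw [← h, Real.zero_rpow he0.ne'])
      rw [hreg, this, zero_mul] at hr
      exact lt_irrefl _ hr
  have huu : star u ⬝ᵥ ((c : ℂ) • u) = c := by
    rw [dotProduct_smul, ← nsq_eq, hu]
    simp
  have htr : trace (fr V0 (fun i => d0 i ^ a j) * R) = c := by
    rw [← k2, ← k1, hxx, hs, huu]
  obtain ⟨V', π, hV', hdiag, hge⟩ := birk R hV0 fun i => d0 i ^ a j
  set d' : ({z // z ∈ A j} → Q) → ℝ := fun i => d0 (π i) with hd'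
  have hd'pos : ∀ i, 0 < d' i := fun i => hdpos _
  have hd'1 : ∑ i, d' i = 1 := by rw [← hd1]; exact Equiv.sum_comp π d0
  have hD' := k4 V' d' hV' (fun i => (hd'pos i).le) hd'1
  have hprod : ∏ i, d' i ^ e = ∏ i, d0 i ^ e := Equiv.prod_comp π fun i => d0 i ^ e
  have hreg' := k3 V' d' fun i => (hd'pos i).le
  rw [hprod, ← hreg] at hreg'
  have hs' : seg (PP a (Function.update x j (lift (A j) V', fun s => d' (res (A j) s)))) 0
      (j + 1 + n) *ᵥ Ω = (c : ℂ) • u := by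
    refine cs_eq u _ c hu ?_ hc.le ?_
    · have := hm _ hD'
      rw [hreg'] at this
      exact le_of_mul_le_mul_right this hr
    · rw [k1, k2]
      rw [htr] at hge
      simpa using hge
  have hz : fr V' (fun i => d' i ^ a j) * R = (c : ℂ) • rho (A j) u := by
    have h1 := hs'
    rw [k1] at h1
    have h2 := t2 _ _ h1
    rw [mulVec_mulVec, hTl, ← mulVec_mulVec] at h2
    have h3 := congrArg (amp (A j)) h2
    rw [amp_lift, amp_smul] at h3
    rw [hR, ← Matrix.mul_assoc, h3, rho_amp, Matrix.smul_mul]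
  obtain ⟨l, hl, hl'⟩ := own_diag R (rho (A j) u) hV' (fun i => d' i ^ a j)
    (fun i => Real.rpow_pos_of_pos (hd'pos i) _) c hc (rho_herm _ _) hz hdiag
  have hl0 : ∀ i, 0 ≤ l i := eig_nonneg hV' (amp (A j) u) l (by rw [← rho_amp, hl])
  have hl1 : ∑ i, l i = 1 := by
    have h1 := trace_rho (A j) u
    rw [hl, hu, fr, trace_fn hV'] at h1
    exact_mod_cast h1
  have hg := gibbs l d' hl0 hl1 hd'pos hd'1 (a j) e (ha j) he0 (by
    intro d'' hp h1
    have h2 := hm _ (k4 V' d'' hV' (fun i => (hp i).le) h1)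
    rw [k3 V' d'' fun i => (hp i).le, hreg, ← hprod] at h2
    have h3 := cs u (seg (PP a (Function.update x j
      (lift (A j) V', fun s => d'' (res (A j) s)))) 0 (j + 1 + n) *ᵥ Ω)
    rw [hu, one_mul] at h3
    have h4 : (c * ∑ i, l i * (d'' i ^ a j / d' i ^ a j)) ^ 2 ≤ ‖star u ⬝ᵥ (seg (PP a
        (Function.update x j (lift (A j) V', fun s => d'' (res (A j) s)))) 0
        (j + 1 + n) *ᵥ Ω)‖ ^ 2 := by
      rw [k1, k2, ← hl' fun i => d'' i ^ a j, ← sq_abs]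
      exact pow_le_pow_left₀ (abs_nonneg _) (Complex.abs_re_le_norm _) 2
    have h5 : 0 ≤ (∏ i, d'' i ^ e) * rest :=
      mul_nonneg (Finset.prod_nonneg fun i _ => Real.rpow_nonneg (hp i).le _) hrest0.le
    have h6 := (mul_le_mul_of_nonneg_right (h4.trans h3) h5).trans h2
    have h7 : 0 < c ^ 2 * rest := by positivity
    refine le_of_mul_le_mul_left ?_ h7
    calc c ^ 2 * rest * ((∑ i, l i * (d'' i ^ a j / d' i ^ a j)) ^ 2 * ∏ i, d'' i ^ e)
        = (c * ∑ i, l i * (d'' i ^ a j / d' i ^ a j)) ^ 2 * ((∏ i, d'' i ^ e) * rest) := by ring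
      _ ≤ c ^ 2 * ((∏ i, d' i ^ e) * rest) := h6
      _ = c ^ 2 * rest * ∏ i, d' i ^ e := by ring)
  refine ⟨_, hD', hs', hreg', fun r h1 h2 => ?_⟩
  by_cases hrj : r = j
  · subst hrj
    rw [Function.update_self]
    have haj := ha r
    exact ⟨V', l, e / (2 * a r), 1 + e / (2 * a r) * Fintype.card ({z // z ∈ A r} → Q),
      by positivity, by positivity, hV', rfl, hl, fun s => hg _⟩
  · rw [Function.update_of_ne hrj]
    exact ho r (by omega) h2

theorem var_flat (A : ℕ → Finset Λ) (a : ℕ → ℝ) (k : ℕ) :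
    ∃ t : ℝ, 0 < t ∧ seg (PP a fun r => ((1 : Matrix (Λ → Q) (Λ → Q) ℂ),
      fun _ => ((Fintype.card Q : ℝ) ^ (A r).card)⁻¹)) 0 k = (t : ℂ) • 1 := by
  have hq : (0 : ℝ) < Fintype.card Q := by exact_mod_cast Fintype.card_pos
  induction k with
  | zero => exact ⟨1, one_pos, by simp [seg]⟩
  | succ k ih =>
    obtain ⟨t, ht, h⟩ := ih
    refine ⟨(((Fintype.card Q : ℝ) ^ (A (0 + k)).card)⁻¹) ^ a (0 + k) * t, by positivity, ?_⟩
    show PP a _ (0 + k) * _ = _
    rw [h]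
    simp only [PP, pw, fr, fn, Matrix.one_mul, conjTranspose_one, Matrix.mul_one]
    rw [← Matrix.smul_one_eq_diagonal, Matrix.smul_mul, Matrix.one_mul, smul_smul]
    simp

/-- downward induction on the level; `birk`, `cs_eq`, `own_diag`, `gibbs` -/
theorem exists_own (A : ℕ → Finset Λ) (hA : Monotone A) (a : ℕ → ℝ) (ha : ∀ r, 0 < a r)
    (k : ℕ) (ε : ℝ) (hε : 0 < ε) {Ω : (Λ → Q) → ℂ} (hΩ : nsq Ω = 1) :
    ∃ (x : ℕ → Matrix (Λ → Q) (Λ → Q) ℂ × ((Λ → Q) → ℝ)) (u : (Λ → Q) → ℂ) (c : ℝ),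
      Dom A x ∧ 0 < c ∧ nsq u = 1 ∧ seg (PP a x) 0 k *ᵥ Ω = (c : ℂ) • u ∧
      (∀ y, Dom A y → nsq (seg (PP a y) 0 k *ᵥ Ω) * reg k ε y ≤ c ^ 2 * reg k ε x) ∧
      ∀ r, r < k → Own (A r) u (x r).1 (x r).2 := by
  obtain ⟨x, hx, hm⟩ := exists_max A a ha k ε hε Ω
  have hq : (0 : ℝ) < Fintype.card Q := by exact_mod_cast Fintype.card_pos
  have hpos : 0 < nsq (seg (PP a x) 0 k *ᵥ Ω) * reg k ε x := by
    refine lt_of_lt_of_le ?_ (hm (fun r => ((1 : Matrix (Λ → Q) (Λ → Q) ℂ),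
      fun _ => ((Fintype.card Q : ℝ) ^ (A r).card)⁻¹)) fun r => spec_flat (A r))
    obtain ⟨t, ht, h⟩ := var_flat (Q := Q) A a k
    rw [h, smul_mulVec, one_mulVec, nsq_smul, hΩ]
    refine mul_pos ?_ ?_
    · have : ‖(t : ℂ)‖ = t := by simp [abs_of_pos ht]
      rw [this]
      positivity
    · exact Finset.prod_pos fun r _ => Finset.prod_pos fun s _ => by positivity
  have hr0 : 0 ≤ reg k ε x := Finset.prod_nonneg fun r _ =>
    Finset.prod_nonneg fun s _ => Real.rpow_nonneg ((hx r).nonneg s) _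
  have hv : 0 < nsq (seg (PP a x) 0 k *ᵥ Ω) := pos_of_mul_pos_of_pos_right' hpos hr0
  have hr : 0 < reg k ε x := pos_of_mul_pos_of_pos_left' hpos (nsq_nonneg _)
  set c := Real.sqrt (nsq (seg (PP a x) 0 k *ᵥ Ω)) with hc
  have hc0 : 0 < c := Real.sqrt_pos.2 hv
  have hc2 : c ^ 2 = nsq (seg (PP a x) 0 k *ᵥ Ω) := Real.sq_sqrt hv.le
  set u : (Λ → Q) → ℂ := ((c⁻¹ : ℝ) : ℂ) • (seg (PP a x) 0 k *ᵥ Ω) with hu
  have hu1 : nsq u = 1 := by
    rw [hu, nsq_smul, ← hc2, Complex.norm_real, Real.norm_eq_abs, sq_abs]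
    field_simp
  have hs : seg (PP a x) 0 k *ᵥ Ω = (c : ℂ) • u := by
    rw [hu, smul_smul, ← Complex.ofReal_mul, mul_inv_cancel₀ hc0.ne']
    simp
  have key : ∀ n j, j + n = k → ∃ x', Dom A x' ∧ seg (PP a x') 0 k *ᵥ Ω = (c : ℂ) • u ∧
      reg k ε x' = reg k ε x ∧ ∀ r, j ≤ r → r < k → Own (A r) u (x' r).1 (x' r).2 := by
    intro n
    induction n with
    | zero => exact fun j hj => ⟨x, hx, hs, rfl, fun r h1 h2 => by omega⟩
    | succ n ih =>
      intro j hj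
      obtain ⟨x1, a1, a2, a3, a4⟩ := ih (j + 1) (by omega)
      have hk : k = j + 1 + n := by omega
      subst hk
      obtain ⟨x2, b1, b2, b3, b4⟩ := var_level A hA a ha j n ε hε Ω x1 u c a1 hc0 hu1 a2
        (fun y hy => by rw [a3, hc2]; exact hm y hy) (by rw [a3]; exact hr) a4
      exact ⟨x2, b1, b2, b3.trans a3, b4⟩
  obtain ⟨x', a1, a2, a3, a4⟩ := key k 0 (by omega)
  exact ⟨x', u, c, a1, hc0, hu1, a2, fun y hy => by rw [a3, hc2]; exact hm y hy,
    fun r hr => a4 r (Nat.zero_le _) hr⟩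

end Vale.Agent.P356
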